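import Crest.Agent.Lib.SCE.Spec

/-!
# S0175, module A, part 1: the measures `ν`, `μ`, basic support facts and the density `ρ`.
-/

set_option autoImplicit false
set_option linter.unusedSectionVars false
set_option linter.unusedVariables false

open MeasureTheory Set
open scoped ENNReal ContDiff NNReal
open Crest.AnalysisR.OT

namespace Crest.Agent.Lib.SCE

variable {d : ℕ} {s : ℝ}

lemma sqMeas_eq (f : E d → ℝ) :
    sqMeas f = volume.withDensity fun x => ENNReal.ofReal (f x ^ 2) := rfl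

lemma meas_ofReal_sq {f : E d → ℝ} (hf : Continuous f) :
    Measurable fun x => ENNReal.ofReal (f x ^ 2) :=
  (ENNReal.continuous_ofReal.comp (hf.pow 2)).measurable

namespace Setup

variable (D : Setup d s)

/-- source measure `ν = g² dx`. -/
noncomputable abbrev ν : Measure (E d) := sqMeas D.g

/-- support of the source. -/
abbrev K : Set (E d) := tsupport D.g

lemma g_cont : Continuous D.g := D.g_smooth.continuous

lemma isCompact_K : IsCompact D.K := D.g_compact.isCompact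

lemma measurableSet_K : MeasurableSet D.K := D.isCompact_K.isClosed.measurableSet

lemma isCompact_Ki (i : Fin 4) : IsCompact (D.Ψ i '' D.K) :=
  D.isCompact_K.image_of_continuousOn (D.Ψ_cont i)

lemma measurableSet_Ki (i : Fin 4) : MeasurableSet (D.Ψ i '' D.K) :=
  (D.isCompact_Ki i).isClosed.measurableSet

lemma isCompact_S : IsCompact D.S := by
  rw [D.S_eq]
  exact D.isCompact_K.union (isCompact_iUnion fun i => D.isCompact_Ki i)

lemma measurableSet_S : MeasurableSet D.S := D.isCompact_S.isClosed.measurableSet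

lemma K_subset_S : D.K ⊆ D.S := by
  rw [D.S_eq]; exact subset_union_left

lemma Ki_subset_S (i : Fin 4) : D.Ψ i '' D.K ⊆ D.S := by
  rw [D.S_eq]
  exact (subset_iUnion (fun i => D.Ψ i '' D.K) i).trans subset_union_right

lemma Ψ_mem_S (i : Fin 4) {x : E d} (hx : x ∈ D.K) : D.Ψ i x ∈ D.S :=
  D.Ki_subset_S i (mem_image_of_mem _ hx)

lemma ν_univ : D.ν univ = 1 := by
  unfold ν
  rw [sqMeas_eq, withDensity_apply _ MeasurableSet.univ, Measure.restrict_univ]
  have hint : Integrable (fun x => D.g x ^ 2) (volume : Measure (E d)) :=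
    (D.g_cont.pow 2).integrable_of_hasCompactSupport
      (HasCompactSupport.intro D.isCompact_K fun x hx => by
        have : D.g x = 0 := image_eq_zero_of_notMem_tsupport hx
        simp [this])
  rw [← ofReal_integral_eq_lintegral_ofReal hint (Filter.Eventually.of_forall fun x => by positivity),
    D.g_int, ENNReal.ofReal_one]

instance : IsProbabilityMeasure D.ν := ⟨D.ν_univ⟩

lemma ν_compl_K : D.ν D.Kᶜ = 0 := by
  unfold ν
  rw [sqMeas_eq, withDensity_apply _ D.measurableSet_K.compl]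
  rw [setLIntegral_congr_fun (g := fun _ => 0) D.measurableSet_K.compl]
  · simp
  · intro x hx
    have : D.g x = 0 := image_eq_zero_of_notMem_tsupport hx
    simp [this]

lemma ae_K : ∀ᵐ x ∂D.ν, x ∈ D.K := by
  rw [ae_iff]; exact D.ν_compl_K

/-- the total measure `μ = (1/6) (2 ν + ∑ Ψ_i # ν)`. -/
noncomputable def μ : Measure (E d) :=
  (6⁻¹ : ℝ≥0∞) • ((2 : ℝ≥0∞) • D.ν + ∑ i, D.ν.map (D.Ψ i))

lemma inv6_mul_six : (6⁻¹ : ℝ≥0∞) * 6 = 1 :=
  ENNReal.inv_mul_cancel (by norm_num) (by norm_num)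

lemma six_ne_top : (6 : ℝ≥0∞) ≠ ⊤ := by norm_num

lemma lint_μ (F : E d → ℝ≥0∞) (hF : Measurable F) :
    ∫⁻ x, F x ∂D.μ = 6⁻¹ * (2 * ∫⁻ x, F x ∂D.ν +
      (∫⁻ x, F (D.Ψ 0 x) ∂D.ν + ∫⁻ x, F (D.Ψ 1 x) ∂D.ν +
        ∫⁻ x, F (D.Ψ 2 x) ∂D.ν + ∫⁻ x, F (D.Ψ 3 x) ∂D.ν)) := by
  unfold μ
  rw [lintegral_smul_measure, lintegral_add_measure, lintegral_smul_measure,
    lintegral_finsetSum_measure, Fin.sum_univ_four]
  simp only [smul_eq_mul]
  rw [lintegral_map hF (D.Ψ_meas 0), lintegral_map hF (D.Ψ_meas 1), lintegral_map hF (D.Ψ_meas 2),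
    lintegral_map hF (D.Ψ_meas 3)]

lemma μ_univ : D.μ univ = 1 := by
  have := D.lint_μ (fun _ => 1) measurable_const
  simp only [lintegral_const, mul_one, measure_univ, one_mul] at this
  rw [this]
  have h : (2 + (1 + 1 + 1 + 1) : ℝ≥0∞) = 6 := by norm_num
  rw [h, inv6_mul_six]

instance : IsProbabilityMeasure D.μ := ⟨D.μ_univ⟩

/-- `g` vanishes on the other regions. -/
lemma g_ne_zero_mem {x : E d} (h : D.g x ≠ 0) : x ∈ D.K := subset_tsupport _ h

lemma g_mul_r (i : Fin 4) (x : E d) : D.g x * D.r i x = 0 := by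
  by_contra hne
  have h1 : D.g x ≠ 0 := left_ne_zero_of_mul hne
  have h2 : D.r i x ≠ 0 := right_ne_zero_of_mul hne
  obtain ⟨y, hy, rfl⟩ := D.r_support i x h2
  exact D.disj_0 i _ (D.g_ne_zero_mem h1) y hy rfl

lemma r_mul_r {i j : Fin 4} (hij : i ≠ j) (x : E d) : D.r i x * D.r j x = 0 := by
  by_contra hne
  have h1 : D.r i x ≠ 0 := left_ne_zero_of_mul hne
  have h2 : D.r j x ≠ 0 := right_ne_zero_of_mul hne
  obtain ⟨y, hy, rfl⟩ := D.r_support i x h1
  obtain ⟨z, hz, hzy⟩ := D.r_support j _ h2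
  exact D.disj_ij i j hij y hy z hz hzy.symm

/-- the density `ρ`. -/
noncomputable def ρ (x : E d) : ℝ := 6⁻¹ * (2 * D.g x ^ 2 + ∑ i, D.r i x ^ 2)

lemma ρ_nonneg (x : E d) : 0 ≤ D.ρ x := by
  unfold ρ; positivity

lemma ρ_smooth : ContDiff ℝ ∞ D.ρ := by
  unfold ρ
  refine contDiff_const.mul ((contDiff_const.mul (D.g_smooth.pow 2)).add ?_)
  exact ContDiff.sum fun i _ => (D.r_smooth i).pow 2

lemma ρ_compact : HasCompactSupport D.ρ := by
  refine HasCompactSupport.intro D.isCompact_S fun x hx => ?_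
  have hg : D.g x = 0 := by
    by_contra h
    exact hx (D.K_subset_S (D.g_ne_zero_mem h))
  have hr : ∀ i, D.r i x = 0 := by
    intro i
    by_contra h
    obtain ⟨y, hy, rfl⟩ := D.r_support i x h
    exact hx (D.Ψ_mem_S i hy)
  simp [ρ, hg, hr]

/-- the square root of `ρ`. -/
noncomputable def rootρ (x : E d) : ℝ :=
  (Real.sqrt 3)⁻¹ * (D.g x + (Real.sqrt 2)⁻¹ * ∑ i, D.r i x)

lemma rootρ_nonneg (x : E d) : 0 ≤ D.rootρ x := by
  unfold rootρ
  have h1 : 0 ≤ D.g x := D.g_nonneg x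
  have h2 : 0 ≤ ∑ i, D.r i x := Finset.sum_nonneg fun i _ => D.r_nonneg i x
  positivity

lemma rootρ_sq (x : E d) : D.rootρ x ^ 2 = D.ρ x := by
  unfold rootρ ρ
  have h3 : (Real.sqrt 3) ^ 2 = 3 := Real.sq_sqrt (by norm_num)
  have h2 : (Real.sqrt 2) ^ 2 = 2 := Real.sq_sqrt (by norm_num)
  have h3p : Real.sqrt 3 ≠ 0 := by positivity
  have h2p : Real.sqrt 2 ≠ 0 := by positivity
  simp only [Fin.sum_univ_four]
  have g0 := D.g_mul_r 0 x
  have g1 := D.g_mul_r 1 x
  have g2 := D.g_mul_r 2 x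
  have g3 := D.g_mul_r 3 x
  have r01 := D.r_mul_r (i := 0) (j := 1) (by decide) x
  have r02 := D.r_mul_r (i := 0) (j := 2) (by decide) x
  have r03 := D.r_mul_r (i := 0) (j := 3) (by decide) x
  have r12 := D.r_mul_r (i := 1) (j := 2) (by decide) x
  have r13 := D.r_mul_r (i := 1) (j := 3) (by decide) x
  have r23 := D.r_mul_r (i := 2) (j := 3) (by decide) x
  set a := D.g x
  set b0 := D.r 0 x
  set b1 := D.r 1 x
  set b2 := D.r 2 x
  set b3 := D.r 3 x
  have key : (a + (Real.sqrt 2)⁻¹ * (b0 + b1 + b2 + b3)) ^ 2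
      = a ^ 2 + 2⁻¹ * (b0 ^ 2 + b1 ^ 2 + b2 ^ 2 + b3 ^ 2) := by
    have hi : ((Real.sqrt 2)⁻¹) ^ 2 = 2⁻¹ := by rw [inv_pow, h2]
    set c := (Real.sqrt 2)⁻¹
    calc (a + c * (b0 + b1 + b2 + b3)) ^ 2
        = a ^ 2 + c ^ 2 * (b0 ^ 2 + b1 ^ 2 + b2 ^ 2 + b3 ^ 2)
          + 2 * c * (a * b0 + a * b1 + a * b2 + a * b3)
          + 2 * c ^ 2 * (b0 * b1 + b0 * b2 + b0 * b3 + b1 * b2 + b1 * b3 + b2 * b3) := by ring
      _ = _ := by rw [g0, g1, g2, g3, r01, r02, r03, r12, r13, r23, hi]; ring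
  rw [mul_pow, key, inv_pow, h3]
  ring

lemma sqrt_ρ (x : E d) : Real.sqrt (D.ρ x) = D.rootρ x := by
  rw [← D.rootρ_sq x, Real.sqrt_sq (D.rootρ_nonneg x)]

lemma sqrtρ_smooth : ContDiff ℝ ∞ (fun x => Real.sqrt (D.ρ x)) := by
  have : (fun x => Real.sqrt (D.ρ x)) = D.rootρ := funext D.sqrt_ρ
  rw [this]
  unfold rootρ
  refine contDiff_const.mul (D.g_smooth.add (contDiff_const.mul ?_))
  exact ContDiff.sum fun i _ => D.r_smooth i

lemma meas_eq : measOfDensity D.ρ = D.μ := by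
  have h1 : (fun x => ENNReal.ofReal (D.ρ x)) =
      (6⁻¹ : ℝ≥0∞) • ((2 : ℝ≥0∞) • (fun x => ENNReal.ofReal (D.g x ^ 2)) +
        ((fun x => ENNReal.ofReal (D.r 0 x ^ 2)) + (fun x => ENNReal.ofReal (D.r 1 x ^ 2)) +
         (fun x => ENNReal.ofReal (D.r 2 x ^ 2)) + (fun x => ENNReal.ofReal (D.r 3 x ^ 2)))) := by
    funext x
    simp only [ρ, Pi.smul_apply, Pi.add_apply, smul_eq_mul, Fin.sum_univ_four]
    rw [ENNReal.ofReal_mul (by norm_num), ENNReal.ofReal_add (by positivity) (by positivity),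
      ENNReal.ofReal_mul (by norm_num), ENNReal.ofReal_add (by positivity) (by positivity),
      ENNReal.ofReal_add (by positivity) (by positivity),
      ENNReal.ofReal_add (by positivity) (by positivity)]
    congr 1
    · rw [ENNReal.ofReal_inv_of_pos (by norm_num)]
      norm_num
    · congr 1
      norm_num
  have mg := meas_ofReal_sq D.g_cont
  have mr : ∀ i, Measurable fun x => ENNReal.ofReal (D.r i x ^ 2) :=
    fun i => meas_ofReal_sq (D.r_smooth i).continuous
  unfold measOfDensity μ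
  rw [h1, withDensity_smul _ ((mg.const_smul _).add ((((mr 0).add (mr 1)).add (mr 2)).add (mr 3))),
    withDensity_add_left (mg.const_smul _), withDensity_smul _ mg]
  congr 2
  simp only [Fin.sum_univ_four, D.r_map]
  rw [withDensity_add_left (((mr 0).add (mr 1)).add (mr 2)),
    withDensity_add_left ((mr 0).add (mr 1)), withDensity_add_left (mr 0)]
  rfl

lemma integral_ρ : ∫ x, D.ρ x = 1 := by
  have hint : Integrable D.ρ (volume : Measure (E d)) :=
    D.ρ_smooth.continuous.integrable_of_hasCompactSupport D.ρ_compact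
  have h0 : ∫⁻ x, ENNReal.ofReal (D.ρ x) = 1 := by
    have := D.μ_univ
    rw [← D.meas_eq] at this
    unfold measOfDensity at this
    rwa [withDensity_apply _ MeasurableSet.univ, Measure.restrict_univ] at this
  rw [integral_eq_lintegral_of_nonneg_ae (Filter.Eventually.of_forall D.ρ_nonneg)
    hint.aestronglyMeasurable, h0]
  simp

end Setup
end Crest.Agent.Lib.SCE
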