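import Crest.Agent.Lib.SCE.Abstract1

/-!
# S0175, module A, part 2: the plan `π₀`, its cost, optimality and strict Monge gap.
-/

set_option autoImplicit false
set_option linter.unusedSectionVars false
set_option linter.unusedVariables false

open MeasureTheory Set
open scoped ENNReal ContDiff NNReal
open Crest.AnalysisR.OT

namespace Crest.Agent.Lib.SCE

variable {d : ℕ} {s : ℝ}

lemma pairCost_comm {F : Type*} [NormedAddCommGroup F] (s : ℝ) (x y : F) :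
    pairCost s x y = pairCost s y x := by
  unfold pairCost; rw [norm_sub_rev]

lemma tripleCost_rot {F : Type*} [NormedAddCommGroup F] (s : ℝ) (x y z : F) :
    tripleCost s (y, z, x) = tripleCost s (x, y, z) := by
  unfold tripleCost
  simp only
  rw [pairCost_comm s y x, pairCost_comm s z x]
  ac_rfl

lemma continuous_pairCost {F : Type*} [NormedAddCommGroup F] (s : ℝ) :
    Continuous fun p : F × F => pairCost s p.1 p.2 := by
  unfold pairCost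
  exact ENNReal.continuous_rpow_const.comp
    (ENNReal.continuous_ofReal.comp (continuous_norm.comp (continuous_fst.sub continuous_snd)))

lemma continuous_tripleCost {F : Type*} [NormedAddCommGroup F] (s : ℝ) :
    Continuous (tripleCost s : F × F × F → ℝ≥0∞) := by
  unfold tripleCost
  have h := continuous_pairCost (F := F) s
  refine ((h.comp (continuous_fst.prodMk (continuous_fst.comp continuous_snd))).add
    (h.comp (continuous_fst.prodMk (continuous_snd.comp continuous_snd)))).add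
    (h.comp ((continuous_fst.comp continuous_snd).prodMk (continuous_snd.comp continuous_snd)))

lemma measurable_tripleCost (s : ℝ) :
    Measurable (tripleCost s : E d × E d × E d → ℝ≥0∞) :=
  (continuous_tripleCost s).measurable

lemma lint_add3 {α : Type*} [MeasurableSpace α] (m : Measure α) {a b c : α → ℝ≥0∞}
    (hb : Measurable b) (hc : Measurable c) :
    ∫⁻ x, a x + b x + c x ∂m = ∫⁻ x, a x ∂m + ∫⁻ x, b x ∂m + ∫⁻ x, c x ∂m := by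
  rw [lintegral_add_right _ hc, lintegral_add_right _ hb]

namespace Setup

variable (D : Setup d s)

lemma μ_apply {A : Set (E d)} (hA : MeasurableSet A) :
    D.μ A = 6⁻¹ * (2 * D.ν A + (D.ν (D.Ψ 0 ⁻¹' A) + D.ν (D.Ψ 1 ⁻¹' A) +
      D.ν (D.Ψ 2 ⁻¹' A) + D.ν (D.Ψ 3 ⁻¹' A))) := by
  have h := D.lint_μ (A.indicator 1) (measurable_one.indicator hA)
  rw [lintegral_indicator_one hA, lintegral_indicator_one hA] at h
  have e : ∀ i, ∫⁻ x, A.indicator (1 : E d → ℝ≥0∞) (D.Ψ i x) ∂D.ν = D.ν (D.Ψ i ⁻¹' A) := by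
    intro i
    rw [← lintegral_indicator_one ((D.Ψ_meas i) hA)]
    rfl
  rw [e 0, e 1, e 2, e 3] at h
  exact h

lemma ν_le_of_μ_zero {A : Set (E d)} (hA : MeasurableSet A) (h : D.μ A = 0) : D.ν A = 0 := by
  rw [D.μ_apply hA] at h
  simp at h
  exact h.1

lemma ν_ac_μ : D.ν ≪ D.μ :=
  Measure.AbsolutelyContinuous.mk fun A hA h => D.ν_le_of_μ_zero hA h

/-- for a set on which no `Ψ_i` lands (a.e.), only the `ν` term counts. -/
lemma ν_preimage_zero {A : Set (E d)} (i : Fin 4) (h : ∀ x ∈ D.K, D.Ψ i x ∉ A) :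
    D.ν (D.Ψ i ⁻¹' A) = 0 :=
  measure_mono_null (fun x hx hxK => h x hxK hx) D.ν_compl_K

lemma ν_zero_of_subset_Ki {A : Set (E d)} (i : Fin 4) (h : A ⊆ D.Ψ i '' D.K) :
    D.ν A = 0 := by
  have hs : A ⊆ D.Kᶜ := by
    intro x hx hxK
    obtain ⟨y, hy, rfl⟩ := h hx
    exact D.disj_0 i _ hxK y hy rfl
  exact measure_mono_null hs D.ν_compl_K

lemma ae_S : ∀ᵐ x ∂D.μ, x ∈ D.S := by
  rw [ae_iff]
  change D.μ D.Sᶜ = 0
  rw [D.μ_apply D.measurableSet_S.compl]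
  have h0 : D.ν D.Sᶜ = 0 :=
    measure_mono_null (fun x hx hxK => hx (D.K_subset_S hxK)) D.ν_compl_K
  have hi : ∀ i, D.ν (D.Ψ i ⁻¹' D.Sᶜ) = 0 := fun i =>
    D.ν_preimage_zero i fun x hx hm => hm (D.Ψ_mem_S i hx)
  rw [h0, hi 0, hi 1, hi 2, hi 3]
  simp

/-- the plan. -/
noncomputable def π₀ : Measure (E d × E d × E d) :=
  (6⁻¹ : ℝ≥0∞) • (D.ν.map (fun x => (x, D.Ψ 0 x, D.Ψ 1 x)) +
    D.ν.map (fun x => (D.Ψ 0 x, D.Ψ 1 x, x)) + D.ν.map (fun x => (D.Ψ 1 x, x, D.Ψ 0 x)) +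
    D.ν.map (fun x => (x, D.Ψ 2 x, D.Ψ 3 x)) + D.ν.map (fun x => (D.Ψ 2 x, D.Ψ 3 x, x)) +
    D.ν.map (fun x => (D.Ψ 3 x, x, D.Ψ 2 x)))

lemma lint_π₀ (G : E d × E d × E d → ℝ≥0∞) (hG : Measurable G) :
    ∫⁻ p, G p ∂D.π₀ = 6⁻¹ * (∫⁻ x, G (x, D.Ψ 0 x, D.Ψ 1 x) ∂D.ν +
      ∫⁻ x, G (D.Ψ 0 x, D.Ψ 1 x, x) ∂D.ν + ∫⁻ x, G (D.Ψ 1 x, x, D.Ψ 0 x) ∂D.ν +
      ∫⁻ x, G (x, D.Ψ 2 x, D.Ψ 3 x) ∂D.ν + ∫⁻ x, G (D.Ψ 2 x, D.Ψ 3 x, x) ∂D.ν +
      ∫⁻ x, G (D.Ψ 3 x, x, D.Ψ 2 x) ∂D.ν) := by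
  have m := D.Ψ_meas
  unfold π₀
  rw [lintegral_smul_measure]
  simp only [lintegral_add_measure, smul_eq_mul]
  have f1 : Measurable (fun x => (x, D.Ψ 0 x, D.Ψ 1 x)) := measurable_id.prodMk ((m 0).prodMk (m 1))
  have f2 : Measurable (fun x => (D.Ψ 0 x, D.Ψ 1 x, x)) := (m 0).prodMk ((m 1).prodMk measurable_id)
  have f3 : Measurable (fun x => (D.Ψ 1 x, x, D.Ψ 0 x)) := (m 1).prodMk (measurable_id.prodMk (m 0))
  have f4 : Measurable (fun x => (x, D.Ψ 2 x, D.Ψ 3 x)) := measurable_id.prodMk ((m 2).prodMk (m 3))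
  have f5 : Measurable (fun x => (D.Ψ 2 x, D.Ψ 3 x, x)) := (m 2).prodMk ((m 3).prodMk measurable_id)
  have f6 : Measurable (fun x => (D.Ψ 3 x, x, D.Ψ 2 x)) := (m 3).prodMk (measurable_id.prodMk (m 2))
  rw [lintegral_map hG f1, lintegral_map hG f2, lintegral_map hG f3, lintegral_map hG f4,
    lintegral_map hG f5, lintegral_map hG f6]

lemma coupling_π₀ : IsCoupling₃ D.μ D.π₀ := by
  refine ⟨?_, ?_, ?_⟩
  · refine Measure.ext_of_lintegral _ fun F hF => ?_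
    rw [lintegral_map hF measurable_fst, D.lint_π₀ (fun p => F p.1) (hF.comp measurable_fst),
      D.lint_μ F hF]
    ring
  · refine Measure.ext_of_lintegral _ fun F hF => ?_
    have hm : Measurable (fun p : E d × E d × E d => p.2.1) := measurable_fst.comp measurable_snd
    rw [lintegral_map hF hm, D.lint_π₀ (fun p => F p.2.1) (hF.comp hm), D.lint_μ F hF]
    ring
  · refine Measure.ext_of_lintegral _ fun F hF => ?_
    have hm : Measurable (fun p : E d × E d × E d => p.2.2) := measurable_snd.comp measurable_snd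
    rw [lintegral_map hF hm, D.lint_π₀ (fun p => F p.2.2) (hF.comp hm), D.lint_μ F hF]
    ring

/-- the optimal value. -/
noncomputable def C₀ : ℝ≥0∞ := ∫⁻ x, tripleCost s (x, D.Ψ 0 x, D.Ψ 1 x) ∂D.ν

lemma cost1_eq : ∫⁻ x, tripleCost s (x, D.Ψ 2 x, D.Ψ 3 x) ∂D.ν = D.C₀ :=
  lintegral_congr_ae (D.ae_K.mono fun x hx => (D.cost_eq x hx).symm)

lemma six_inv_six (a : ℝ≥0∞) : (6⁻¹ : ℝ≥0∞) * (6 * a) = a := by
  rw [← mul_assoc, inv6_mul_six, one_mul]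

lemma cost_π₀ : ∫⁻ p, tripleCost s p ∂D.π₀ = D.C₀ := by
  rw [D.lint_π₀ _ (measurable_tripleCost s)]
  simp only [tripleCost_rot s]
  have h : ∀ x, tripleCost s (D.Ψ 1 x, x, D.Ψ 0 x) = tripleCost s (x, D.Ψ 0 x, D.Ψ 1 x) := by
    intro x
    rw [tripleCost_rot s (D.Ψ 1 x) x (D.Ψ 0 x), tripleCost_rot s]
  have h' : ∀ x, tripleCost s (D.Ψ 3 x, x, D.Ψ 2 x) = tripleCost s (x, D.Ψ 2 x, D.Ψ 3 x) := by
    intro x
    rw [tripleCost_rot s (D.Ψ 3 x) x (D.Ψ 2 x), tripleCost_rot s]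
  simp only [h, h', cost1_eq]
  have : ∫⁻ x, tripleCost s (x, D.Ψ 0 x, D.Ψ 1 x) ∂D.ν = D.C₀ := rfl
  rw [this]
  have e : D.C₀ + D.C₀ + D.C₀ + D.C₀ + D.C₀ + D.C₀ = 6 * D.C₀ := by ring
  rw [e, six_inv_six]

lemma C₀_lt_top : D.C₀ < ⊤ := by
  have hb : ∀ᵐ x ∂D.ν, tripleCost s (x, D.Ψ 0 x, D.Ψ 1 x) ≤ 3 * (D.Ubar : ℝ≥0∞) := by
    filter_upwards [D.ae_K] with x hx
    have e := D.eq_0 x hx
    have h1 := D.u_bd x (D.K_subset_S hx)
    have h2 := D.u_bd _ (D.Ψ_mem_S 0 hx)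
    have h3 := D.u_bd _ (D.Ψ_mem_S 1 hx)
    calc tripleCost s (x, D.Ψ 0 x, D.Ψ 1 x) ≤ tripleCost s (x, D.Ψ 0 x, D.Ψ 1 x) + D.B := le_self_add
      _ = D.u x + D.u (D.Ψ 0 x) + D.u (D.Ψ 1 x) := e.symm
      _ ≤ D.Ubar + D.Ubar + D.Ubar := by gcongr
      _ = 3 * (D.Ubar : ℝ≥0∞) := by ring
  have := lintegral_mono_ae hb
  simp only [lintegral_const, measure_univ, mul_one] at this
  exact lt_of_le_of_lt this (ENNReal.mul_lt_top (by norm_num) ENNReal.coe_lt_top)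

lemma meas_u_comp (i : Fin 4) : Measurable fun x => D.u (D.Ψ i x) := D.u_meas.comp (D.Ψ_meas i)

lemma int_u0 : ∫⁻ x, D.u x ∂D.ν + ∫⁻ x, D.u (D.Ψ 0 x) ∂D.ν + ∫⁻ x, D.u (D.Ψ 1 x) ∂D.ν
    = D.C₀ + D.B := by
  rw [← lint_add3 _ (D.meas_u_comp 0) (D.meas_u_comp 1)]
  have h : ∀ᵐ x ∂D.ν, D.u x + D.u (D.Ψ 0 x) + D.u (D.Ψ 1 x)
      = tripleCost s (x, D.Ψ 0 x, D.Ψ 1 x) + D.B :=
    D.ae_K.mono fun x hx => D.eq_0 x hx
  rw [lintegral_congr_ae h, lintegral_add_right _ measurable_const]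
  simp [C₀]

lemma int_u1 : ∫⁻ x, D.u x ∂D.ν + ∫⁻ x, D.u (D.Ψ 2 x) ∂D.ν + ∫⁻ x, D.u (D.Ψ 3 x) ∂D.ν
    = D.C₀ + D.B := by
  rw [← lint_add3 _ (D.meas_u_comp 2) (D.meas_u_comp 3)]
  have h : ∀ᵐ x ∂D.ν, D.u x + D.u (D.Ψ 2 x) + D.u (D.Ψ 3 x)
      = tripleCost s (x, D.Ψ 2 x, D.Ψ 3 x) + D.B :=
    D.ae_K.mono fun x hx => D.eq_1 x hx
  rw [lintegral_congr_ae h, lintegral_add_right _ measurable_const, cost1_eq]
  simp

/-- `6⁻¹ * (3 * (2 * a))` simplification. -/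
lemma three_six_two (a : ℝ≥0∞) : (3 : ℝ≥0∞) * ((6⁻¹ : ℝ≥0∞) * (2 * a)) = a := by
  have : (3 : ℝ≥0∞) * ((6⁻¹ : ℝ≥0∞) * (2 * a)) = (6⁻¹ : ℝ≥0∞) * (6 * a) := by
    have e : (6 : ℝ≥0∞) = 3 * 2 := by norm_num
    rw [e]; ring
  rw [this, six_inv_six]

lemma three_int_u : ∫⁻ x, D.u x ∂D.μ + ∫⁻ x, D.u x ∂D.μ + ∫⁻ x, D.u x ∂D.μ = D.C₀ + D.B := by
  have h0 := D.int_u0
  have h1 := D.int_u1
  rw [D.lint_μ D.u D.u_meas]
  set a := ∫⁻ x, D.u x ∂D.ν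
  set b0 := ∫⁻ x, D.u (D.Ψ 0 x) ∂D.ν
  set b1 := ∫⁻ x, D.u (D.Ψ 1 x) ∂D.ν
  set b2 := ∫⁻ x, D.u (D.Ψ 2 x) ∂D.ν
  set b3 := ∫⁻ x, D.u (D.Ψ 3 x) ∂D.ν
  have e : 2 * a + (b0 + b1 + b2 + b3) = 2 * (D.C₀ + D.B) := by
    rw [two_mul (D.C₀ + D.B)]
    nth_rewrite 1 [← h0]
    rw [← h1]
    ring
  rw [e]
  have := three_six_two (D.C₀ + D.B)
  calc _ = (3 : ℝ≥0∞) * ((6⁻¹ : ℝ≥0∞) * (2 * (D.C₀ + D.B))) := by ring
    _ = _ := this

/-- Duality inequality for any coupling. -/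
lemma dual_bound (π : Measure (E d × E d × E d)) (hπ : IsCoupling₃ D.μ π) :
    D.C₀ ≤ ∫⁻ p, tripleCost s p ∂π := by
  obtain ⟨h1, h2, h3⟩ := hπ
  have m1 : Measurable (fun p : E d × E d × E d => p.1) := measurable_fst
  have m2 : Measurable (fun p : E d × E d × E d => p.2.1) := measurable_fst.comp measurable_snd
  have m3 : Measurable (fun p : E d × E d × E d => p.2.2) := measurable_snd.comp measurable_snd
  have huniv : π univ = 1 := by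
    have : (π.map (fun p => p.1)) univ = 1 := by rw [h1]; exact D.μ_univ
    rwa [Measure.map_apply m1 MeasurableSet.univ, preimage_univ] at this
  have hS := D.ae_S
  have a1 : ∀ᵐ p ∂π, p.1 ∈ D.S := by
    rw [← h1] at hS
    exact (ae_map_iff m1.aemeasurable D.measurableSet_S).1 hS
  have a2 : ∀ᵐ p ∂π, p.2.1 ∈ D.S := by
    have hS := D.ae_S
    rw [← h2] at hS
    exact (ae_map_iff m2.aemeasurable D.measurableSet_S).1 hS
  have a3 : ∀ᵐ p ∂π, p.2.2 ∈ D.S := by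
    have hS := D.ae_S
    rw [← h3] at hS
    exact (ae_map_iff m3.aemeasurable D.measurableSet_S).1 hS
  have hle : ∀ᵐ p ∂π, D.u p.1 + D.u p.2.1 + D.u p.2.2 ≤ tripleCost s p + D.B := by
    filter_upwards [a1, a2, a3] with p h1 h2 h3
    exact D.dual _ h1 _ h2 _ h3
  have hi := lintegral_mono_ae hle
  have e1 : ∫⁻ p, D.u p.1 ∂π = ∫⁻ x, D.u x ∂D.μ := by
    rw [← h1, lintegral_map D.u_meas m1]
  have e2 : ∫⁻ p, D.u p.2.1 ∂π = ∫⁻ x, D.u x ∂D.μ := by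
    rw [← h2, lintegral_map D.u_meas m2]
  have e3 : ∫⁻ p, D.u p.2.2 ∂π = ∫⁻ x, D.u x ∂D.μ := by
    rw [← h3, lintegral_map D.u_meas m3]
  rw [lint_add3 π (a := fun p => D.u p.1) (b := fun p => D.u p.2.1) (c := fun p => D.u p.2.2)
    (D.u_meas.comp m2) (D.u_meas.comp m3), lintegral_add_right _ measurable_const,
    e1, e2, e3, D.three_int_u, lintegral_const, huniv, mul_one] at hi
  exact (ENNReal.add_le_add_iff_right ENNReal.coe_ne_top).1 hi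

lemma K_nonempty : D.K.Nonempty := by
  by_contra h
  rw [not_nonempty_iff_eq_empty] at h
  have h1 := D.ν_compl_K
  rw [h, compl_empty, D.ν_univ] at h1
  exact one_ne_zero h1

lemma Wbar_nonneg : 0 ≤ D.Wbar := by
  obtain ⟨x, hx⟩ := D.K_nonempty
  exact (abs_nonneg _).trans (D.w_bd x (D.K_subset_S hx))

/-- the shifted second potential. -/
noncomputable def W (x : E d) : ℝ≥0∞ := ENNReal.ofReal (D.w x + D.Wbar)

lemma W_meas : Measurable D.W := (D.w_meas.add_const _).ennreal_ofReal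

lemma W_nonneg {x : E d} (hx : x ∈ D.S) : 0 ≤ D.w x + D.Wbar := by
  have := abs_le.1 (D.w_bd x hx)
  linarith [this.1]

lemma W_add {x y z : E d} (hx : x ∈ D.S) (hy : y ∈ D.S) (hz : z ∈ D.S) :
    D.W x + D.W y + D.W z = ENNReal.ofReal (D.w x + D.w y + D.w z + 3 * D.Wbar) := by
  unfold W
  rw [← ENNReal.ofReal_add (D.W_nonneg hx) (D.W_nonneg hy),
    ← ENNReal.ofReal_add (add_nonneg (D.W_nonneg hx) (D.W_nonneg hy)) (D.W_nonneg hz)]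
  congr 1
  ring

lemma int_W0 : ∫⁻ x, D.W x ∂D.ν + ∫⁻ x, D.W (D.Ψ 0 x) ∂D.ν + ∫⁻ x, D.W (D.Ψ 1 x) ∂D.ν
    = ENNReal.ofReal (3 * D.Wbar) := by
  have m0 : Measurable fun x => D.W (D.Ψ 0 x) := D.W_meas.comp (D.Ψ_meas 0)
  have m1 : Measurable fun x => D.W (D.Ψ 1 x) := D.W_meas.comp (D.Ψ_meas 1)
  rw [← lint_add3 _ m0 m1]
  have h : ∀ᵐ x ∂D.ν, D.W x + D.W (D.Ψ 0 x) + D.W (D.Ψ 1 x) = ENNReal.ofReal (3 * D.Wbar) :=
    D.ae_K.mono fun x hx => by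
      rw [D.W_add (D.K_subset_S hx) (D.Ψ_mem_S 0 hx) (D.Ψ_mem_S 1 hx), D.w_eq_0 x hx, zero_add]
  rw [lintegral_congr_ae h]
  simp

lemma int_W1 : ∫⁻ x, D.W x ∂D.ν + ∫⁻ x, D.W (D.Ψ 2 x) ∂D.ν + ∫⁻ x, D.W (D.Ψ 3 x) ∂D.ν
    = ENNReal.ofReal (3 * D.Wbar) := by
  have m0 : Measurable fun x => D.W (D.Ψ 2 x) := D.W_meas.comp (D.Ψ_meas 2)
  have m1 : Measurable fun x => D.W (D.Ψ 3 x) := D.W_meas.comp (D.Ψ_meas 3)
  rw [← lint_add3 _ m0 m1]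
  have h : ∀ᵐ x ∂D.ν, D.W x + D.W (D.Ψ 2 x) + D.W (D.Ψ 3 x) = ENNReal.ofReal (3 * D.Wbar) :=
    D.ae_K.mono fun x hx => by
      rw [D.W_add (D.K_subset_S hx) (D.Ψ_mem_S 2 hx) (D.Ψ_mem_S 3 hx), D.w_eq_1 x hx, zero_add]
  rw [lintegral_congr_ae h]
  simp

lemma three_int_W : ∫⁻ x, D.W x ∂D.μ + ∫⁻ x, D.W x ∂D.μ + ∫⁻ x, D.W x ∂D.μ
    = ENNReal.ofReal (3 * D.Wbar) := by
  have h0 := D.int_W0
  have h1 := D.int_W1
  rw [D.lint_μ D.W D.W_meas]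
  set a := ∫⁻ x, D.W x ∂D.ν
  set b0 := ∫⁻ x, D.W (D.Ψ 0 x) ∂D.ν
  set b1 := ∫⁻ x, D.W (D.Ψ 1 x) ∂D.ν
  set b2 := ∫⁻ x, D.W (D.Ψ 2 x) ∂D.ν
  set b3 := ∫⁻ x, D.W (D.Ψ 3 x) ∂D.ν
  set Z := ENNReal.ofReal (3 * D.Wbar)
  have e : 2 * a + (b0 + b1 + b2 + b3) = 2 * Z := by
    rw [two_mul Z]
    nth_rewrite 1 [← h0]
    rw [← h1]
    ring
  rw [e]
  have := three_six_two Z
  calc _ = (3 : ℝ≥0∞) * ((6⁻¹ : ℝ≥0∞) * (2 * Z)) := by ring
    _ = _ := this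

/-- a `μ`-preserving map sends `μ`-a.e. point to `S`. -/
lemma ae_S_of_map {T : E d → E d} (hT : Measurable T) (hμ : D.μ.map T = D.μ) :
    ∀ᵐ x ∂D.μ, T x ∈ D.S := by
  have h := D.ae_S
  rw [← hμ] at h
  exact (ae_map_iff hT.aemeasurable D.measurableSet_S).1 h

lemma lint_map_μ {T : E d → E d} (hT : Measurable T) (hμ : D.μ.map T = D.μ) {F : E d → ℝ≥0∞}
    (hF : Measurable F) : ∫⁻ x, F (T x) ∂D.μ = ∫⁻ x, F x ∂D.μ := by
  rw [← lintegral_map hF hT, hμ]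

/-- the rigid alternative, `ν`-a.e. -/
lemma ae_rigid (T₂ T₃ : E d → E d) (h₂ : Measurable T₂) (h₃ : Measurable T₃)
    (hμ₂ : D.μ.map T₂ = D.μ) (hμ₃ : D.μ.map T₃ = D.μ)
    (hle : ∫⁻ x, tripleCost s (x, T₂ x, T₃ x) ∂D.μ ≤ D.C₀) :
    ∀ᵐ x ∂D.ν, x ∈ D.K ∧ ((T₂ x = D.Ψ 0 x) ∨ (T₂ x = D.Ψ 1 x) ∨ (T₂ x = D.Ψ 2 x) ∨
      (T₂ x = D.Ψ 3 x)) := by
  have hS1 := D.ae_S
  have hS2 := D.ae_S_of_map h₂ hμ₂
  have hS3 := D.ae_S_of_map h₃ hμ₃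
  have hf : (fun x => D.u x + D.u (T₂ x) + D.u (T₃ x)) =ᵐ[D.μ]
      fun x => tripleCost s (x, T₂ x, T₃ x) + D.B := by
    have hint : ∫⁻ x, D.u x + D.u (T₂ x) + D.u (T₃ x) ∂D.μ = D.C₀ + D.B := by
      have m2 : Measurable fun x => D.u (T₂ x) := D.u_meas.comp h₂
      have m3 : Measurable fun x => D.u (T₃ x) := D.u_meas.comp h₃
      rw [lint_add3 _ m2 m3, D.lint_map_μ h₂ hμ₂ D.u_meas,
        D.lint_map_μ h₃ hμ₃ D.u_meas, D.three_int_u]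
    refine ae_eq_of_ae_le_of_lintegral_le ?_ ?_ ?_ ?_
    · filter_upwards [hS1, hS2, hS3] with x h1 h2 h3
      exact D.dual _ h1 _ h2 _ h3
    · rw [hint]
      exact ENNReal.add_ne_top.2 ⟨D.C₀_lt_top.ne, ENNReal.coe_ne_top⟩
    · exact ((((measurable_tripleCost s).comp
        (measurable_id.prodMk (h₂.prodMk h₃))).add_const _).aemeasurable)
    · rw [hint, lintegral_add_right _ measurable_const]
      simp only [lintegral_const, measure_univ, mul_one]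
      gcongr
  have hG : (fun x => D.W x + D.W (T₂ x) + D.W (T₃ x)) =ᵐ[D.μ]
      fun _ => ENNReal.ofReal (3 * D.Wbar) := by
    have hint : ∫⁻ x, D.W x + D.W (T₂ x) + D.W (T₃ x) ∂D.μ = ENNReal.ofReal (3 * D.Wbar) := by
      have m2 : Measurable fun x => D.W (T₂ x) := D.W_meas.comp h₂
      have m3 : Measurable fun x => D.W (T₃ x) := D.W_meas.comp h₃
      rw [lint_add3 _ m2 m3, D.lint_map_μ h₂ hμ₂ D.W_meas,
        D.lint_map_μ h₃ hμ₃ D.W_meas, D.three_int_W]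
    refine ae_eq_of_ae_le_of_lintegral_le ?_ ?_ aemeasurable_const ?_
    · filter_upwards [hS1, hS2, hS3, hf] with x h1 h2 h3 h4
      rw [D.W_add h1 h2 h3]
      have := D.w_le _ h1 _ h2 _ h3 h4
      exact ENNReal.ofReal_le_ofReal (by linarith)
    · rw [hint]
      exact ENNReal.ofReal_ne_top
    · rw [hint]
      simp
  have hμ : ∀ᵐ x ∂D.μ, x ∈ D.K → ((T₂ x = D.Ψ 0 x) ∨ (T₂ x = D.Ψ 1 x) ∨ (T₂ x = D.Ψ 2 x) ∨
      (T₂ x = D.Ψ 3 x)) := by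
    filter_upwards [hS1, hS2, hS3, hf, hG] with x h1 h2 h3 h4 h5 hxK
    have h6 : D.w x + D.w (T₂ x) + D.w (T₃ x) = 0 := by
      rw [D.W_add h1 h2 h3] at h5
      have hnn : 0 ≤ D.w x + D.w (T₂ x) + D.w (T₃ x) + 3 * D.Wbar := by
        linarith [D.W_nonneg h1, D.W_nonneg h2, D.W_nonneg h3]
      have := (ENNReal.ofReal_eq_ofReal_iff hnn (by linarith [D.Wbar_nonneg])).1 h5
      linarith
    rcases D.rigid x hxK _ h2 _ h3 h4 h6 with h | h | h | h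
    · exact Or.inl h.1
    · exact Or.inr (Or.inl h.1)
    · exact Or.inr (Or.inr (Or.inl h.1))
    · exact Or.inr (Or.inr (Or.inr h.1))
  filter_upwards [D.ν_ac_μ.ae_le hμ, D.ae_K] with x h1 h2
  exact ⟨h2, h1 h2⟩

/-- the set where `T₂` follows `Ψ i` is null. -/
lemma ν_follow_zero {T : E d → E d} (hT : Measurable T) (hμ : D.μ.map T = D.μ) (i : Fin 4) :
    D.ν (D.K ∩ {x | T x = D.Ψ i x}) = 0 := by
  set X := D.K ∩ {x | T x = D.Ψ i x} with hX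
  have hXm : MeasurableSet X :=
    D.measurableSet_K.inter (measurableSet_eq_fun hT (D.Ψ_meas i))
  set Y := D.Ψ i '' D.K ∩ D.Φ i ⁻¹' X with hY
  have hYm : MeasurableSet Y := (D.measurableSet_Ki i).inter ((D.Φ_meas i) hXm)
  have hXY : X ⊆ T ⁻¹' Y := by
    rintro x ⟨hxK, hx⟩
    change T x = D.Ψ i x at hx
    refine ⟨?_, ?_⟩
    · rw [hx]; exact mem_image_of_mem _ hxK
    · simp only [mem_preimage]
      rw [hx, D.left_inv i x hxK]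
      exact ⟨hxK, hx⟩
  have hle : D.μ X ≤ D.μ Y := by
    calc D.μ X ≤ D.μ (T ⁻¹' Y) := measure_mono hXY
      _ = (D.μ.map T) Y := (Measure.map_apply hT hYm).symm
      _ = D.μ Y := by rw [hμ]
  have hX_eq : D.μ X = 6⁻¹ * (2 * D.ν X) := by
    rw [D.μ_apply hXm]
    have hz : ∀ j, D.ν (D.Ψ j ⁻¹' X) = 0 := fun j =>
      D.ν_preimage_zero j fun x hx hm => D.disj_0 j _ hm.1 x hx rfl
    rw [hz 0, hz 1, hz 2, hz 3]
    simp
  have hY_le : D.μ Y ≤ 6⁻¹ * D.ν X := by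
    rw [D.μ_apply hYm]
    have hν : D.ν Y = 0 := D.ν_zero_of_subset_Ki i inter_subset_left
    have hne : ∀ j, j ≠ i → D.ν (D.Ψ j ⁻¹' Y) = 0 := fun j hj =>
      D.ν_preimage_zero j fun x hx hm => by
        obtain ⟨y, hy, hyx⟩ := hm.1
        exact D.disj_ij j i hj x hx y hy hyx.symm
    have heq : D.ν (D.Ψ i ⁻¹' Y) ≤ D.ν X := by
      refine measure_mono_ae ?_
      filter_upwards [D.ae_K] with x hx hm
      have h2 : D.Φ i (D.Ψ i x) ∈ X := hm.2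
      rwa [D.left_inv i x hx] at h2
    rw [hν]
    gcongr
    fin_cases i
    · simp only [Fin.zero_eta, Fin.isValue, mul_zero, zero_add] at *
      rw [hne 1 (by decide), hne 2 (by decide), hne 3 (by decide)]
      simpa using heq
    · simp only [Fin.mk_one, Fin.isValue, mul_zero, zero_add] at *
      rw [hne 0 (by decide), hne 2 (by decide), hne 3 (by decide)]
      simpa using heq
    · simp only [Fin.reduceFinMk, Fin.isValue, mul_zero, zero_add] at *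
      rw [hne 0 (by decide), hne 1 (by decide), hne 3 (by decide)]
      simpa using heq
    · simp only [Fin.reduceFinMk, Fin.isValue, mul_zero, zero_add] at *
      rw [hne 0 (by decide), hne 1 (by decide), hne 2 (by decide)]
      simpa using heq
  have hfin : D.ν X ≠ ⊤ := measure_ne_top _ _
  have h6 : (6⁻¹ : ℝ≥0∞) * (2 * D.ν X) ≤ 6⁻¹ * D.ν X := by
    calc _ = D.μ X := hX_eq.symm
      _ ≤ D.μ Y := hle
      _ ≤ _ := hY_le
  have h6' : 2 * D.ν X ≤ D.ν X :=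
    (ENNReal.mul_le_mul_iff_right (by norm_num) (by norm_num)).1 h6
  by_contra hne
  have h2 : (1 : ℝ≥0∞) * D.ν X < 2 * D.ν X :=
    ENNReal.mul_lt_mul_left hne hfin (by norm_num)
  rw [one_mul] at h2
  exact absurd h6' (not_le.2 h2)

/-- strict Monge gap. -/
lemma monge_strict (T₂ T₃ : E d → E d) (h₂ : Measurable T₂) (h₃ : Measurable T₃)
    (hμ₂ : D.μ.map T₂ = D.μ) (hμ₃ : D.μ.map T₃ = D.μ) :
    D.C₀ < ∫⁻ x, tripleCost s (x, T₂ x, T₃ x) ∂D.μ := by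
  by_contra hcon
  rw [not_lt] at hcon
  have hr := D.ae_rigid T₂ T₃ h₂ h₃ hμ₂ hμ₃ hcon
  have hz : ∀ i, D.ν (D.K ∩ {x | T₂ x = D.Ψ i x}) = 0 := D.ν_follow_zero h₂ hμ₂
  have hall : ∀ i, ∀ᵐ x ∂D.ν, x ∉ D.K ∩ {x | T₂ x = D.Ψ i x} := fun i =>
    measure_eq_zero_iff_ae_notMem.1 (hz i)
  have hbad : ∀ᵐ x ∂D.ν, False := by
    filter_upwards [hr, hall 0, hall 1, hall 2, hall 3] with x h h0 h1 h2 h3
    obtain ⟨hK, h | h | h | h⟩ := h
    · exact h0 ⟨hK, h⟩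
    · exact h1 ⟨hK, h⟩
    · exact h2 ⟨hK, h⟩
    · exact h3 ⟨hK, h⟩
  rw [ae_iff] at hbad
  simp at hbad

end Setup
end Crest.Agent.Lib.SCE
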