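import Crest.Agent.Lib.SCE.Abstract2

/-!
# S0175, module A, part 3: approximation by Monge maps, and the final assembly `Setup.target`.
-/

set_option autoImplicit false
set_option linter.unusedSectionVars false
set_option linter.unusedVariables false

open MeasureTheory Set
open scoped ENNReal ContDiff NNReal Topology
open Crest.AnalysisR.OT

namespace Crest.Agent.Lib.SCE

variable {d : ℕ} {s : ℝ}

lemma pairCost_ne_top (hs : 0 < s) {x y : E d} (h : x ≠ y) : pairCost s x y ≠ ⊤ := by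
  unfold pairCost
  rw [ENNReal.rpow_neg, ENNReal.inv_ne_top]
  have h0 : ENNReal.ofReal ‖x - y‖ ≠ 0 := by
    simp only [ne_eq, ENNReal.ofReal_eq_zero, not_le]
    exact norm_pos_iff.2 (sub_ne_zero.2 h)
  simp only [ne_eq, ENNReal.rpow_eq_zero_iff, not_or, not_and, not_lt]
  exact ⟨fun h' => absurd h' h0, fun h' => absurd h' ENNReal.ofReal_ne_top⟩

lemma tripleCost_ne_top (hs : 0 < s) {x y z : E d} (h1 : x ≠ y) (h2 : x ≠ z) (h3 : y ≠ z) :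
    tripleCost s (x, y, z) ≠ ⊤ := by
  unfold tripleCost
  exact ENNReal.add_ne_top.2 ⟨ENNReal.add_ne_top.2
    ⟨pairCost_ne_top hs h1, pairCost_ne_top hs h2⟩, pairCost_ne_top hs h3⟩

namespace Setup

variable (D : Setup d s)

/-- uniform continuity of the cost in the source variable. -/
lemma unif_cost (hs : 0 < s) (i j : Fin 4) (hij : i ≠ j) {δ : ℝ} (hδ : 0 < δ) :
    ∃ ε' : ℝ, 0 < ε' ∧ ∀ x ∈ D.K, ∀ p ∈ D.K, ‖x - p‖ < ε' →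
      tripleCost s (x, D.Ψ i p, D.Ψ j p) ≤
        tripleCost s (p, D.Ψ i p, D.Ψ j p) + ENNReal.ofReal δ := by
  set Γ : E d × E d → ℝ≥0∞ := fun q => tripleCost s (q.1, D.Ψ i q.2, D.Ψ j q.2) with hΓ
  have hfin : ∀ q ∈ D.K ×ˢ D.K, Γ q ≠ ⊤ := by
    rintro ⟨x, p⟩ ⟨hx, hp⟩
    exact tripleCost_ne_top hs (fun e => D.disj_0 i x hx p hp e.symm)
      (fun e => D.disj_0 j x hx p hp e.symm) (D.disj_ij i j hij p hp p hp)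
  have hcont : ContinuousOn Γ (D.K ×ˢ D.K) := by
    refine (continuous_tripleCost s).comp_continuousOn ?_
    refine continuousOn_fst.prodMk ?_
    refine ContinuousOn.prodMk ?_ ?_
    · exact (D.Ψ_cont i).comp continuousOn_snd fun q hq => hq.2
    · exact (D.Ψ_cont j).comp continuousOn_snd fun q hq => hq.2
  have hreal : ContinuousOn (fun q => (Γ q).toReal) (D.K ×ˢ D.K) :=
    ENNReal.continuousOn_toReal.comp hcont hfin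
  have hU := (D.isCompact_K.prod D.isCompact_K).uniformContinuousOn_of_continuous hreal
  rw [Metric.uniformContinuousOn_iff] at hU
  obtain ⟨ε', hε', h⟩ := hU δ hδ
  refine ⟨ε', hε', fun x hx p hp hxp => ?_⟩
  have hq := h (x, p) ⟨hx, hp⟩ (p, p) ⟨hp, hp⟩ (by
    rw [Prod.dist_eq]
    simp only [dist_self]
    rw [max_eq_left dist_nonneg, dist_eq_norm]
    exact hxp)
  rw [Real.dist_eq] at hq
  have hle : (Γ (x, p)).toReal ≤ (Γ (p, p)).toReal + δ := by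
    have := (abs_lt.1 hq).2
    linarith
  have h1 : Γ (x, p) = ENNReal.ofReal (Γ (x, p)).toReal :=
    (ENNReal.ofReal_toReal (hfin _ ⟨hx, hp⟩)).symm
  calc Γ (x, p) = ENNReal.ofReal (Γ (x, p)).toReal := h1
    _ ≤ ENNReal.ofReal ((Γ (p, p)).toReal + δ) := ENNReal.ofReal_le_ofReal hle
    _ = Γ (p, p) + ENNReal.ofReal δ := by
        rw [ENNReal.ofReal_add ENNReal.toReal_nonneg hδ.le,
          ENNReal.ofReal_toReal (hfin _ ⟨hp, hp⟩)]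

/-- the data of `Split`, packaged. -/
structure SD (ε' : ℝ) where
  A₀ : Set (E d)
  A₁ : Set (E d)
  η₀ : E d → E d
  η₁ : E d → E d
  ζ₀ : E d → E d
  ζ₁ : E d → E d
  mA₀ : MeasurableSet A₀
  mA₁ : MeasurableSet A₁
  dA : Disjoint A₀ A₁
  cA : A₀ ∪ A₁ = Set.univ
  mη₀ : Measurable η₀
  mη₁ : Measurable η₁
  mζ₀ : Measurable ζ₀
  mζ₁ : Measurable ζ₁
  pη₀ : ((sqMeas D.g).restrict A₀).map η₀ = (2⁻¹ : ℝ≥0∞) • sqMeas D.g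
  pη₁ : ((sqMeas D.g).restrict A₁).map η₁ = (2⁻¹ : ℝ≥0∞) • sqMeas D.g
  pζ₀ : ((2⁻¹ : ℝ≥0∞) • sqMeas D.g).map ζ₀ = (sqMeas D.g).restrict A₀
  pζ₁ : ((2⁻¹ : ℝ≥0∞) • sqMeas D.g).map ζ₁ = (sqMeas D.g).restrict A₁
  nη₀ : ∀ᵐ x ∂(sqMeas D.g), x ∈ A₀ → ‖η₀ x - x‖ < ε'
  nη₁ : ∀ᵐ x ∂(sqMeas D.g), x ∈ A₁ → ‖η₁ x - x‖ < ε'
  nζ₀ : ∀ᵐ x ∂(sqMeas D.g), ‖ζ₀ x - x‖ < ε'
  nζ₁ : ∀ᵐ x ∂(sqMeas D.g), ‖ζ₁ x - x‖ < ε'

lemma SD_nonempty {ε' : ℝ} (hε' : 0 < ε') : Nonempty (D.SD ε') := by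
  obtain ⟨A₀, A₁, η₀, η₁, ζ₀, ζ₁, mA₀, mA₁, dA, cA, mη₀, mη₁, mζ₀, mζ₁, pη₀, pη₁, pζ₀, pζ₁,
    nη₀, nη₁, nζ₀, nζ₁⟩ := D.g_split ε' hε'
  exact ⟨⟨A₀, A₁, η₀, η₁, ζ₀, ζ₁, mA₀, mA₁, dA, cA, mη₀, mη₁, mζ₀, mζ₁, pη₀, pη₁, pζ₀, pζ₁,
    nη₀, nη₁, nζ₀, nζ₁⟩⟩

open Classical in
/-- piecewise map on the six pieces. -/
noncomputable def pw (A : Set (E d)) (a0 a1 a2 a3 a4 a5 : E d → E d) (y : E d) : E d :=
  if y ∈ D.Ψ 0 '' D.K then a0 y else if y ∈ D.Ψ 1 '' D.K then a1 y else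
  if y ∈ D.Ψ 2 '' D.K then a2 y else if y ∈ D.Ψ 3 '' D.K then a3 y else
  if y ∈ A then a4 y else a5 y

lemma pw_meas {A : Set (E d)} (hA : MeasurableSet A) {a0 a1 a2 a3 a4 a5 : E d → E d}
    (h0 : Measurable a0) (h1 : Measurable a1) (h2 : Measurable a2) (h3 : Measurable a3)
    (h4 : Measurable a4) (h5 : Measurable a5) : Measurable (D.pw A a0 a1 a2 a3 a4 a5) := by
  unfold pw
  exact Measurable.ite (D.measurableSet_Ki 0) h0 <| Measurable.ite (D.measurableSet_Ki 1) h1 <|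
    Measurable.ite (D.measurableSet_Ki 2) h2 <| Measurable.ite (D.measurableSet_Ki 3) h3 <|
    Measurable.ite hA h4 h5

lemma notMem_Ki_of_K {x : E d} (hx : x ∈ D.K) (i : Fin 4) : x ∉ D.Ψ i '' D.K := by
  rintro ⟨y, hy, rfl⟩
  exact D.disj_0 i _ hx y hy rfl

lemma notMem_Ki_of_Ki {i j : Fin 4} (hij : i ≠ j) {p : E d} (hp : p ∈ D.K) :
    D.Ψ i p ∉ D.Ψ j '' D.K := by
  rintro ⟨y, hy, e⟩
  exact D.disj_ij i j hij p hp y hy e.symm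

variable (A : Set (E d)) (a0 a1 a2 a3 a4 a5 : E d → E d)

lemma pw_K {x : E d} (hx : x ∈ D.K) (hA : x ∈ A) : D.pw A a0 a1 a2 a3 a4 a5 x = a4 x := by
  unfold pw
  rw [if_neg (D.notMem_Ki_of_K hx 0), if_neg (D.notMem_Ki_of_K hx 1),
    if_neg (D.notMem_Ki_of_K hx 2), if_neg (D.notMem_Ki_of_K hx 3), if_pos hA]

lemma pw_K' {x : E d} (hx : x ∈ D.K) (hA : x ∉ A) : D.pw A a0 a1 a2 a3 a4 a5 x = a5 x := by
  unfold pw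
  rw [if_neg (D.notMem_Ki_of_K hx 0), if_neg (D.notMem_Ki_of_K hx 1),
    if_neg (D.notMem_Ki_of_K hx 2), if_neg (D.notMem_Ki_of_K hx 3), if_neg hA]

lemma pw_Ψ0 {p : E d} (hp : p ∈ D.K) : D.pw A a0 a1 a2 a3 a4 a5 (D.Ψ 0 p) = a0 (D.Ψ 0 p) := by
  unfold pw
  rw [if_pos (mem_image_of_mem _ hp)]

lemma pw_Ψ1 {p : E d} (hp : p ∈ D.K) : D.pw A a0 a1 a2 a3 a4 a5 (D.Ψ 1 p) = a1 (D.Ψ 1 p) := by
  unfold pw
  rw [if_neg (D.notMem_Ki_of_Ki (by decide) hp), if_pos (mem_image_of_mem _ hp)]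

lemma pw_Ψ2 {p : E d} (hp : p ∈ D.K) : D.pw A a0 a1 a2 a3 a4 a5 (D.Ψ 2 p) = a2 (D.Ψ 2 p) := by
  unfold pw
  rw [if_neg (D.notMem_Ki_of_Ki (by decide) hp), if_neg (D.notMem_Ki_of_Ki (by decide) hp),
    if_pos (mem_image_of_mem _ hp)]

lemma pw_Ψ3 {p : E d} (hp : p ∈ D.K) : D.pw A a0 a1 a2 a3 a4 a5 (D.Ψ 3 p) = a3 (D.Ψ 3 p) := by
  unfold pw
  rw [if_neg (D.notMem_Ki_of_Ki (by decide) hp), if_neg (D.notMem_Ki_of_Ki (by decide) hp),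
    if_neg (D.notMem_Ki_of_Ki (by decide) hp), if_pos (mem_image_of_mem _ hp)]

variable {D} {ε' : ℝ} (P : D.SD ε')

namespace SD

/-- second Monge map. -/
noncomputable def T₂ : E d → E d :=
  D.pw P.A₀ (D.Ψ 1 ∘ D.Φ 0) (P.ζ₀ ∘ D.Φ 1) (D.Ψ 3 ∘ D.Φ 2) (P.ζ₁ ∘ D.Φ 3)
    (D.Ψ 0 ∘ P.η₀) (D.Ψ 2 ∘ P.η₁)

/-- third Monge map. -/
noncomputable def T₃ : E d → E d :=
  D.pw P.A₀ (P.ζ₀ ∘ D.Φ 0) (D.Ψ 0 ∘ D.Φ 1) (P.ζ₁ ∘ D.Φ 2) (D.Ψ 2 ∘ D.Φ 3)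
    (D.Ψ 1 ∘ P.η₀) (D.Ψ 3 ∘ P.η₁)

lemma T₂_meas : Measurable P.T₂ :=
  D.pw_meas P.mA₀ ((D.Ψ_meas 1).comp (D.Φ_meas 0)) (P.mζ₀.comp (D.Φ_meas 1))
    ((D.Ψ_meas 3).comp (D.Φ_meas 2)) (P.mζ₁.comp (D.Φ_meas 3))
    ((D.Ψ_meas 0).comp P.mη₀) ((D.Ψ_meas 2).comp P.mη₁)

lemma T₃_meas : Measurable P.T₃ :=
  D.pw_meas P.mA₀ (P.mζ₀.comp (D.Φ_meas 0)) ((D.Ψ_meas 0).comp (D.Φ_meas 1))
    (P.mζ₁.comp (D.Φ_meas 2)) ((D.Ψ_meas 2).comp (D.Φ_meas 3))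
    ((D.Ψ_meas 1).comp P.mη₀) ((D.Ψ_meas 3).comp P.mη₁)

lemma notMem_A₀ {x : E d} (hx : x ∈ P.A₁) : x ∉ P.A₀ := fun h =>
  (Set.disjoint_left.1 P.dA) h hx

lemma lint_split (F : E d → ℝ≥0∞) :
    ∫⁻ x, F x ∂D.ν = ∫⁻ x in P.A₀, F x ∂D.ν + ∫⁻ x in P.A₁, F x ∂D.ν := by
  rw [← lintegral_union P.mA₁ P.dA, P.cA, Measure.restrict_univ]

lemma lint_η₀ {F : E d → ℝ≥0∞} (hF : Measurable F) :
    ∫⁻ x in P.A₀, F (P.η₀ x) ∂D.ν = 2⁻¹ * ∫⁻ x, F x ∂D.ν := by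
  rw [← lintegral_map hF P.mη₀, P.pη₀, lintegral_smul_measure]
  rfl

lemma lint_η₁ {F : E d → ℝ≥0∞} (hF : Measurable F) :
    ∫⁻ x in P.A₁, F (P.η₁ x) ∂D.ν = 2⁻¹ * ∫⁻ x, F x ∂D.ν := by
  rw [← lintegral_map hF P.mη₁, P.pη₁, lintegral_smul_measure]
  rfl

lemma two_mul_inv2 (a : ℝ≥0∞) : (2 : ℝ≥0∞) * (2⁻¹ * a) = a := by
  rw [← mul_assoc, ENNReal.mul_inv_cancel (by norm_num) (by norm_num), one_mul]

lemma lint_ζ₀ {F : E d → ℝ≥0∞} (hF : Measurable F) :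
    ∫⁻ x, F (P.ζ₀ x) ∂D.ν = 2 * ∫⁻ x in P.A₀, F x ∂D.ν := by
  have h := lintegral_map (μ := (2⁻¹ : ℝ≥0∞) • sqMeas D.g) hF P.mζ₀
  rw [P.pζ₀, lintegral_smul_measure] at h
  change ∫⁻ x in P.A₀, F x ∂D.ν = 2⁻¹ • ∫⁻ x, F (P.ζ₀ x) ∂D.ν at h
  rw [h, smul_eq_mul, two_mul_inv2]

lemma lint_ζ₁ {F : E d → ℝ≥0∞} (hF : Measurable F) :
    ∫⁻ x, F (P.ζ₁ x) ∂D.ν = 2 * ∫⁻ x in P.A₁, F x ∂D.ν := by
  have h := lintegral_map (μ := (2⁻¹ : ℝ≥0∞) • sqMeas D.g) hF P.mζ₁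
  rw [P.pζ₁, lintegral_smul_measure] at h
  change ∫⁻ x in P.A₁, F x ∂D.ν = 2⁻¹ • ∫⁻ x, F (P.ζ₁ x) ∂D.ν at h
  rw [h, smul_eq_mul, two_mul_inv2]

lemma ae_ζ₀ : ∀ᵐ x ∂D.ν, P.ζ₀ x ∈ D.K := by
  have h : ((2⁻¹ : ℝ≥0∞) • sqMeas D.g).map P.ζ₀ D.Kᶜ = 0 := by
    rw [P.pζ₀]
    exact Measure.restrict_apply_eq_zero' P.mA₀ |>.2 (measure_mono_null inter_subset_left D.ν_compl_K)
  rw [Measure.map_apply P.mζ₀ D.measurableSet_K.compl] at h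
  simp only [Measure.smul_apply, smul_eq_mul, mul_eq_zero, ENNReal.inv_eq_zero] at h
  rcases h with h | h
  · simp at h
  · rw [ae_iff]
    exact h

lemma ae_ζ₁ : ∀ᵐ x ∂D.ν, P.ζ₁ x ∈ D.K := by
  have h : ((2⁻¹ : ℝ≥0∞) • sqMeas D.g).map P.ζ₁ D.Kᶜ = 0 := by
    rw [P.pζ₁]
    exact Measure.restrict_apply_eq_zero' P.mA₁ |>.2 (measure_mono_null inter_subset_left D.ν_compl_K)
  rw [Measure.map_apply P.mζ₁ D.measurableSet_K.compl] at h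
  simp only [Measure.smul_apply, smul_eq_mul, mul_eq_zero, ENNReal.inv_eq_zero] at h
  rcases h with h | h
  · simp at h
  · rw [ae_iff]
    exact h

lemma ae_η₀ : ∀ᵐ x ∂D.ν, x ∈ P.A₀ → P.η₀ x ∈ D.K := by
  have h : ((sqMeas D.g).restrict P.A₀).map P.η₀ D.Kᶜ = 0 := by
    rw [P.pη₀]
    simp only [Measure.smul_apply, smul_eq_mul, mul_eq_zero]
    exact Or.inr D.ν_compl_K
  rw [Measure.map_apply P.mη₀ D.measurableSet_K.compl] at h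
  have h2 : ∀ᵐ x ∂(D.ν.restrict P.A₀), P.η₀ x ∈ D.K := by
    rw [ae_iff]
    exact h
  exact (ae_restrict_iff' P.mA₀).1 h2

lemma ae_η₁ : ∀ᵐ x ∂D.ν, x ∈ P.A₁ → P.η₁ x ∈ D.K := by
  have h : ((sqMeas D.g).restrict P.A₁).map P.η₁ D.Kᶜ = 0 := by
    rw [P.pη₁]
    simp only [Measure.smul_apply, smul_eq_mul, mul_eq_zero]
    exact Or.inr D.ν_compl_K
  rw [Measure.map_apply P.mη₁ D.measurableSet_K.compl] at h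
  have h2 : ∀ᵐ x ∂(D.ν.restrict P.A₁), P.η₁ x ∈ D.K := by
    rw [ae_iff]
    exact h
  exact (ae_restrict_iff' P.mA₁).1 h2

/-- integration of `H(x, T₂ x, T₃ x)` against `ν`. -/
lemma lint_ν_T (H : E d × E d × E d → ℝ≥0∞) :
    ∫⁻ x, H (x, P.T₂ x, P.T₃ x) ∂D.ν =
      ∫⁻ x in P.A₀, H (x, D.Ψ 0 (P.η₀ x), D.Ψ 1 (P.η₀ x)) ∂D.ν +
      ∫⁻ x in P.A₁, H (x, D.Ψ 2 (P.η₁ x), D.Ψ 3 (P.η₁ x)) ∂D.ν := by
  rw [P.lint_split]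
  congr 1
  · refine lintegral_congr_ae ?_
    refine (ae_restrict_iff' P.mA₀).2 (D.ae_K.mono fun x hx hA => ?_)
    have e2 : P.T₂ x = D.Ψ 0 (P.η₀ x) := D.pw_K _ _ _ _ _ _ _ hx hA
    have e3 : P.T₃ x = D.Ψ 1 (P.η₀ x) := D.pw_K _ _ _ _ _ _ _ hx hA
    simp only [e2, e3]
  · refine lintegral_congr_ae ?_
    refine (ae_restrict_iff' P.mA₁).2 (D.ae_K.mono fun x hx hA => ?_)
    have hA' := P.notMem_A₀ hA
    have e2 : P.T₂ x = D.Ψ 2 (P.η₁ x) := D.pw_K' _ _ _ _ _ _ _ hx hA'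
    have e3 : P.T₃ x = D.Ψ 3 (P.η₁ x) := D.pw_K' _ _ _ _ _ _ _ hx hA'
    simp only [e2, e3]

lemma T_Ψ0 {p : E d} (hp : p ∈ D.K) : P.T₂ (D.Ψ 0 p) = D.Ψ 1 p ∧ P.T₃ (D.Ψ 0 p) = P.ζ₀ p := by
  constructor
  · change D.pw _ _ _ _ _ _ _ _ = _
    rw [D.pw_Ψ0 _ _ _ _ _ _ _ hp, Function.comp_apply, D.left_inv 0 p hp]
  · change D.pw _ _ _ _ _ _ _ _ = _
    rw [D.pw_Ψ0 _ _ _ _ _ _ _ hp, Function.comp_apply, D.left_inv 0 p hp]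

lemma T_Ψ1 {p : E d} (hp : p ∈ D.K) : P.T₂ (D.Ψ 1 p) = P.ζ₀ p ∧ P.T₃ (D.Ψ 1 p) = D.Ψ 0 p := by
  constructor
  · change D.pw _ _ _ _ _ _ _ _ = _
    rw [D.pw_Ψ1 _ _ _ _ _ _ _ hp, Function.comp_apply, D.left_inv 1 p hp]
  · change D.pw _ _ _ _ _ _ _ _ = _
    rw [D.pw_Ψ1 _ _ _ _ _ _ _ hp, Function.comp_apply, D.left_inv 1 p hp]

lemma T_Ψ2 {p : E d} (hp : p ∈ D.K) : P.T₂ (D.Ψ 2 p) = D.Ψ 3 p ∧ P.T₃ (D.Ψ 2 p) = P.ζ₁ p := by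
  constructor
  · change D.pw _ _ _ _ _ _ _ _ = _
    rw [D.pw_Ψ2 _ _ _ _ _ _ _ hp, Function.comp_apply, D.left_inv 2 p hp]
  · change D.pw _ _ _ _ _ _ _ _ = _
    rw [D.pw_Ψ2 _ _ _ _ _ _ _ hp, Function.comp_apply, D.left_inv 2 p hp]

lemma T_Ψ3 {p : E d} (hp : p ∈ D.K) : P.T₂ (D.Ψ 3 p) = P.ζ₁ p ∧ P.T₃ (D.Ψ 3 p) = D.Ψ 2 p := by
  constructor
  · change D.pw _ _ _ _ _ _ _ _ = _
    rw [D.pw_Ψ3 _ _ _ _ _ _ _ hp, Function.comp_apply, D.left_inv 3 p hp]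
  · change D.pw _ _ _ _ _ _ _ _ = _
    rw [D.pw_Ψ3 _ _ _ _ _ _ _ hp, Function.comp_apply, D.left_inv 3 p hp]

/-- integration of `H(x, T₂ x, T₃ x)` against `μ`. -/
lemma lint_μ_T {H : E d × E d × E d → ℝ≥0∞} (hH : Measurable H) :
    ∫⁻ x, H (x, P.T₂ x, P.T₃ x) ∂D.μ = 6⁻¹ * (2 * (
      ∫⁻ x in P.A₀, H (x, D.Ψ 0 (P.η₀ x), D.Ψ 1 (P.η₀ x)) ∂D.ν +
      ∫⁻ x in P.A₁, H (x, D.Ψ 2 (P.η₁ x), D.Ψ 3 (P.η₁ x)) ∂D.ν) +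
      (∫⁻ p, H (D.Ψ 0 p, D.Ψ 1 p, P.ζ₀ p) ∂D.ν + ∫⁻ p, H (D.Ψ 1 p, P.ζ₀ p, D.Ψ 0 p) ∂D.ν +
       ∫⁻ p, H (D.Ψ 2 p, D.Ψ 3 p, P.ζ₁ p) ∂D.ν + ∫⁻ p, H (D.Ψ 3 p, P.ζ₁ p, D.Ψ 2 p) ∂D.ν)) := by
  have hm : Measurable fun x => H (x, P.T₂ x, P.T₃ x) :=
    hH.comp (measurable_id.prodMk (P.T₂_meas.prodMk P.T₃_meas))
  rw [D.lint_μ _ hm, P.lint_ν_T H]
  congr 3
  · congr 1
    · congr 1
      · refine lintegral_congr_ae (D.ae_K.mono fun p hp => ?_)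
        simp only [(P.T_Ψ0 hp).1, (P.T_Ψ0 hp).2]
      · refine lintegral_congr_ae (D.ae_K.mono fun p hp => ?_)
        simp only [(P.T_Ψ1 hp).1, (P.T_Ψ1 hp).2]
    · refine lintegral_congr_ae (D.ae_K.mono fun p hp => ?_)
      simp only [(P.T_Ψ2 hp).1, (P.T_Ψ2 hp).2]
  · refine lintegral_congr_ae (D.ae_K.mono fun p hp => ?_)
    simp only [(P.T_Ψ3 hp).1, (P.T_Ψ3 hp).2]

lemma map_T₂ : D.μ.map P.T₂ = D.μ := by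
  refine Measure.ext_of_lintegral _ fun F hF => ?_
  rw [lintegral_map hF P.T₂_meas]
  have hH : Measurable fun q : E d × E d × E d => F q.2.1 :=
    hF.comp (measurable_fst.comp measurable_snd)
  rw [P.lint_μ_T hH, D.lint_μ F hF]
  simp only
  have m0 : Measurable fun x => F (D.Ψ 0 x) := hF.comp (D.Ψ_meas 0)
  have m2 : Measurable fun x => F (D.Ψ 2 x) := hF.comp (D.Ψ_meas 2)
  rw [P.lint_η₀ m0, P.lint_η₁ m2, P.lint_ζ₀ hF, P.lint_ζ₁ hF]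
  rw [P.lint_split F]
  set a0 := ∫⁻ x, F (D.Ψ 0 x) ∂D.ν
  set a1 := ∫⁻ x, F (D.Ψ 1 x) ∂D.ν
  set a2 := ∫⁻ x, F (D.Ψ 2 x) ∂D.ν
  set a3 := ∫⁻ x, F (D.Ψ 3 x) ∂D.ν
  set b0 := ∫⁻ x in P.A₀, F x ∂D.ν
  set b1 := ∫⁻ x in P.A₁, F x ∂D.ν
  congr 1
  rw [mul_add, two_mul_inv2, two_mul_inv2]
  ring

lemma map_T₃ : D.μ.map P.T₃ = D.μ := by
  refine Measure.ext_of_lintegral _ fun F hF => ?_
  rw [lintegral_map hF P.T₃_meas]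
  have hH : Measurable fun q : E d × E d × E d => F q.2.2 :=
    hF.comp (measurable_snd.comp measurable_snd)
  rw [P.lint_μ_T hH, D.lint_μ F hF]
  simp only
  have m0 : Measurable fun x => F (D.Ψ 1 x) := hF.comp (D.Ψ_meas 1)
  have m2 : Measurable fun x => F (D.Ψ 3 x) := hF.comp (D.Ψ_meas 3)
  rw [P.lint_η₀ m0, P.lint_η₁ m2, P.lint_ζ₀ hF, P.lint_ζ₁ hF]
  rw [P.lint_split F]
  set a0 := ∫⁻ x, F (D.Ψ 0 x) ∂D.ν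
  set a1 := ∫⁻ x, F (D.Ψ 1 x) ∂D.ν
  set a2 := ∫⁻ x, F (D.Ψ 2 x) ∂D.ν
  set a3 := ∫⁻ x, F (D.Ψ 3 x) ∂D.ν
  set b0 := ∫⁻ x in P.A₀, F x ∂D.ν
  set b1 := ∫⁻ x in P.A₁, F x ∂D.ν
  congr 1
  rw [mul_add, two_mul_inv2, two_mul_inv2]
  ring

end SD

/-- measurability of the cost functions along a pair of maps. -/
lemma meas_cost_Ψ (i j : Fin 4) : Measurable fun p => tripleCost s (p, D.Ψ i p, D.Ψ j p) :=
  (measurable_tripleCost s).comp (measurable_id.prodMk ((D.Ψ_meas i).prodMk (D.Ψ_meas j)))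

/-- the cost of the approximating Monge maps. -/
lemma cost_T (hs : 0 < s) {δ ε' : ℝ} (hδ : 0 < δ)
    (h0 : ∀ x ∈ D.K, ∀ p ∈ D.K, ‖x - p‖ < ε' →
      tripleCost s (x, D.Ψ 0 p, D.Ψ 1 p) ≤ tripleCost s (p, D.Ψ 0 p, D.Ψ 1 p) + ENNReal.ofReal δ)
    (h1 : ∀ x ∈ D.K, ∀ p ∈ D.K, ‖x - p‖ < ε' →
      tripleCost s (x, D.Ψ 2 p, D.Ψ 3 p) ≤ tripleCost s (p, D.Ψ 2 p, D.Ψ 3 p) + ENNReal.ofReal δ)
    (P : D.SD ε') :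
    ∫⁻ x, tripleCost s (x, P.T₂ x, P.T₃ x) ∂D.μ ≤ D.C₀ + ENNReal.ofReal δ := by
  set e := ENNReal.ofReal δ with he
  rw [P.lint_μ_T (measurable_tripleCost s)]
  have hI0 : ∫⁻ x in P.A₀, tripleCost s (x, D.Ψ 0 (P.η₀ x), D.Ψ 1 (P.η₀ x)) ∂D.ν ≤
      2⁻¹ * D.C₀ + e * D.ν P.A₀ := by
    calc _ ≤ ∫⁻ x in P.A₀, (tripleCost s (P.η₀ x, D.Ψ 0 (P.η₀ x), D.Ψ 1 (P.η₀ x)) + e) ∂D.ν := by
          refine lintegral_mono_ae ((ae_restrict_iff' P.mA₀).2 ?_)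
          filter_upwards [D.ae_K, P.ae_η₀, P.nη₀] with x hx h1' h2' hA
          refine h0 x hx _ (h1' hA) ?_
          rw [norm_sub_rev]; exact h2' hA
      _ = _ := by
          rw [lintegral_add_right _ measurable_const, P.lint_η₀ (D.meas_cost_Ψ 0 1),
            lintegral_const, Measure.restrict_apply_univ]
          rfl
  have hI1 : ∫⁻ x in P.A₁, tripleCost s (x, D.Ψ 2 (P.η₁ x), D.Ψ 3 (P.η₁ x)) ∂D.ν ≤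
      2⁻¹ * D.C₀ + e * D.ν P.A₁ := by
    calc _ ≤ ∫⁻ x in P.A₁, (tripleCost s (P.η₁ x, D.Ψ 2 (P.η₁ x), D.Ψ 3 (P.η₁ x)) + e) ∂D.ν := by
          refine lintegral_mono_ae ((ae_restrict_iff' P.mA₁).2 ?_)
          filter_upwards [D.ae_K, P.ae_η₁, P.nη₁] with x hx h1' h2' hA
          refine h1 x hx _ (h1' hA) ?_
          rw [norm_sub_rev]; exact h2' hA
      _ = _ := by
          rw [lintegral_add_right _ measurable_const, P.lint_η₁ (D.meas_cost_Ψ 2 3),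
            lintegral_const, Measure.restrict_apply_univ, D.cost1_eq]
  have hJ0 : ∫⁻ p, tripleCost s (P.ζ₀ p, D.Ψ 0 p, D.Ψ 1 p) ∂D.ν ≤ D.C₀ + e := by
    calc _ ≤ ∫⁻ p, (tripleCost s (p, D.Ψ 0 p, D.Ψ 1 p) + e) ∂D.ν := by
          refine lintegral_mono_ae ?_
          filter_upwards [D.ae_K, P.ae_ζ₀, P.nζ₀] with p hp h1' h2'
          exact h0 _ h1' p hp h2'
      _ = _ := by
          rw [lintegral_add_right _ measurable_const, lintegral_const, measure_univ, mul_one]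
          rfl
  have hJ1 : ∫⁻ p, tripleCost s (P.ζ₁ p, D.Ψ 2 p, D.Ψ 3 p) ∂D.ν ≤ D.C₀ + e := by
    calc _ ≤ ∫⁻ p, (tripleCost s (p, D.Ψ 2 p, D.Ψ 3 p) + e) ∂D.ν := by
          refine lintegral_mono_ae ?_
          filter_upwards [D.ae_K, P.ae_ζ₁, P.nζ₁] with p hp h1' h2'
          exact h1 _ h1' p hp h2'
      _ = _ := by
          rw [lintegral_add_right _ measurable_const, lintegral_const, measure_univ, mul_one,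
            D.cost1_eq]
  have hA : D.ν P.A₀ + D.ν P.A₁ = 1 := by
    rw [← measure_union P.dA P.mA₁, P.cA, D.ν_univ]
  have r0 : ∀ p, tripleCost s (D.Ψ 0 p, D.Ψ 1 p, P.ζ₀ p) = tripleCost s (P.ζ₀ p, D.Ψ 0 p, D.Ψ 1 p) :=
    fun p => tripleCost_rot s _ _ _
  have r1 : ∀ p, tripleCost s (D.Ψ 1 p, P.ζ₀ p, D.Ψ 0 p) = tripleCost s (P.ζ₀ p, D.Ψ 0 p, D.Ψ 1 p) :=
    fun p => by rw [tripleCost_rot s (D.Ψ 1 p) (P.ζ₀ p) (D.Ψ 0 p), tripleCost_rot s]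
  have r2 : ∀ p, tripleCost s (D.Ψ 2 p, D.Ψ 3 p, P.ζ₁ p) = tripleCost s (P.ζ₁ p, D.Ψ 2 p, D.Ψ 3 p) :=
    fun p => tripleCost_rot s _ _ _
  have r3 : ∀ p, tripleCost s (D.Ψ 3 p, P.ζ₁ p, D.Ψ 2 p) = tripleCost s (P.ζ₁ p, D.Ψ 2 p, D.Ψ 3 p) :=
    fun p => by rw [tripleCost_rot s (D.Ψ 3 p) (P.ζ₁ p) (D.Ψ 2 p), tripleCost_rot s]
  simp only [r0, r1, r2, r3]
  calc _ ≤ (6⁻¹ : ℝ≥0∞) * (2 * ((2⁻¹ * D.C₀ + e * D.ν P.A₀) + (2⁻¹ * D.C₀ + e * D.ν P.A₁)) +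
        ((D.C₀ + e) + (D.C₀ + e) + (D.C₀ + e) + (D.C₀ + e))) := by gcongr
    _ = 6⁻¹ * (6 * (D.C₀ + e)) := by
        congr 1
        have e1 : (2 : ℝ≥0∞) * ((2⁻¹ * D.C₀ + e * D.ν P.A₀) + (2⁻¹ * D.C₀ + e * D.ν P.A₁))
            = (2 * (2⁻¹ * D.C₀)) * 2 + 2 * (e * (D.ν P.A₀ + D.ν P.A₁)) := by ring
        rw [e1, hA, SD.two_mul_inv2]
        ring
    _ = _ := six_inv_six _

/-- approximation by Monge maps. -/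
lemma approx (hs : 0 < s) (ε : ℝ≥0∞) (hε : 0 < ε) :
    ∃ T₂ T₃ : E d → E d, Measurable T₂ ∧ Measurable T₃ ∧ D.μ.map T₂ = D.μ ∧ D.μ.map T₃ = D.μ ∧
      ∫⁻ x, tripleCost s (x, T₂ x, T₃ x) ∂D.μ < D.C₀ + ε := by
  obtain ⟨δ, hδ, hδε⟩ : ∃ δ : ℝ, 0 < δ ∧ ENNReal.ofReal δ < ε := by
    obtain ⟨r, hr, hrε⟩ := ENNReal.lt_iff_exists_nnreal_btwn.1 hε
    refine ⟨r, ?_, ?_⟩
    · exact_mod_cast ENNReal.coe_pos.1 hr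
    · simpa using hrε
  obtain ⟨e0, he0, h0⟩ := D.unif_cost hs 0 1 (by decide) hδ
  obtain ⟨e1, he1, h1⟩ := D.unif_cost hs 2 3 (by decide) hδ
  have hε' : 0 < min e0 e1 := lt_min he0 he1
  obtain ⟨P⟩ := D.SD_nonempty hε'
  refine ⟨P.T₂, P.T₃, P.T₂_meas, P.T₃_meas, P.map_T₂, P.map_T₃, ?_⟩
  refine lt_of_le_of_lt (D.cost_T hs hδ ?_ ?_ P) ?_
  · exact fun x hx p hp hl => h0 x hx p hp (lt_of_lt_of_le hl (min_le_left _ _))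
  · exact fun x hx p hp hl => h1 x hx p hp (lt_of_lt_of_le hl (min_le_right _ _))
  · exact ENNReal.add_lt_add_left D.C₀_lt_top.ne hδε

/-- The final assembly. -/
theorem target (D : Setup d s) (hs : 0 < s) : Target d s := by
  refine ⟨D.ρ, D.ρ_nonneg, D.ρ_smooth, D.ρ_compact, D.sqrtρ_smooth, D.integral_ρ, D.π₀, ?_⟩
  rw [D.meas_eq]
  refine ⟨D.coupling_π₀, ?_, ?_, ?_, ?_⟩
  · rw [D.cost_π₀]; exact D.C₀_lt_top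
  · intro π hπ
    rw [D.cost_π₀]
    exact D.dual_bound π hπ
  · intro T₂ T₃ h₂ h₃ hμ₂ hμ₃
    rw [D.cost_π₀]
    exact D.monge_strict T₂ T₃ h₂ h₃ hμ₂ hμ₃
  · intro ε hε
    rw [D.cost_π₀]
    exact D.approx hs ε hε

end Setup
end Crest.Agent.Lib.SCE
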