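import Crest.Agent.Lib.SCE.Concrete

/-!
# S0175: construction of the `Setup`.
-/

set_option autoImplicit false
set_option linter.unusedSectionVars false
set_option linter.unusedVariables false

open MeasureTheory Set Filter Topology
open scoped ENNReal ContDiff NNReal Interval
open Crest.AnalysisR.OT

namespace Crest.Agent.Lib.SCE

variable {s ε η U : ℝ}

section generic

variable {F : Type*} [NormedAddCommGroup F] [InnerProductSpace ℝ F]
variable {P : PlaneOps F} {Sh : Shells s ε U}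

lemma tripleCost_top12 (hs : 0 < s) (x z : F) : tripleCost s (x, x, z) = ⊤ := by
  unfold tripleCost
  simp only
  rw [pairCost_self hs]
  simp

lemma tripleCost_top13 (hs : 0 < s) (x y : F) : tripleCost s (x, y, x) = ⊤ := by
  unfold tripleCost
  simp only
  rw [pairCost_self hs]
  simp

lemma tripleCost_top23 (hs : 0 < s) (x y : F) : tripleCost s (x, y, y) = ⊤ := by
  unfold tripleCost
  simp only
  rw [pairCost_self hs]
  simp

/-- the shifted potential with values in the extended reals. -/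
noncomputable def Shells.uE (Sh : Shells s ε U) (x : F) : ℝ≥0∞ := ENNReal.ofReal (Sh.uR x + U)

lemma uE_sum {x y z : F} (hx : |Sh.uR x| ≤ U) (hy : |Sh.uR y| ≤ U) (hz : |Sh.uR z| ≤ U) :
    Sh.uE x + Sh.uE y + Sh.uE z = ENNReal.ofReal (Sh.uR x + Sh.uR y + Sh.uR z + 3 * U) := by
  have a := (abs_le.mp hx).1
  have b := (abs_le.mp hy).1
  have c := (abs_le.mp hz).1
  unfold Shells.uE
  rw [← ENNReal.ofReal_add (by linarith) (by linarith), ← ENNReal.ofReal_add (by linarith) (by linarith)]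
  congr 1
  ring

lemma cost_add {x y z : F} (hs : 0 < s) (hU : 0 ≤ U) (h1 : x ≠ y) (h2 : x ≠ z) (h3 : y ≠ z) :
    tripleCost s (x, y, z) + ENNReal.ofReal (3 * U) = ENNReal.ofReal (cR s x y z + 3 * U) := by
  rw [tripleCost_of_ne hs h1 h2 h3, ENNReal.ofReal_add (cR_pos hs h1 h2 h3).le (by linarith)]

lemma Clusters.dualE {K : Set F} (C : Clusters P Sh K η) (hs : 0 < s) (hU : 0 ≤ U) {x y z : F}
    (hx : x ∈ Clusters.Sset P Sh K) (hy : y ∈ Clusters.Sset P Sh K) (hz : z ∈ Clusters.Sset P Sh K) :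
    Sh.uE x + Sh.uE y + Sh.uE z ≤ tripleCost s (x, y, z) + ENNReal.ofReal (3 * U) := by
  by_cases h1 : x = y
  · subst h1; rw [tripleCost_top12 hs]; simp
  by_cases h2 : x = z
  · subst h2; rw [tripleCost_top13 hs]; simp
  by_cases h3 : y = z
  · subst h3; rw [tripleCost_top23 hs]; simp
  rw [uE_sum (C.bd hx) (C.bd hy) (C.bd hz), cost_add hs hU h1 h2 h3]
  apply ENNReal.ofReal_le_ofReal
  have := (C.good_all hs hx hy hz h1 h2 h3).1
  linarith

lemma Clusters.eqE {K : Set F} (C : Clusters P Sh K η) (hs : 0 < s) (hU : 0 ≤ U) {x y z : F}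
    (hx : x ∈ Clusters.Sset P Sh K) (hy : y ∈ Clusters.Sset P Sh K) (hz : z ∈ Clusters.Sset P Sh K)
    (he : Sh.uE x + Sh.uE y + Sh.uE z = tripleCost s (x, y, z) + ENNReal.ofReal (3 * U)) :
    x ≠ y ∧ x ≠ z ∧ y ≠ z ∧ cR s x y z ≤ Sh.uR x + Sh.uR y + Sh.uR z := by
  rw [uE_sum (C.bd hx) (C.bd hy) (C.bd hz)] at he
  have hne : ENNReal.ofReal (Sh.uR x + Sh.uR y + Sh.uR z + 3 * U) ≠ ⊤ := ENNReal.ofReal_ne_top
  have h1 : x ≠ y := by
    rintro rfl
    rw [tripleCost_top12 hs] at he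
    exact hne (by simp at he)
  have h2 : x ≠ z := by
    rintro rfl
    rw [tripleCost_top13 hs] at he
    exact hne (by simp at he)
  have h3 : y ≠ z := by
    rintro rfl
    rw [tripleCost_top23 hs] at he
    exact hne (by simp at he)
  refine ⟨h1, h2, h3, ?_⟩
  rw [cost_add hs hU h1 h2 h3] at he
  have a := (abs_le.mp (C.bd hx)).1
  have b := (abs_le.mp (C.bd hy)).1
  have c := (abs_le.mp (C.bd hz)).1
  have hc := cR_pos hs h1 h2 h3
  have := (ENNReal.ofReal_eq_ofReal_iff (by linarith) (by linarith)).mp he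
  linarith

/-- equality on the maps in extended real form. -/
lemma on_mapsE (hs : 0 < s) (hU : 0 ≤ U) (σ : ℝ) (hσ : σ ^ 2 = 1) {K : Set F}
    (C : Clusters P Sh K η) {x : F} (hx : x ∈ K) (hA : Sh.mapA P σ x ∈ Clusters.Sset P Sh K)
    (hB : Sh.mapB P σ x ∈ Clusters.Sset P Sh K) :
    Sh.uE x + Sh.uE (Sh.mapA P σ x) + Sh.uE (Sh.mapB P σ x) =
      tripleCost s (x, Sh.mapA P σ x, Sh.mapB P σ x) + ENNReal.ofReal (3 * U) := by
  obtain ⟨h1, h2, h3, h4, h5, -⟩ := Shells.on_maps (P := P) (Sh := Sh) hs σ hσ (C.sub hx)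
  rw [uE_sum (C.bd (C.mem_S_of_K hx)) (C.bd hA) (C.bd hB), cost_add hs hU h1 h2 h3, h4, h5]

lemma wR_bd_K {x : F} (hx : x ∈ Sh.Usrc P) : |Sh.wR P x| ≤ 2 * Sh.rn := by
  obtain ⟨τ, hτ, he⟩ := Shells.shell_K hx
  have hn : |‖P.perp x‖ ^ 2| < Sh.rn := hx.2
  have hr := Sh.r_le
  have h1 : τ < 3 / 2 := by linarith [hτ.2]
  have h0 : 0 < τ := Sh.good.pos τ hτ
  unfold Shells.wR
  rw [he, Sh.Lam_P1 hτ, abs_mul]
  have h2 : |τ ^ 2 / 2| ≤ 2 := by
    rw [abs_of_nonneg (by positivity)]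
    nlinarith
  have h3 := abs_nonneg (‖P.perp x‖ ^ 2)
  nlinarith [abs_nonneg (τ ^ 2 / 2)]

lemma wR_bd_A {σ : ℝ} (hσ : σ ^ 2 = 1) {x : F} (hx : x ∈ Sh.Usrc P) :
    |Sh.wR P (Sh.mapA P σ x)| ≤ 2 * Sh.rn := by
  obtain ⟨τ, hτ, hτe, hx1, hy, hz, hxy, hxz, hyz, hbal, hpy, hpz⟩ := Sh.pair_identities P σ hσ hx
  have hn : |‖P.perp x‖ ^ 2| < Sh.rn := hx.2
  have hr := Sh.r_le
  have h1 : τ < 3 / 2 := by linarith [hτ.2]
  have h0 : 0 < τ := Sh.good.pos τ hτ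
  obtain ⟨h4, h5⟩ := abs_lt.mp Sh.good.abs_eps
  unfold Shells.wR
  rw [hy, Sh.Lam_P2 hτ, hpy, norm_neg, norm_smul, mul_pow, abs_mul]
  simp only [Real.norm_eq_abs, sq_abs]
  have h2 : |(-(1 + ε))| ≤ 2 := by
    rw [abs_le]; constructor <;> linarith
  have hnn : 0 ≤ ‖P.perp x‖ ^ 2 := by positivity
  rw [abs_of_nonneg hnn] at hn
  have h3 : (τ / 2) ^ 2 ≤ 1 := by nlinarith
  have h6 : |(τ / 2) ^ 2 * ‖P.perp x‖ ^ 2| ≤ Sh.rn := by
    rw [abs_of_nonneg (by positivity)]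
    nlinarith [sq_nonneg (τ / 2)]
  nlinarith [abs_nonneg (-(1 + ε)), abs_nonneg ((τ / 2) ^ 2 * ‖P.perp x‖ ^ 2)]

lemma wR_bd_B {σ : ℝ} (hσ : σ ^ 2 = 1) {x : F} (hx : x ∈ Sh.Usrc P) :
    |Sh.wR P (Sh.mapB P σ x)| ≤ 2 * Sh.rn := by
  obtain ⟨τ, hτ, hτe, hx1, hy, hz, hxy, hxz, hyz, hbal, hpy, hpz⟩ := Sh.pair_identities P σ hσ hx
  have hn : |‖P.perp x‖ ^ 2| < Sh.rn := hx.2
  have hr := Sh.r_le
  have h1 : τ < 3 / 2 := by linarith [hτ.2]
  have h0 : 0 < τ := Sh.good.pos τ hτ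
  obtain ⟨h4, h5⟩ := abs_lt.mp Sh.good.abs_eps
  unfold Shells.wR
  rw [hz, Sh.Lam_P3 hτ, hpz, norm_neg, norm_smul, mul_pow, abs_mul]
  simp only [Real.norm_eq_abs, sq_abs]
  have h2 : |(-(1 - ε))| ≤ 2 := by
    rw [abs_le]; constructor <;> linarith
  have hnn : 0 ≤ ‖P.perp x‖ ^ 2 := by positivity
  rw [abs_of_nonneg hnn] at hn
  have h3 : (τ / 2) ^ 2 ≤ 1 := by nlinarith
  have h6 : |(τ / 2) ^ 2 * ‖P.perp x‖ ^ 2| ≤ Sh.rn := by
    rw [abs_of_nonneg (by positivity)]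
    nlinarith [sq_nonneg (τ / 2)]
  nlinarith [abs_nonneg (-(1 - ε)), abs_nonneg ((τ / 2) ^ 2 * ‖P.perp x‖ ^ 2)]

lemma ne_of_shell12 {x y : F} {τ τ' : ℝ} (hτ : τ ∈ Ioo (1 - Sh.r) (1 + Sh.r))
    (hτ' : τ' ∈ Ioo (1 - Sh.r) (1 + Sh.r)) (hx : ‖x‖ ^ 2 = P1 s ε τ) (hy : ‖y‖ ^ 2 = P2 s ε τ') :
    x ≠ y := by
  rintro rfl
  exact Sh.disj12 τ hτ τ' hτ' (hx.symm.trans hy)

lemma ne_of_shell13 {x y : F} {τ τ' : ℝ} (hτ : τ ∈ Ioo (1 - Sh.r) (1 + Sh.r))
    (hτ' : τ' ∈ Ioo (1 - Sh.r) (1 + Sh.r)) (hx : ‖x‖ ^ 2 = P1 s ε τ) (hy : ‖y‖ ^ 2 = P3 s ε τ') :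
    x ≠ y := by
  rintro rfl
  exact Sh.disj13 τ hτ τ' hτ' (hx.symm.trans hy)

lemma ne_of_shell23 {x y : F} {τ τ' : ℝ} (hτ : τ ∈ Ioo (1 - Sh.r) (1 + Sh.r))
    (hτ' : τ' ∈ Ioo (1 - Sh.r) (1 + Sh.r)) (hx : ‖x‖ ^ 2 = P2 s ε τ) (hy : ‖y‖ ^ 2 = P3 s ε τ') :
    x ≠ y := by
  rintro rfl
  exact Sh.disj23 τ hτ τ' hτ' (hx.symm.trans hy)

end generic

section global

variable {d : ℕ}

/-- global version of the map. -/
noncomputable def gPsi (P : PlaneOps (E d)) (T : TwistData) : E d → E d := by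
  classical exact (TwistData.U P T).piecewise (TwistData.toFun P T) id

/-- global version of the left inverse. -/
noncomputable def gPhi (P : PlaneOps (E d)) (T : TwistData) : E d → E d := by
  classical exact (TwistData.V P T).piecewise (TwistData.invFun P T) id

variable (P : PlaneOps (E d)) (T : TwistData)

lemma gPsi_of_mem {x : E d} (hx : x ∈ TwistData.U P T) : gPsi P T x = TwistData.toFun P T x := by
  classical
  unfold gPsi
  exact piecewise_eq_of_mem _ _ _ hx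

lemma gPhi_of_mem {x : E d} (hx : x ∈ TwistData.V P T) : gPhi P T x = TwistData.invFun P T x := by
  classical
  unfold gPhi
  exact piecewise_eq_of_mem _ _ _ hx

lemma measurable_gPsi : Measurable (gPsi P T) := by
  classical
  unfold gPsi
  exact (TwistData.contDiffOn_toFun (P := P) (T := T)).continuousOn.measurable_piecewise
    continuousOn_id (TwistData.isOpen_U (P := P) (T := T)).measurableSet

lemma measurable_gPhi : Measurable (gPhi P T) := by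
  classical
  unfold gPhi
  exact (TwistData.contDiffOn_invFun (P := P) (T := T)).continuousOn.measurable_piecewise
    continuousOn_id (TwistData.isOpen_V (P := P) (T := T)).measurableSet

lemma contDiffOn_gPsi : ContDiffOn ℝ ∞ (gPsi P T) (TwistData.U P T) :=
  (TwistData.contDiffOn_toFun (P := P) (T := T)).congr fun x hx => gPsi_of_mem P T hx

lemma contDiffOn_gPhi : ContDiffOn ℝ ∞ (gPhi P T) (TwistData.V P T) :=
  (TwistData.contDiffOn_invFun (P := P) (T := T)).congr fun x hx => gPhi_of_mem P T hx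

lemma mapsTo_gPsi : MapsTo (gPsi P T) (TwistData.U P T) (TwistData.V P T) := fun x hx => by
  rw [gPsi_of_mem P T hx]
  exact TwistData.mapsTo_toFun T hx

lemma left_inv_gPsi {x : E d} (hx : x ∈ TwistData.U P T) : gPhi P T (gPsi P T x) = x := by
  rw [gPsi_of_mem P T hx, gPhi_of_mem P T (TwistData.mapsTo_toFun T hx)]
  exact TwistData.left_inv_toFun T hx

end global

section setup

variable {d : ℕ}

/-- The four twist data. -/
noncomputable def Shells.TD (Sh : Shells s ε U) : Fin 4 → TwistData :=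
  ![Sh.TDa 1 (by norm_num), Sh.TDb 1 (by norm_num), Sh.TDa (-1) (by norm_num), Sh.TDb (-1) (by norm_num)]

theorem exists_setup (hd : 2 ≤ d) (hs : 0 < s)
    (hsplit : ∀ (a : E d) (δ : ℝ), 0 < δ → ∃ g : E d → ℝ, (∀ x, 0 ≤ g x) ∧ ContDiff ℝ ∞ g ∧
      HasCompactSupport g ∧ tsupport g ⊆ Metric.closedBall a δ ∧ ∫ x, g x ^ 2 = 1 ∧ Split g) :
    Nonempty (Setup d s) := by
  classical
  obtain ⟨ε, η, U, h⟩ := exists_goodEps hs
  obtain ⟨Sh⟩ := exists_shells hs h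
  have hU1 : 1 ≤ U := by
    have := h.bound
    have := abs_nonneg (va s ε)
    have := abs_nonneg (vc s ε)
    linarith
  have hU0 : 0 ≤ U := by linarith
  -- plane
  let i₀ : Fin d := ⟨0, by omega⟩
  let i₁ : Fin d := ⟨1, by omega⟩
  let e₀ : E d := EuclideanSpace.single i₀ (1 : ℝ)
  let e₁ : E d := EuclideanSpace.single i₁ (1 : ℝ)
  have hi : i₀ ≠ i₁ := by
    intro he
    have := congrArg Fin.val he
    simp [i₀, i₁] at this
  have h00 : inner ℝ e₀ e₀ = (1 : ℝ) := by simp [e₀]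
  have h11 : inner ℝ e₁ e₁ = (1 : ℝ) := by simp [e₁]
  have h01 : inner ℝ e₀ e₁ = (0 : ℝ) := by simp [e₀, e₁, hi.symm, EuclideanSpace.inner_single_left]
  let P : PlaneOps (E d) := planeOf e₀ e₁ h00 h11 h01
  have he0 : ‖e₀‖ = 1 := by simp [e₀]
  have hB := exists_baseFacts P Sh h.P1_pos he0 (planeOf_Q_e0 e₀ e₁ h00 h11 h01)
  set a0 : E d := Real.sqrt (P1 s ε 1) • e₀ with ha0
  obtain ⟨δ, hδ, hcl⟩ := hB.exists_delta h
  obtain ⟨g, hg0, hgs, hgc, hgK, hg1, hgsplit⟩ := hsplit a0 δ hδ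
  obtain ⟨C, hsepA, hsepB⟩ := hcl (tsupport g) hgK
  set K := tsupport g with hKdef
  have hKU : K ⊆ Sh.Usrc P := C.sub
  let T : Fin 4 → TwistData := Sh.TD
  have hKUi : ∀ i, K ⊆ TwistData.U P (T i) := by
    intro i
    fin_cases i <;> exact hKU
  have hpd := fun i => push_density (TwistData.isOpen_U (P := P) (T := T i))
    (TwistData.isOpen_V (P := P) (T := T i)) hg0 hgs hgc (hKUi i) (measurable_gPsi P (T i))
    (contDiffOn_gPsi P (T i)) (contDiffOn_gPhi P (T i)) (mapsTo_gPsi P (T i))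
    (fun x hx => left_inv_gPsi P (T i) hx)
  choose r hr0 hrs hrc hrsupp hrmap using hpd
  -- identification of the maps on K
  have hΨ0 : ∀ x ∈ K, gPsi P (T 0) x = Sh.mapA P 1 x := fun x hx =>
    gPsi_of_mem P (T 0) (hKUi 0 hx)
  have hΨ1 : ∀ x ∈ K, gPsi P (T 1) x = Sh.mapB P 1 x := fun x hx =>
    gPsi_of_mem P (T 1) (hKUi 1 hx)
  have hΨ2 : ∀ x ∈ K, gPsi P (T 2) x = Sh.mapA P (-1) x := fun x hx =>
    gPsi_of_mem P (T 2) (hKUi 2 hx)
  have hΨ3 : ∀ x ∈ K, gPsi P (T 3) x = Sh.mapB P (-1) x := fun x hx =>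
    gPsi_of_mem P (T 3) (hKUi 3 hx)
  have one2 : (1 : ℝ) ^ 2 = 1 := by norm_num
  have mone2 : (-1 : ℝ) ^ 2 = 1 := by norm_num
  -- the set S
  have hSsub : ∀ x, x ∈ K ∪ ⋃ i, gPsi P (T i) '' K → x ∈ Clusters.Sset P Sh K := by
    rintro x (hx | hx)
    · exact C.mem_S_of_K hx
    · obtain ⟨i, p, hp, rfl⟩ := mem_iUnion.mp hx
      fin_cases i
      · show gPsi P (T 0) p ∈ _
        rw [hΨ0 p hp]
        exact Or.inl (Or.inr (Or.inl (mem_image_of_mem _ hp)))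
      · show gPsi P (T 1) p ∈ _
        rw [hΨ1 p hp]
        exact Or.inr (Or.inl (mem_image_of_mem _ hp))
      · show gPsi P (T 2) p ∈ _
        rw [hΨ2 p hp]
        exact Or.inr (Or.inr (mem_image_of_mem _ hp))
      · show gPsi P (T 3) p ∈ _
        rw [hΨ3 p hp]
        exact Or.inl (Or.inr (Or.inr (mem_image_of_mem _ hp)))
  have memA1 : ∀ x ∈ K, Sh.mapA P 1 x ∈ Clusters.Sset P Sh K := fun x hx =>
    Or.inl (Or.inr (Or.inl (mem_image_of_mem _ hx)))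
  have memB1 : ∀ x ∈ K, Sh.mapB P 1 x ∈ Clusters.Sset P Sh K := fun x hx =>
    Or.inr (Or.inl (mem_image_of_mem _ hx))
  have memA2 : ∀ x ∈ K, Sh.mapA P (-1) x ∈ Clusters.Sset P Sh K := fun x hx =>
    Or.inr (Or.inr (mem_image_of_mem _ hx))
  have memB2 : ∀ x ∈ K, Sh.mapB P (-1) x ∈ Clusters.Sset P Sh K := fun x hx =>
    Or.inl (Or.inr (Or.inr (mem_image_of_mem _ hx)))
  have hUbd : ∀ x ∈ Clusters.Sset P Sh K, Sh.uE x ≤ ((Real.toNNReal (2 * U) : ℝ≥0) : ℝ≥0∞) := by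
    intro x hx
    have := abs_le.mp (C.bd hx)
    exact ENNReal.ofReal_le_ofReal (by linarith [this.2])
  have hBB : ((Real.toNNReal (3 * U) : ℝ≥0) : ℝ≥0∞) = ENNReal.ofReal (3 * U) := rfl
  have hperpC : Continuous (fun x : E d => P.perp x) := by
    unfold PlaneOps.perp
    exact continuous_id.sub P.Q.continuous
  refine ⟨{
    g := g
    g_nonneg := hg0
    g_smooth := hgs
    g_compact := hgc
    g_int := hg1
    g_split := hgsplit
    Ψ := fun i => gPsi P (T i)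
    Φ := fun i => gPhi P (T i)
    Ψ_meas := fun i => measurable_gPsi P (T i)
    Φ_meas := fun i => measurable_gPhi P (T i)
    Ψ_cont := fun i => (contDiffOn_gPsi P (T i)).continuousOn.mono (hKUi i)
    left_inv := fun i x hx => left_inv_gPsi P (T i) (hKUi i hx)
    r := r
    r_nonneg := hr0
    r_smooth := hrs
    r_compact := hrc
    r_support := hrsupp
    r_map := hrmap
    disj_0 := ?_
    disj_ij := ?_
    S := K ∪ ⋃ i, gPsi P (T i) '' K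
    S_eq := rfl
    u := Sh.uE
    u_meas := ?_
    Ubar := Real.toNNReal (2 * U)
    u_bd := fun x hx => hUbd x (hSsub x hx)
    B := Real.toNNReal (3 * U)
    dual := ?_
    eq_0 := ?_
    eq_1 := ?_
    cost_eq := ?_
    w := Sh.wR P
    w_meas := ?_
    Wbar := 2 * Sh.rn
    w_bd := ?_
    w_le := ?_
    w_eq_0 := ?_
    w_eq_1 := ?_
    rigid := ?_ }⟩
  · -- disj_0
    intro i x hx y hy
    obtain ⟨τ, hτ, hxe⟩ := Shells.shell_K (hKU hx)
    fin_cases i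
    · show gPsi P (T 0) y ≠ x
      rw [hΨ0 y hy]
      obtain ⟨τ', hτ', he⟩ := Shells.shell_A (σ := 1) one2 (hKU hy)
      exact (ne_of_shell12 hτ hτ' hxe he).symm
    · show gPsi P (T 1) y ≠ x
      rw [hΨ1 y hy]
      obtain ⟨τ', hτ', he⟩ := Shells.shell_B (σ := 1) one2 (hKU hy)
      exact (ne_of_shell13 hτ hτ' hxe he).symm
    · show gPsi P (T 2) y ≠ x
      rw [hΨ2 y hy]
      obtain ⟨τ', hτ', he⟩ := Shells.shell_A (σ := -1) mone2 (hKU hy)
      exact (ne_of_shell12 hτ hτ' hxe he).symm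
    · show gPsi P (T 3) y ≠ x
      rw [hΨ3 y hy]
      obtain ⟨τ', hτ', he⟩ := Shells.shell_B (σ := -1) mone2 (hKU hy)
      exact (ne_of_shell13 hτ hτ' hxe he).symm
  · -- disj_ij
    have d01 : ∀ x ∈ K, ∀ y ∈ K, Sh.mapA P 1 x ≠ Sh.mapB P 1 y := fun x hx y hy => by
      obtain ⟨τ, hτ, he⟩ := Shells.shell_A (σ := 1) one2 (hKU hx)
      obtain ⟨τ', hτ', he'⟩ := Shells.shell_B (σ := 1) one2 (hKU hy)
      exact ne_of_shell23 hτ hτ' he he'
    have d03 : ∀ x ∈ K, ∀ y ∈ K, Sh.mapA P 1 x ≠ Sh.mapB P (-1) y := fun x hx y hy => by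
      obtain ⟨τ, hτ, he⟩ := Shells.shell_A (σ := 1) one2 (hKU hx)
      obtain ⟨τ', hτ', he'⟩ := Shells.shell_B (σ := -1) mone2 (hKU hy)
      exact ne_of_shell23 hτ hτ' he he'
    have d21 : ∀ x ∈ K, ∀ y ∈ K, Sh.mapA P (-1) x ≠ Sh.mapB P 1 y := fun x hx y hy => by
      obtain ⟨τ, hτ, he⟩ := Shells.shell_A (σ := -1) mone2 (hKU hx)
      obtain ⟨τ', hτ', he'⟩ := Shells.shell_B (σ := 1) one2 (hKU hy)
      exact ne_of_shell23 hτ hτ' he he'
    have d23 : ∀ x ∈ K, ∀ y ∈ K, Sh.mapA P (-1) x ≠ Sh.mapB P (-1) y := fun x hx y hy => by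
      obtain ⟨τ, hτ, he⟩ := Shells.shell_A (σ := -1) mone2 (hKU hx)
      obtain ⟨τ', hτ', he'⟩ := Shells.shell_B (σ := -1) mone2 (hKU hy)
      exact ne_of_shell23 hτ hτ' he he'
    intro i j hij x hx y hy
    fin_cases i <;> fin_cases j
    · exact absurd rfl hij
    · show gPsi P (T 0) x ≠ gPsi P (T 1) y
      rw [hΨ0 x hx, hΨ1 y hy]; exact d01 x hx y hy
    · show gPsi P (T 0) x ≠ gPsi P (T 2) y
      rw [hΨ0 x hx, hΨ2 y hy]; exact hsepA x hx y hy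
    · show gPsi P (T 0) x ≠ gPsi P (T 3) y
      rw [hΨ0 x hx, hΨ3 y hy]; exact d03 x hx y hy
    · show gPsi P (T 1) x ≠ gPsi P (T 0) y
      rw [hΨ1 x hx, hΨ0 y hy]; exact (d01 y hy x hx).symm
    · exact absurd rfl hij
    · show gPsi P (T 1) x ≠ gPsi P (T 2) y
      rw [hΨ1 x hx, hΨ2 y hy]; exact (d21 y hy x hx).symm
    · show gPsi P (T 1) x ≠ gPsi P (T 3) y
      rw [hΨ1 x hx, hΨ3 y hy]; exact hsepB x hx y hy
    · show gPsi P (T 2) x ≠ gPsi P (T 0) y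
      rw [hΨ2 x hx, hΨ0 y hy]; exact (hsepA y hy x hx).symm
    · show gPsi P (T 2) x ≠ gPsi P (T 1) y
      rw [hΨ2 x hx, hΨ1 y hy]; exact d21 x hx y hy
    · exact absurd rfl hij
    · show gPsi P (T 2) x ≠ gPsi P (T 3) y
      rw [hΨ2 x hx, hΨ3 y hy]; exact d23 x hx y hy
    · show gPsi P (T 3) x ≠ gPsi P (T 0) y
      rw [hΨ3 x hx, hΨ0 y hy]; exact (d03 y hy x hx).symm
    · show gPsi P (T 3) x ≠ gPsi P (T 1) y
      rw [hΨ3 x hx, hΨ1 y hy]; exact (hsepB y hy x hx).symm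
    · show gPsi P (T 3) x ≠ gPsi P (T 2) y
      rw [hΨ3 x hx, hΨ2 y hy]; exact (d23 y hy x hx).symm
    · exact absurd rfl hij
  · -- u_meas
    unfold Shells.uE Shells.uR
    have : Measurable (fun x : E d => Sh.V (‖x‖ ^ 2)) :=
      Sh.measurable_V.comp ((continuous_norm.pow 2).measurable)
    exact (this.add_const U).ennreal_ofReal
  · -- dual
    intro x hx y hy z hz
    rw [hBB]
    exact C.dualE hs hU0 (hSsub x hx) (hSsub y hy) (hSsub z hz)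
  · -- eq_0
    intro x hx
    rw [hΨ0 x hx, hΨ1 x hx, hBB]
    exact on_mapsE hs hU0 1 one2 C hx (memA1 x hx) (memB1 x hx)
  · -- eq_1
    intro x hx
    rw [hΨ2 x hx, hΨ3 x hx, hBB]
    exact on_mapsE hs hU0 (-1) mone2 C hx (memA2 x hx) (memB2 x hx)
  · -- cost_eq
    intro x hx
    rw [hΨ0 x hx, hΨ1 x hx, hΨ2 x hx, hΨ3 x hx]
    obtain ⟨a1, a2, a3, a4, -, -⟩ := Shells.on_maps (P := P) (Sh := Sh) hs 1 one2 (hKU hx)
    obtain ⟨b1, b2, b3, b4, -, -⟩ := Shells.on_maps (P := P) (Sh := Sh) hs (-1) mone2 (hKU hx)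
    rw [tripleCost_of_ne hs a1 a2 a3, tripleCost_of_ne hs b1 b2 b3, a4, b4]
  · -- w_meas
    unfold Shells.wR
    have h1 : Measurable (fun x : E d => Sh.Lam (‖x‖ ^ 2)) :=
      Sh.measurable_Lam.comp ((continuous_norm.pow 2).measurable)
    have h2 : Measurable (fun x : E d => ‖P.perp x‖ ^ 2) :=
      (hperpC.norm.pow 2).measurable
    exact h1.mul h2
  · -- w_bd
    intro x hx
    rcases hSsub x hx with (hx' | ⟨p, hp, rfl⟩ | ⟨p, hp, rfl⟩) | ⟨p, hp, rfl⟩ | ⟨p, hp, rfl⟩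
    · exact wR_bd_K (hKU hx')
    · exact wR_bd_A one2 (hKU hp)
    · exact wR_bd_B mone2 (hKU hp)
    · exact wR_bd_B one2 (hKU hp)
    · exact wR_bd_A mone2 (hKU hp)
  · -- w_le
    intro x hx y hy z hz he
    rw [hBB] at he
    obtain ⟨a1, a2, a3, a4⟩ := C.eqE hs hU0 (hSsub x hx) (hSsub y hy) (hSsub z hz) he
    exact (C.good_all hs (hSsub x hx) (hSsub y hy) (hSsub z hz) a1 a2 a3).2 a4
  · -- w_eq_0
    intro x hx
    rw [hΨ0 x hx, hΨ1 x hx]
    exact (Shells.on_maps (P := P) (Sh := Sh) hs 1 one2 (hKU hx)).2.2.2.2.2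
  · -- w_eq_1
    intro x hx
    rw [hΨ2 x hx, hΨ3 x hx]
    exact (Shells.on_maps (P := P) (Sh := Sh) hs (-1) mone2 (hKU hx)).2.2.2.2.2
  · -- rigid
    intro x hx y hy z hz he hw
    rw [hBB] at he
    rw [hΨ0 x hx, hΨ1 x hx, hΨ2 x hx, hΨ3 x hx]
    obtain ⟨a1, a2, a3, a4⟩ := C.eqE hs hU0 (C.mem_S_of_K hx) (hSsub y hy) (hSsub z hz) he
    rcases C.eq_K hs hx (hSsub y hy) (hSsub z hz) a1 a2 a3 a4 with h1 | h1
    · rcases Shells.rigid_of_proper (hKU hx) h1 hw with ⟨e1, e2⟩ | ⟨e1, e2⟩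
      · exact Or.inl ⟨e1, e2⟩
      · exact Or.inr (Or.inr (Or.inl ⟨e1, e2⟩))
    · have hw' : Sh.wR P x + Sh.wR P z + Sh.wR P y = 0 := by linarith
      rcases Shells.rigid_of_proper (hKU hx) h1 hw' with ⟨e1, e2⟩ | ⟨e1, e2⟩
      · exact Or.inr (Or.inl ⟨e2, e1⟩)
      · exact Or.inr (Or.inr (Or.inr ⟨e2, e1⟩))

end setup

end Crest.Agent.Lib.SCE
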