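import Crest.Agent.Lib.SCE.Spec

/-!
# S0175: the tangent inequality for the cost `D ^ (-s/2)`.
-/

set_option autoImplicit false
set_option linter.unusedSectionVars false
set_option linter.unusedVariables false

open MeasureTheory Set
open scoped ENNReal ContDiff NNReal
open Crest.AnalysisR.OT

namespace Crest.Agent.Lib.SCE

/-- exponent `m = 2/(s+2)`. -/
noncomputable def mm (s : ℝ) : ℝ := 2 / (s + 2)
/-- exponent `p = s/(s+2)`. -/
noncomputable def pp (s : ℝ) : ℝ := s / (s + 2)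
/-- constant `c₀ = (s/2)^m`. -/
noncomputable def c0 (s : ℝ) : ℝ := (s / 2) ^ mm s
/-- the optimal squared distance for weight `e`. -/
noncomputable def Dd (s e : ℝ) : ℝ := c0 s * e ^ (-(mm s))
/-- the convex function `D ↦ D^(-s/2)`. -/
noncomputable def phi (s D : ℝ) : ℝ := D ^ (-(s / 2))
/-- the conjugate function `ψ(e) = φ(D(e)) + e D(e)`. -/
noncomputable def psi (s e : ℝ) : ℝ := phi s (Dd s e) + e * Dd s e

variable {s : ℝ}

lemma mm_pos (hs : 0 < s) : 0 < mm s := by unfold mm; positivity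
lemma pp_pos (hs : 0 < s) : 0 < pp s := by unfold pp; positivity
lemma pp_eq (hs : 0 < s) : pp s = 1 - mm s := by
  unfold pp mm; field_simp; ring
lemma pp_lt_one (hs : 0 < s) : pp s < 1 := by
  rw [pp_eq hs]; linarith [mm_pos hs]
lemma c0_pos (hs : 0 < s) : 0 < c0 s := by unfold c0; positivity

lemma Dd_pos (hs : 0 < s) {e : ℝ} (he : 0 < e) : 0 < Dd s e := by
  have := c0_pos hs
  unfold Dd; positivity

/-- the defining relation of `D`: `(s/2) D(e)^(-s/2-1) = e`. -/
lemma half_mul_Dd_rpow (hs : 0 < s) {e : ℝ} (he : 0 < e) :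
    s / 2 * (Dd s e) ^ (-(s / 2) - 1) = e := by
  have hh : 0 < s / 2 := by positivity
  unfold Dd c0
  have h1 : 0 < (s / 2) ^ mm s := by positivity
  have h2 : 0 < e ^ (-(mm s)) := by positivity
  rw [Real.mul_rpow h1.le h2.le, ← Real.rpow_mul hh.le, ← Real.rpow_mul he.le]
  have e1 : mm s * (-(s / 2) - 1) = -1 := by
    unfold mm; field_simp; ring
  have e2 : -(mm s) * (-(s / 2) - 1) = 1 := by
    unfold mm; field_simp; ring
  rw [e1, e2, Real.rpow_neg_one, Real.rpow_one]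
  field_simp

/-- Bernoulli for negative exponents. -/
lemma rpow_neg_tangent {q t : ℝ} (hq : 0 < q) (ht : 0 < t) :
    1 - q * (t - 1) ≤ t ^ (-q) := by
  have h1 : t ^ (-q) = Real.exp (-q * Real.log t) := by
    rw [Real.rpow_def_of_pos ht]; ring_nf
  rw [h1]
  have h2 := Real.add_one_le_exp (-q * Real.log t)
  have h3 := Real.log_le_sub_one_of_pos ht
  nlinarith

lemma rpow_neg_tangent_strict {q t : ℝ} (hq : 0 < q) (ht : 0 < t) (h1t : t ≠ 1) :
    1 - q * (t - 1) < t ^ (-q) := by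
  have h1 : t ^ (-q) = Real.exp (-q * Real.log t) := by
    rw [Real.rpow_def_of_pos ht]; ring_nf
  rw [h1]
  have h2 := Real.add_one_le_exp (-q * Real.log t)
  have h3 := Real.log_lt_sub_one_of_pos ht h1t
  nlinarith

/-- Tangent line inequality for `φ` at `D(e)`. -/
lemma phi_tangent (hs : 0 < s) {e d : ℝ} (he : 0 < e) (hd : 0 < d) :
    psi s e - e * d ≤ phi s d := by
  have hD := Dd_pos hs he
  set D := Dd s e with hDdef
  have hq : 0 < s / 2 := by positivity
  have key := rpow_neg_tangent hq (div_pos hd hD)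
  have h2 := half_mul_Dd_rpow hs he
  rw [← hDdef] at h2
  have h3 : phi s d = phi s D * (d / D) ^ (-(s / 2)) := by
    unfold phi
    rw [← Real.mul_rpow hD.le (div_pos hd hD).le]
    congr 1; field_simp
  have h4 : D ^ (-(s / 2) - 1) = phi s D / D := by
    unfold phi
    rw [Real.rpow_sub_one hD.ne']
  rw [h4] at h2
  have hphi : 0 < phi s D := by unfold phi; positivity
  rw [h3]
  unfold psi
  rw [← hDdef]
  have h5 : phi s D * (1 - s / 2 * (d / D - 1)) ≤ phi s D * (d / D) ^ (-(s / 2)) :=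
    mul_le_mul_of_nonneg_left key hphi.le
  have h6 : phi s D * (1 - s / 2 * (d / D - 1)) = phi s D - (s / 2 * (phi s D / D)) * (d - D) := by
    field_simp
  rw [h6, h2] at h5
  linarith

lemma phi_tangent_strict (hs : 0 < s) {e d : ℝ} (he : 0 < e) (hd : 0 < d) (hne : d ≠ Dd s e) :
    psi s e - e * d < phi s d := by
  have hD := Dd_pos hs he
  set D := Dd s e with hDdef
  have hq : 0 < s / 2 := by positivity
  have hne' : d / D ≠ 1 := by
    intro h; apply hne; field_simp at h; linarith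
  have key := rpow_neg_tangent_strict hq (div_pos hd hD) hne'
  have h2 := half_mul_Dd_rpow hs he
  rw [← hDdef] at h2
  have h3 : phi s d = phi s D * (d / D) ^ (-(s / 2)) := by
    unfold phi
    rw [← Real.mul_rpow hD.le (div_pos hd hD).le]
    congr 1; field_simp
  have h4 : D ^ (-(s / 2) - 1) = phi s D / D := by
    unfold phi
    rw [Real.rpow_sub_one hD.ne']
  rw [h4] at h2
  have hphi : 0 < phi s D := by unfold phi; positivity
  rw [h3]
  unfold psi
  rw [← hDdef]
  have h5 : phi s D * (1 - s / 2 * (d / D - 1)) < phi s D * (d / D) ^ (-(s / 2)) :=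
    mul_lt_mul_of_pos_left key hphi
  have h6 : phi s D * (1 - s / 2 * (d / D - 1)) = phi s D - (s / 2 * (phi s D / D)) * (d - D) := by
    field_simp
  rw [h6, h2] at h5
  linarith

/-- The tangent at `D(e)` is attained at `D(e)`. -/
lemma phi_Dd_eq (s e : ℝ) : psi s e - e * Dd s e = phi s (Dd s e) := by
  unfold psi; ring

section Cost

variable {F : Type*} [NormedAddCommGroup F] [InnerProductSpace ℝ F]

/-- real valued cost. -/
noncomputable def cR (s : ℝ) (x y z : F) : ℝ :=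
  phi s (‖x - y‖ ^ 2) + phi s (‖x - z‖ ^ 2) + phi s (‖y - z‖ ^ 2)

lemma pairCost_of_ne (hs : 0 < s) {x y : F} (h : x ≠ y) :
    pairCost s x y = ENNReal.ofReal (phi s (‖x - y‖ ^ 2)) := by
  have h0 : 0 < ‖x - y‖ := norm_pos_iff.mpr (sub_ne_zero.mpr h)
  unfold pairCost phi
  rw [ENNReal.ofReal_rpow_of_pos h0]
  congr 1
  rw [← Real.rpow_natCast, ← Real.rpow_mul h0.le]
  congr 1
  push_cast; ring

lemma pairCost_self (hs : 0 < s) (x : F) : pairCost s x x = ⊤ := by
  unfold pairCost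
  simp [hs]

lemma phi_pos {D : ℝ} (hD : 0 < D) : 0 < phi s D := by
  unfold phi; positivity

lemma tripleCost_of_ne (hs : 0 < s) {x y z : F} (h1 : x ≠ y) (h2 : x ≠ z) (h3 : y ≠ z) :
    tripleCost s (x, y, z) = ENNReal.ofReal (cR s x y z) := by
  have hp : ∀ {a b : F}, a ≠ b → 0 ≤ phi s (‖a - b‖ ^ 2) := fun {a b} h =>
    (phi_pos (by have := norm_pos_iff.mpr (sub_ne_zero.mpr h); positivity)).le
  unfold tripleCost cR
  simp only
  rw [pairCost_of_ne hs h1, pairCost_of_ne hs h2, pairCost_of_ne hs h3,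
    ENNReal.ofReal_add (add_nonneg (hp h1) (hp h2)) (hp h3), ENNReal.ofReal_add (hp h1) (hp h2)]

lemma cR_pos (hs : 0 < s) {x y z : F} (h1 : x ≠ y) (h2 : x ≠ z) (h3 : y ≠ z) : 0 < cR s x y z := by
  have hp : ∀ {a b : F}, a ≠ b → 0 < phi s (‖a - b‖ ^ 2) := fun {a b} h =>
    (phi_pos (by have := norm_pos_iff.mpr (sub_ne_zero.mpr h); positivity))
  unfold cR
  have := hp h1; have := hp h2; have := hp h3
  linarith

/-- the quadratic identity. -/
lemma weighted_sq_identity (a b c : ℝ) (x y z : F) :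
    a * b * ‖x - y‖ ^ 2 + a * c * ‖x - z‖ ^ 2 + b * c * ‖y - z‖ ^ 2 =
      (a + b + c) * (a * ‖x‖ ^ 2 + b * ‖y‖ ^ 2 + c * ‖z‖ ^ 2) - ‖a • x + b • y + c • z‖ ^ 2 := by
  have e1 : ‖a • x + b • y + c • z‖ ^ 2 =
      a ^ 2 * ‖x‖ ^ 2 + b ^ 2 * ‖y‖ ^ 2 + c ^ 2 * ‖z‖ ^ 2 + 2 * a * b * inner ℝ x y +
        2 * a * c * inner ℝ x z + 2 * b * c * inner ℝ y z := by
    rw [norm_add_sq_real, norm_add_sq_real, norm_smul, norm_smul, norm_smul, inner_add_left]
    simp only [real_inner_smul_left, real_inner_smul_right, Real.norm_eq_abs, mul_pow, sq_abs]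
    ring
  rw [e1, norm_sub_sq_real, norm_sub_sq_real, norm_sub_sq_real]
  ring

/-- The tangent inequality for the triple cost. -/
lemma cR_tangent (hs : 0 < s) {a b c : ℝ} (ha : 0 < a) (hb : 0 < b) (hc : 0 < c) {x y z : F}
    (h1 : x ≠ y) (h2 : x ≠ z) (h3 : y ≠ z) :
    psi s (a * b) + psi s (a * c) + psi s (b * c)
        - (a + b + c) * (a * ‖x‖ ^ 2 + b * ‖y‖ ^ 2 + c * ‖z‖ ^ 2)
        + ‖a • x + b • y + c • z‖ ^ 2 ≤ cR s x y z := by
  have hp : ∀ {u v : F}, u ≠ v → 0 < ‖u - v‖ ^ 2 := fun {u v} h => by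
    have := norm_pos_iff.mpr (sub_ne_zero.mpr h); positivity
  have t1 := phi_tangent hs (mul_pos ha hb) (hp h1)
  have t2 := phi_tangent hs (mul_pos ha hc) (hp h2)
  have t3 := phi_tangent hs (mul_pos hb hc) (hp h3)
  have id := weighted_sq_identity a b c x y z
  unfold cR
  linarith

/-- Equality case of the tangent inequality. -/
lemma cR_tangent_eq (hs : 0 < s) {a b c : ℝ} (ha : 0 < a) (hb : 0 < b) (hc : 0 < c) {x y z : F}
    (h1 : x ≠ y) (h2 : x ≠ z) (h3 : y ≠ z)
    (heq : cR s x y z ≤ psi s (a * b) + psi s (a * c) + psi s (b * c)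
        - (a + b + c) * (a * ‖x‖ ^ 2 + b * ‖y‖ ^ 2 + c * ‖z‖ ^ 2)
        + ‖a • x + b • y + c • z‖ ^ 2) :
    ‖x - y‖ ^ 2 = Dd s (a * b) ∧ ‖x - z‖ ^ 2 = Dd s (a * c) ∧ ‖y - z‖ ^ 2 = Dd s (b * c) := by
  have hp : ∀ {u v : F}, u ≠ v → 0 < ‖u - v‖ ^ 2 := fun {u v} h => by
    have := norm_pos_iff.mpr (sub_ne_zero.mpr h); positivity
  have t1 := phi_tangent hs (mul_pos ha hb) (hp h1)
  have t2 := phi_tangent hs (mul_pos ha hc) (hp h2)
  have t3 := phi_tangent hs (mul_pos hb hc) (hp h3)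
  have id := weighted_sq_identity a b c x y z
  unfold cR at heq
  refine ⟨?_, ?_, ?_⟩
  · by_contra hne
    have := phi_tangent_strict hs (mul_pos ha hb) (hp h1) hne
    linarith
  · by_contra hne
    have := phi_tangent_strict hs (mul_pos ha hc) (hp h2) hne
    linarith
  · by_contra hne
    have := phi_tangent_strict hs (mul_pos hb hc) (hp h3) hne
    linarith

end Cost

end Crest.Agent.Lib.SCE
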