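import Crest.Agent.Lib.SCE.Spec

/-!
# S0175: densities of push-forwards under charts with a smooth left inverse.
-/

set_option autoImplicit false
set_option linter.unusedSectionVars false
set_option linter.unusedVariables false

open MeasureTheory Set Filter Topology
open scoped ContDiff NNReal

namespace Crest.Agent.Lib.SCE

variable {d : ℕ}

/-- smoothness of the determinant. -/
lemma contDiffAt_det {G : Type*} [NormedAddCommGroup G] [NormedSpace ℝ G]
    {F : Type*} [NormedAddCommGroup F] [NormedSpace ℝ F] [FiniteDimensional ℝ F]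
    {A : G → F →L[ℝ] F} {y : G} (hA : ContDiffAt ℝ ∞ A y) :
    ContDiffAt ℝ ∞ (fun z => (A z).det) y := by
  classical
  let b := Module.finBasis ℝ F
  have e : ∀ z, (A z).det = Matrix.det (LinearMap.toMatrix b b (A z : F →ₗ[ℝ] F)) := fun z =>
    (LinearMap.det_toMatrix b _).symm
  have hentry : ∀ i j, ContDiffAt ℝ ∞
      (fun z => LinearMap.toMatrix b b (A z : F →ₗ[ℝ] F) i j) y := by
    intro i j
    have hc : ContDiffAt ℝ ∞ (fun z => A z (b j)) y := hA.clm_apply contDiffAt_const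
    let ci : F →L[ℝ] ℝ := LinearMap.toContinuousLinearMap (b.coord i)
    have : (fun z => LinearMap.toMatrix b b (A z : F →ₗ[ℝ] F) i j) = fun z => ci (A z (b j)) := by
      funext z
      simp [LinearMap.toMatrix_apply, ci]
    rw [this]
    exact ci.contDiff.contDiffAt.comp y hc
  simp_rw [e, Matrix.det_apply]
  refine ContDiffAt.sum fun σ _ => ?_
  refine ContDiffAt.const_smul _ ?_
  exact contDiffAt_prod (fun i _ => hentry _ _)

theorem push_density {U V : Set (E d)} (hU : IsOpen U) (hV : IsOpen V) {g : E d → ℝ}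
    (hg0 : ∀ x, 0 ≤ g x) (hgs : ContDiff ℝ ∞ g) (hgc : HasCompactSupport g)
    (hK : tsupport g ⊆ U) {Ψ Φ : E d → E d} (hΨm : Measurable Ψ) (hΨ : ContDiffOn ℝ ∞ Ψ U)
    (hΦ : ContDiffOn ℝ ∞ Φ V) (hmaps : MapsTo Ψ U V) (hinv : ∀ x ∈ U, Φ (Ψ x) = x) :
    ∃ r : E d → ℝ, (∀ y, 0 ≤ r y) ∧ ContDiff ℝ ∞ r ∧ HasCompactSupport r ∧
      (∀ y, r y ≠ 0 → y ∈ Ψ '' tsupport g) ∧ (sqMeas g).map Ψ = sqMeas r := by
  classical
  have hn : (∞ : WithTop ℕ∞) ≠ 0 := by simp
  have hΨat : ∀ x ∈ U, ContDiffAt ℝ ∞ Ψ x := fun x hx => hΨ.contDiffAt (hU.mem_nhds hx)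
  have hΦat : ∀ y ∈ V, ContDiffAt ℝ ∞ Φ y := fun y hy => hΦ.contDiffAt (hV.mem_nhds hy)
  have h1le : (1 : WithTop ℕ∞) ≤ ∞ := by exact_mod_cast le_top
  -- chain rule
  have hΨd : ∀ x ∈ U, HasFDerivAt Ψ (fderiv ℝ Ψ x) x := fun x hx =>
    ((hΨat x hx).differentiableAt (by simp)).hasFDerivAt
  have hΦd : ∀ y ∈ V, HasFDerivAt Φ (fderiv ℝ Φ y) y := fun y hy =>
    ((hΦat y hy).differentiableAt (by simp)).hasFDerivAt
  have hchain : ∀ x ∈ U, (fderiv ℝ Φ (Ψ x)).comp (fderiv ℝ Ψ x) = ContinuousLinearMap.id ℝ (E d) := by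
    intro x hx
    have h1 := (hΦd (Ψ x) (hmaps hx)).comp x (hΨd x hx)
    have h2 : (Φ ∘ Ψ) =ᶠ[𝓝 x] id := by
      filter_upwards [hU.mem_nhds hx] with z hz
      exact hinv z hz
    have h3 : HasFDerivAt (Φ ∘ Ψ) (ContinuousLinearMap.id ℝ (E d)) x :=
      (hasFDerivAt_id x).congr_of_eventuallyEq h2
    exact h1.unique h3
  have hdet : ∀ x ∈ U, (fderiv ℝ Φ (Ψ x)).det * (fderiv ℝ Ψ x).det = 1 := by
    intro x hx
    have h := congrArg ContinuousLinearMap.det (hchain x hx)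
    have e1 : ((fderiv ℝ Φ (Ψ x)).comp (fderiv ℝ Ψ x)).det =
        (fderiv ℝ Φ (Ψ x)).det * (fderiv ℝ Ψ x).det := by
      simp [ContinuousLinearMap.det, LinearMap.det_comp]
    rw [e1] at h
    simpa [ContinuousLinearMap.det] using h
  have hdetΦ : ∀ x ∈ U, (fderiv ℝ Φ (Ψ x)).det ≠ 0 := fun x hx h0 => by
    have := hdet x hx
    rw [h0, zero_mul] at this
    exact zero_ne_one this
  have hdetΨ : ∀ x ∈ U, (fderiv ℝ Ψ x).det ≠ 0 := fun x hx h0 => by
    have := hdet x hx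
    rw [h0, mul_zero] at this
    exact zero_ne_one this
  -- open image
  have hopen : IsOpen (Ψ '' U) := by
    rw [isOpen_iff_mem_nhds]
    rintro _ ⟨x, hx, rfl⟩
    let e : E d ≃L[ℝ] E d := (LinearMap.equivOfDetNeZero (fderiv ℝ Ψ x : E d →ₗ[ℝ] E d)
      (hdetΨ x hx)).toContinuousLinearEquiv
    have he : (e : E d →L[ℝ] E d) = fderiv ℝ Ψ x := by
      ext v
      rfl
    have hfd : HasFDerivAt Ψ (e : E d →L[ℝ] E d) x := by rw [he]; exact hΨd x hx
    have hs := (hΨat x hx).hasStrictFDerivAt' hfd hn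
    rw [← hs.map_nhds_eq_of_equiv]
    exact image_mem_map (hU.mem_nhds hx)
  have hinj : InjOn Ψ U := fun a ha b hb hab => by
    rw [← hinv a ha, ← hinv b hb, hab]
  -- the density
  let r : E d → ℝ := fun y =>
    if y ∈ Ψ '' U then g (Φ y) * Real.sqrt |(fderiv ℝ Φ y).det| else 0
  have hr_img : ∀ x ∈ U, r (Ψ x) = g x * Real.sqrt |(fderiv ℝ Φ (Ψ x)).det| := by
    intro x hx
    have : Ψ x ∈ Ψ '' U := mem_image_of_mem _ hx
    simp only [r, this, if_true, hinv x hx]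
  have hr_off : ∀ y, y ∉ Ψ '' U → r y = 0 := fun y hy => by simp only [r, hy, if_false]
  have hr_nonneg : ∀ y, 0 ≤ r y := by
    intro y
    by_cases hy : y ∈ Ψ '' U
    · simp only [r, hy, if_true]
      exact mul_nonneg (hg0 _) (Real.sqrt_nonneg _)
    · rw [hr_off y hy]
  have hr_supp : ∀ y, r y ≠ 0 → y ∈ Ψ '' tsupport g := by
    intro y hy
    by_cases hy2 : y ∈ Ψ '' U
    · obtain ⟨x, hx, rfl⟩ := hy2
      rw [hr_img x hx] at hy
      have : g x ≠ 0 := left_ne_zero_of_mul hy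
      exact mem_image_of_mem _ (subset_tsupport _ this)
    · exact absurd (hr_off y hy2) hy
  have hKc : IsCompact (tsupport g) := hgc
  have hΨcK : ContinuousOn Ψ (tsupport g) := hΨ.continuousOn.mono hK
  have hK2 : IsCompact (Ψ '' tsupport g) := hKc.image_of_continuousOn hΨcK
  have hr_zero : ∀ y, y ∉ Ψ '' tsupport g → r y = 0 := fun y hy => by
    by_contra h
    exact hy (hr_supp y h)
  have hrc : HasCompactSupport r := HasCompactSupport.intro hK2 hr_zero
  have hrs : ContDiff ℝ ∞ r := by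
    rw [contDiff_iff_contDiffAt]
    intro y
    by_cases hy : y ∈ Ψ '' U
    · obtain ⟨x, hx, rfl⟩ := hy
      have hyV : Ψ x ∈ V := hmaps hx
      have hf : ContDiffAt ℝ ∞ (fun y => g (Φ y) * Real.sqrt |(fderiv ℝ Φ y).det|) (Ψ x) := by
        have h1 : ContDiffAt ℝ ∞ (fun y => g (Φ y)) (Ψ x) :=
          hgs.contDiffAt.comp (Ψ x) (hΦat _ hyV)
        have h2 : ContDiffAt ℝ ∞ (fderiv ℝ Φ) (Ψ x) :=
          (hΦat _ hyV).fderiv_right (by simp)
        have h3 : ContDiffAt ℝ ∞ (fun y => (fderiv ℝ Φ y).det) (Ψ x) := contDiffAt_det h2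
        have h4 := h3.abs (hdetΦ x hx)
        have h5 : |(fderiv ℝ Φ (Ψ x)).det| ≠ 0 := abs_ne_zero.mpr (hdetΦ x hx)
        exact h1.mul (h4.sqrt h5)
      refine hf.congr_of_eventuallyEq ?_
      filter_upwards [hopen.mem_nhds (mem_image_of_mem _ hx)] with z hz
      simp only [r, hz, if_true]
    · have hy2 : y ∉ Ψ '' tsupport g := fun h => hy (image_mono hK h)
      have : r =ᶠ[𝓝 y] fun _ => (0 : ℝ) := by
        filter_upwards [hK2.isClosed.isOpen_compl.mem_nhds hy2] with z hz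
        exact hr_zero z hz
      exact contDiffAt_const.congr_of_eventuallyEq this
  refine ⟨r, hr_nonneg, hrs, hrc, hr_supp, ?_⟩
  -- the measure identity
  ext A hA
  rw [Measure.map_apply hΨm hA]
  unfold sqMeas
  rw [withDensity_apply _ (hΨm hA), withDensity_apply _ hA]
  -- reduce to U
  have hsU : MeasurableSet (Ψ ⁻¹' A ∩ U) := (hΨm hA).inter hU.measurableSet
  have e1 : ∫⁻ x in Ψ ⁻¹' A, ENNReal.ofReal (g x ^ 2) = ∫⁻ x in Ψ ⁻¹' A ∩ U, ENNReal.ofReal (g x ^ 2) := by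
    rw [← lintegral_inter_add_sdiff _ (Ψ ⁻¹' A) hU.measurableSet]
    have : ∫⁻ x in Ψ ⁻¹' A \ U, ENNReal.ofReal (g x ^ 2) = 0 := by
      rw [setLIntegral_congr_fun ((hΨm hA).diff hU.measurableSet) (g := fun _ => 0)]
      · simp
      · intro x hx
        have : g x = 0 := by
          by_contra h
          exact hx.2 (hK (subset_tsupport _ h))
        simp [this]
    rw [this, add_zero]
  have himg : Ψ '' (Ψ ⁻¹' A ∩ U) = A ∩ Ψ '' U := by
    ext y
    constructor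
    · rintro ⟨x, ⟨h1, h2⟩, rfl⟩
      exact ⟨h1, mem_image_of_mem _ h2⟩
    · rintro ⟨h1, ⟨x, h2, rfl⟩⟩
      exact ⟨x, ⟨h1, h2⟩, rfl⟩
  have e2 : ∫⁻ y in A, ENNReal.ofReal (r y ^ 2) = ∫⁻ y in A ∩ Ψ '' U, ENNReal.ofReal (r y ^ 2) := by
    rw [← lintegral_inter_add_sdiff _ A hopen.measurableSet]
    have : ∫⁻ y in A \ Ψ '' U, ENNReal.ofReal (r y ^ 2) = 0 := by
      rw [setLIntegral_congr_fun (hA.diff hopen.measurableSet) (g := fun _ => 0)]
      · simp
      · intro y hy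
        simp [hr_off y hy.2]
    rw [this, add_zero]
  rw [e1, e2, ← himg]
  rw [lintegral_image_eq_lintegral_abs_det_fderiv_mul volume hsU
    (f' := fun x => fderiv ℝ Ψ x)
    (fun x hx => (hΨd x hx.2).hasFDerivWithinAt) (hinj.mono inter_subset_right)]
  refine setLIntegral_congr_fun hsU ?_
  intro x hx
  have hxU : x ∈ U := hx.2
  simp only
  rw [hr_img x hxU, ← ENNReal.ofReal_mul (abs_nonneg _)]
  congr 1
  have hd := hdet x hxU
  have hpos : 0 ≤ |(fderiv ℝ Φ (Ψ x)).det| := abs_nonneg _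
  rw [mul_pow, Real.sq_sqrt hpos]
  have : |(fderiv ℝ Ψ x).det| * |(fderiv ℝ Φ (Ψ x)).det| = 1 := by
    rw [← abs_mul, mul_comm, hd, abs_one]
  calc g x ^ 2 = (|(fderiv ℝ Ψ x).det| * |(fderiv ℝ Φ (Ψ x)).det|) * g x ^ 2 := by rw [this, one_mul]
    _ = _ := by ring

end Crest.Agent.Lib.SCE
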