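import Crest.Agent.Lib.SCE.Potential

/-!
# S0175: classification of triples in the five regions (real-valued form).
-/

set_option autoImplicit false
set_option linter.unusedSectionVars false
set_option linter.unusedVariables false

open MeasureTheory Set Filter Topology
open scoped ENNReal ContDiff NNReal Interval

namespace Crest.Agent.Lib.SCE

variable {s ε U : ℝ}
variable {F : Type*} [NormedAddCommGroup F] [InnerProductSpace ℝ F] (P : PlaneOps F)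
variable (Sh : Shells s ε U)

namespace Shells

variable {P Sh}

lemma shell_K {x : F} (hx : x ∈ Sh.Usrc P) : ∃ τ ∈ Ioo (1 - Sh.r) (1 + Sh.r), ‖x‖ ^ 2 = P1 s ε τ :=
  let h := Sh.I1_right _ hx.1
  ⟨_, h.1, h.2.symm⟩

lemma shell_A {σ : ℝ} (hσ : σ ^ 2 = 1) {x : F} (hx : x ∈ Sh.Usrc P) :
    ∃ τ ∈ Ioo (1 - Sh.r) (1 + Sh.r), ‖Sh.mapA P σ x‖ ^ 2 = P2 s ε τ := by
  obtain ⟨τ, hτ, -, -, h, -⟩ := Sh.pair_identities P σ hσ hx
  exact ⟨τ, hτ, h⟩

lemma shell_B {σ : ℝ} (hσ : σ ^ 2 = 1) {x : F} (hx : x ∈ Sh.Usrc P) :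
    ∃ τ ∈ Ioo (1 - Sh.r) (1 + Sh.r), ‖Sh.mapB P σ x‖ ^ 2 = P3 s ε τ := by
  obtain ⟨τ, hτ, -, -, -, h, -⟩ := Sh.pair_identities P σ hσ hx
  exact ⟨τ, hτ, h⟩

lemma uR_bd1 {x : F} (h : ∃ τ ∈ Ioo (1 - Sh.r) (1 + Sh.r), ‖x‖ ^ 2 = P1 s ε τ) : |Sh.uR x| ≤ U := by
  obtain ⟨τ, hτ, he⟩ := h
  unfold uR
  rw [he, Sh.V_P1 hτ]
  exact Sh.bd1 τ hτ

lemma uR_bd2 {x : F} (h : ∃ τ ∈ Ioo (1 - Sh.r) (1 + Sh.r), ‖x‖ ^ 2 = P2 s ε τ) : |Sh.uR x| ≤ U := by
  obtain ⟨τ, hτ, he⟩ := h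
  unfold uR
  rw [he, Sh.V_P2 hτ]
  exact Sh.bd2 τ hτ

lemma uR_bd3 {x : F} (h : ∃ τ ∈ Ioo (1 - Sh.r) (1 + Sh.r), ‖x‖ ^ 2 = P3 s ε τ) : |Sh.uR x| ≤ U := by
  obtain ⟨τ, hτ, he⟩ := h
  unfold uR
  rw [he, Sh.V_P3 hτ]
  exact Sh.bd3 τ hτ

end Shells

/-- The configuration of the three clusters. -/
structure Clusters (P : PlaneOps F) (Sh : Shells s ε U) (K : Set F) (η : ℝ) : Prop where
  sub : K ⊆ Sh.Usrc P
  eta_pos : 0 < η
  big : 3 * U ≤ η ^ (-s)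
  close0 : ∀ x ∈ K, ∀ y ∈ K, ‖x - y‖ < η
  closeP : ∀ x ∈ (Sh.mapA P 1 '' K ∪ Sh.mapB P (-1) '' K), ∀ y ∈ (Sh.mapA P 1 '' K ∪ Sh.mapB P (-1) '' K),
    ‖x - y‖ < η
  closeM : ∀ x ∈ (Sh.mapB P 1 '' K ∪ Sh.mapA P (-1) '' K), ∀ y ∈ (Sh.mapB P 1 '' K ∪ Sh.mapA P (-1) '' K),
    ‖x - y‖ < η

namespace Clusters

variable {P Sh} {K : Set F} {η : ℝ} (C : Clusters P Sh K η)

/-- the union of the clusters. -/
def Sset (P : PlaneOps F) (Sh : Shells s ε U) (K : Set F) : Set F :=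
  K ∪ (Sh.mapA P 1 '' K ∪ Sh.mapB P (-1) '' K) ∪ (Sh.mapB P 1 '' K ∪ Sh.mapA P (-1) '' K)

include C

lemma one_sq : (1 : ℝ) ^ 2 = 1 := by norm_num
lemma neg_one_sq' : (-1 : ℝ) ^ 2 = 1 := by norm_num

lemma bd {x : F} (hx : x ∈ Sset P Sh K) : |Sh.uR x| ≤ U := by
  rcases hx with (hx | ⟨p, hp, rfl⟩ | ⟨p, hp, rfl⟩) | ⟨p, hp, rfl⟩ | ⟨p, hp, rfl⟩
  · exact Shells.uR_bd1 (Shells.shell_K (C.sub hx))
  · exact Shells.uR_bd2 (Shells.shell_A (by norm_num) (C.sub hp))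
  · exact Shells.uR_bd3 (Shells.shell_B (by norm_num) (C.sub hp))
  · exact Shells.uR_bd3 (Shells.shell_B (by norm_num) (C.sub hp))
  · exact Shells.uR_bd2 (Shells.shell_A (by norm_num) (C.sub hp))

lemma mem_S_of_K {x : F} (hx : x ∈ K) : x ∈ Sset P Sh K := Or.inl (Or.inl hx)

/-- the sorted case. -/
lemma sorted (hs : 0 < s) {x y z : F} (hx : x ∈ K) (hy : y ∈ (Sh.mapA P 1 '' K ∪ Sh.mapB P (-1) '' K))
    (hz : z ∈ (Sh.mapB P 1 '' K ∪ Sh.mapA P (-1) '' K))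
    (hxy : x ≠ y) (hxz : x ≠ z) (hyz : y ≠ z) :
    Sh.uR x + Sh.uR y + Sh.uR z ≤ cR s x y z ∧
      (cR s x y z ≤ Sh.uR x + Sh.uR y + Sh.uR z → Sh.ProperEq x y z ∨ Sh.ProperEq x z y) := by
  obtain ⟨τ₁, h1, hx1⟩ := Shells.shell_K (C.sub hx)
  rcases hy with ⟨p, hp, rfl⟩ | ⟨p, hp, rfl⟩
  · obtain ⟨τ₂, h2, hy2⟩ := Shells.shell_A (σ := 1) (by norm_num) (C.sub hp)
    rcases hz with ⟨q, hq, rfl⟩ | ⟨q, hq, rfl⟩
    · obtain ⟨τ₃, h3, hz3⟩ := Shells.shell_B (σ := 1) (by norm_num) (C.sub hq)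
      exact ⟨proper_real hs h1 h2 h3 hx1 hy2 hz3 hxy hxz hyz,
        fun h => Or.inl (proper_real_eq hs h1 h2 h3 hx1 hy2 hz3 hxy hxz hyz h)⟩
    · obtain ⟨τ₃, h3, hz3⟩ := Shells.shell_A (σ := -1) (by norm_num) (C.sub hq)
      have := imp1_real hs h1 h2 h3 hx1 hy2 hz3 hxy hxz hyz
      exact ⟨this.le, fun h => absurd h (not_le.mpr this)⟩
  · obtain ⟨τ₂, h2, hy2⟩ := Shells.shell_B (σ := -1) (by norm_num) (C.sub hp)
    rcases hz with ⟨q, hq, rfl⟩ | ⟨q, hq, rfl⟩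
    · obtain ⟨τ₃, h3, hz3⟩ := Shells.shell_B (σ := 1) (by norm_num) (C.sub hq)
      have := imp2_real hs h1 h2 h3 hx1 hy2 hz3 hxy hxz hyz
      exact ⟨this.le, fun h => absurd h (not_le.mpr this)⟩
    · obtain ⟨τ₃, h3, hz3⟩ := Shells.shell_A (σ := -1) (by norm_num) (C.sub hq)
      have h5 := proper_real hs h1 h3 h2 hx1 hz3 hy2 hxz hxy hyz.symm
      refine ⟨?_, fun h => Or.inr ?_⟩
      · rw [cR_swap23]; linarith
      · refine proper_real_eq hs h1 h3 h2 hx1 hz3 hy2 hxz hxy hyz.symm ?_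
        rw [← cR_swap23]; linarith

/-- a triple of `S` with two points in one cluster is strictly non-optimal. -/
lemma strict_close (hs : 0 < s) {a b c : F} (ha : a ∈ Sset P Sh K) (hb : b ∈ Sset P Sh K)
    (hc : c ∈ Sset P Sh K) (hab : a ≠ b) (hac : a ≠ c) (hbc : b ≠ c) (hd : ‖a - b‖ < η) :
    Sh.uR a + Sh.uR b + Sh.uR c < cR s a b c :=
  close_real hs C.eta_pos C.big hab hac hbc hd (C.bd ha) (C.bd hb) (C.bd hc)

/-- The property established for all triples of `S`. -/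
def Good (P : PlaneOps F) (Sh : Shells s ε U) (s' : ℝ) (x y z : F) : Prop :=
  Sh.uR x + Sh.uR y + Sh.uR z ≤ cR s' x y z ∧
    (cR s' x y z ≤ Sh.uR x + Sh.uR y + Sh.uR z → Sh.wR P x + Sh.wR P y + Sh.wR P z ≤ 0)

omit C in
lemma Good.swap23 {x y z : F} (h : Good P Sh s x z y) : Good P Sh s x y z := by
  unfold Good at *
  rw [cR_swap23 s x y z]
  refine ⟨by linarith [h.1], fun h2 => ?_⟩
  have := h.2 (by linarith)
  linarith

omit C in
lemma Good.swap12 {x y z : F} (h : Good P Sh s y x z) : Good P Sh s x y z := by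
  unfold Good at *
  rw [cR_swap12 s x y z]
  refine ⟨by linarith [h.1], fun h2 => ?_⟩
  have := h.2 (by linarith)
  linarith

theorem good_all (hs : 0 < s) {x y z : F} (hx : x ∈ Sset P Sh K) (hy : y ∈ Sset P Sh K)
    (hz : z ∈ Sset P Sh K) (hxy : x ≠ y) (hxz : x ≠ z) (hyz : y ≠ z) :
    Good P Sh s x y z := by
  have strictGood : ∀ {a b c : F}, a ∈ Sset P Sh K → b ∈ Sset P Sh K → c ∈ Sset P Sh K →
      a ≠ b → a ≠ c → b ≠ c → ‖a - b‖ < η → Good P Sh s a b c := by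
    intro a b c ha hb hc hab hac hbc hd
    have := C.strict_close hs ha hb hc hab hac hbc hd
    exact ⟨this.le, fun h => absurd h (not_le.mpr this)⟩
  have sortedGood : ∀ {a b c : F}, a ∈ K → b ∈ (Sh.mapA P 1 '' K ∪ Sh.mapB P (-1) '' K) →
      c ∈ (Sh.mapB P 1 '' K ∪ Sh.mapA P (-1) '' K) → a ≠ b → a ≠ c → b ≠ c → Good P Sh s a b c := by
    intro a b c ha hb hc hab hac hbc
    obtain ⟨h1, h2⟩ := C.sorted hs ha hb hc hab hac hbc
    refine ⟨h1, fun h => ?_⟩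
    rcases h2 h with h3 | h3
    · exact wR_proper_le P h3
    · have := wR_proper_le P h3
      linarith
  have h12 : ‖x - y‖ < η → Good P Sh s x y z := strictGood hx hy hz hxy hxz hyz
  have h13 : ‖x - z‖ < η → Good P Sh s x y z := fun h =>
    Good.swap23 (strictGood hx hz hy hxz hxy hyz.symm h)
  have h23 : ‖y - z‖ < η → Good P Sh s x y z := fun h =>
    Good.swap12 (Good.swap23 (strictGood hy hz hx hyz hxy.symm hxz.symm h))
  have p1 : x ∈ K → y ∈ (Sh.mapA P 1 '' K ∪ Sh.mapB P (-1) '' K) →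
      z ∈ (Sh.mapB P 1 '' K ∪ Sh.mapA P (-1) '' K) → Good P Sh s x y z :=
    fun a b c => sortedGood a b c hxy hxz hyz
  have p2 : x ∈ K → z ∈ (Sh.mapA P 1 '' K ∪ Sh.mapB P (-1) '' K) →
      y ∈ (Sh.mapB P 1 '' K ∪ Sh.mapA P (-1) '' K) → Good P Sh s x y z :=
    fun a b c => Good.swap23 (sortedGood a b c hxz hxy hyz.symm)
  have p3 : y ∈ K → x ∈ (Sh.mapA P 1 '' K ∪ Sh.mapB P (-1) '' K) →
      z ∈ (Sh.mapB P 1 '' K ∪ Sh.mapA P (-1) '' K) → Good P Sh s x y z :=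
    fun a b c => Good.swap12 (sortedGood a b c hxy.symm hyz hxz)
  have p4 : y ∈ K → z ∈ (Sh.mapA P 1 '' K ∪ Sh.mapB P (-1) '' K) →
      x ∈ (Sh.mapB P 1 '' K ∪ Sh.mapA P (-1) '' K) → Good P Sh s x y z :=
    fun a b c => Good.swap12 (Good.swap23 (sortedGood a b c hyz hxy.symm hxz.symm))
  have p5 : z ∈ K → x ∈ (Sh.mapA P 1 '' K ∪ Sh.mapB P (-1) '' K) →
      y ∈ (Sh.mapB P 1 '' K ∪ Sh.mapA P (-1) '' K) → Good P Sh s x y z :=
    fun a b c => Good.swap23 (Good.swap12 (sortedGood a b c hxz.symm hyz.symm hxy))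
  have p6 : z ∈ K → y ∈ (Sh.mapA P 1 '' K ∪ Sh.mapB P (-1) '' K) →
      x ∈ (Sh.mapB P 1 '' K ∪ Sh.mapA P (-1) '' K) → Good P Sh s x y z :=
    fun a b c => Good.swap12 (Good.swap23 (Good.swap12 (sortedGood a b c hyz.symm hxz.symm hxy.symm)))
  rcases hx with (hx | hx) | hx <;> rcases hy with (hy | hy) | hy <;> rcases hz with (hz | hz) | hz
  all_goals first
    | exact h12 (C.close0 _ hx _ hy)
    | exact h12 (C.closeP _ hx _ hy)
    | exact h12 (C.closeM _ hx _ hy)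
    | exact h13 (C.close0 _ hx _ hz)
    | exact h13 (C.closeP _ hx _ hz)
    | exact h13 (C.closeM _ hx _ hz)
    | exact h23 (C.close0 _ hy _ hz)
    | exact h23 (C.closeP _ hy _ hz)
    | exact h23 (C.closeM _ hy _ hz)
    | exact p1 hx hy hz
    | exact p2 hx hz hy
    | exact p3 hy hx hz
    | exact p4 hy hz hx
    | exact p5 hz hx hy
    | exact p6 hz hy hx

/-- equality triple with first point in `K`. -/
theorem eq_K (hs : 0 < s) {x y z : F} (hx : x ∈ K) (hy : y ∈ Sset P Sh K)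
    (hz : z ∈ Sset P Sh K) (hxy : x ≠ y) (hxz : x ≠ z) (hyz : y ≠ z)
    (heq : cR s x y z ≤ Sh.uR x + Sh.uR y + Sh.uR z) : Sh.ProperEq x y z ∨ Sh.ProperEq x z y := by
  have hx' := C.mem_S_of_K hx
  have strict12 : ‖x - y‖ < η → False := fun h =>
    absurd heq (not_le.mpr (C.strict_close hs hx' hy hz hxy hxz hyz h))
  have strict13 : ‖x - z‖ < η → False := fun h => by
    have := C.strict_close hs hx' hz hy hxz hxy hyz.symm h
    rw [← cR_swap23] at this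
    linarith
  have strict23 : ‖y - z‖ < η → False := fun h => by
    have := C.strict_close hs hy hz hx' hyz hxy.symm hxz.symm h
    have e : cR s x y z = cR s y z x := by rw [cR_swap12, cR_swap23]
    rw [← e] at this
    linarith
  rcases hy with (hy | hy) | hy <;> rcases hz with (hz | hz) | hz
  · exact (strict12 (C.close0 _ hx _ hy)).elim
  · exact (strict12 (C.close0 _ hx _ hy)).elim
  · exact (strict12 (C.close0 _ hx _ hy)).elim
  · exact (strict13 (C.close0 _ hx _ hz)).elim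
  · exact (strict23 (C.closeP _ hy _ hz)).elim
  · exact (C.sorted hs hx hy hz hxy hxz hyz).2 heq
  · exact (strict13 (C.close0 _ hx _ hz)).elim
  · exact ((C.sorted hs hx hz hy hxz hxy hyz.symm).2 (by rw [← cR_swap23]; linarith)).symm
  · exact (strict23 (C.closeM _ hy _ hz)).elim

end Clusters

namespace Shells

variable {P Sh}

/-- Equality triple with `perp y = perp z` is given by the maps. -/
theorem rigid_of_proper {x y z : F} (hx : x ∈ Sh.Usrc P) (h : Sh.ProperEq x y z)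
    (hw : Sh.wR P x + Sh.wR P y + Sh.wR P z = 0) :
    (y = Sh.mapA P 1 x ∧ z = Sh.mapB P 1 x) ∨ (y = Sh.mapA P (-1) x ∧ z = Sh.mapB P (-1) x) := by
  have hperp := perp_eq_of_wR P h hw
  obtain ⟨τ, hτ, hx1, hy, hz, hxy, hbal⟩ := h
  have hI : Sh.I1 (‖x‖ ^ 2) = τ := by rw [hx1]; exact Sh.I1_left τ hτ
  obtain ⟨σ, hσ, e1, e2⟩ := Sh.rigid_pair P hx (by rw [hI]; exact hy) (by rw [hI]; exact hxy)
    (by rw [hI]; exact hbal) hperp
  have : σ = 1 ∨ σ = -1 := by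
    have : (σ - 1) * (σ + 1) = 0 := by ring_nf; linarith
    rcases mul_eq_zero.mp this with h | h
    · left; linarith
    · right; linarith
  rcases this with rfl | rfl
  · exact Or.inl ⟨e1, e2⟩
  · exact Or.inr ⟨e1, e2⟩

/-- relations along the maps, in real form. -/
theorem on_maps (hs : 0 < s) (σ : ℝ) (hσ : σ ^ 2 = 1) {x : F} (hx : x ∈ Sh.Usrc P) :
    x ≠ Sh.mapA P σ x ∧ x ≠ Sh.mapB P σ x ∧ Sh.mapA P σ x ≠ Sh.mapB P σ x ∧
      cR s x (Sh.mapA P σ x) (Sh.mapB P σ x) = CC s ε (Sh.I1 (‖x‖ ^ 2)) ∧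
      Sh.uR x + Sh.uR (Sh.mapA P σ x) + Sh.uR (Sh.mapB P σ x) = CC s ε (Sh.I1 (‖x‖ ^ 2)) ∧
      Sh.wR P x + Sh.wR P (Sh.mapA P σ x) + Sh.wR P (Sh.mapB P σ x) = 0 := by
  obtain ⟨τ, hτ, hτe, hx1, hy, hz, hxy, hxz, hyz, hbal, hpy, hpz⟩ := Sh.pair_identities P σ hσ hx
  have hε := Sh.good.abs_eps
  obtain ⟨h4, h5⟩ := abs_lt.mp hε
  have hk2 : 0 < 1 + ε := by linarith
  have hk3 : 0 < 1 - ε := by linarith
  have hτ0 := Sh.good.pos τ hτ
  have d12 : 0 < D12 s ε τ := Dd_pos hs (by positivity)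
  have d13 : 0 < D13 s ε τ := Dd_pos hs (by positivity)
  have d23 : 0 < D23 s ε := Dd_pos hs (by positivity)
  rw [← hτe]
  have ne_of_sq : ∀ {a b : F} {D : ℝ}, 0 < D → ‖a - b‖ ^ 2 = D → a ≠ b := by
    intro a b D hD he hab
    rw [hab, sub_self, norm_zero] at he
    norm_num at he
    linarith
  refine ⟨ne_of_sq d12 hxy, ne_of_sq d13 hxz, ne_of_sq d23 hyz, ?_, ?_, ?_⟩
  · exact cR_curve hε hτ0 hxy hxz hyz
  · unfold uR
    rw [hx1, hy, hz, Sh.V_P1 hτ, Sh.V_P2 hτ, Sh.V_P3 hτ]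
    unfold Y1
    ring
  · have hp : Sh.ProperEq x (Sh.mapA P σ x) (Sh.mapB P σ x) := ⟨τ, hτ, hx1, hy, hz, hxy, hbal⟩
    rw [wR_proper P hp, hpy, hpz]
    simp

end Shells

end Crest.Agent.Lib.SCE
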