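import Crest.Agent.Lib.SCE.Twist

/-!
# S0175: the plane structure from an orthonormal pair.
-/

set_option autoImplicit false
set_option linter.unusedSectionVars false
set_option linter.unusedVariables false

open MeasureTheory Set Filter Topology
open scoped ContDiff

namespace Crest.Agent.Lib.SCE

variable {F : Type*} [NormedAddCommGroup F] [InnerProductSpace ℝ F]

/-- projection to the plane. -/
noncomputable def planeQ (e₀ e₁ : F) : F →L[ℝ] F :=
  (innerSL ℝ e₀).smulRight e₀ + (innerSL ℝ e₁).smulRight e₁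
/-- rotation in the plane. -/
noncomputable def planeJ (e₀ e₁ : F) : F →L[ℝ] F :=
  (innerSL ℝ e₀).smulRight e₁ - (innerSL ℝ e₁).smulRight e₀

lemma planeQ_apply (e₀ e₁ x : F) : planeQ e₀ e₁ x = inner ℝ e₀ x • e₀ + inner ℝ e₁ x • e₁ := by
  simp [planeQ]

lemma planeJ_apply (e₀ e₁ x : F) : planeJ e₀ e₁ x = inner ℝ e₀ x • e₁ - inner ℝ e₁ x • e₀ := by
  simp [planeJ]

/-- plane structure from an orthonormal pair. -/
noncomputable def planeOf (e₀ e₁ : F) (h00 : inner ℝ e₀ e₀ = (1 : ℝ)) (h11 : inner ℝ e₁ e₁ = (1 : ℝ))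
    (h01 : inner ℝ e₀ e₁ = (0 : ℝ)) : PlaneOps F :=
  have h10 : inner ℝ e₁ e₀ = (0 : ℝ) := by rw [real_inner_comm]; exact h01
  have i0Q : ∀ x, inner ℝ e₀ (planeQ e₀ e₁ x) = inner ℝ e₀ x := fun x => by
    rw [planeQ_apply, inner_add_right, real_inner_smul_right, real_inner_smul_right, h00, h01]; ring
  have i1Q : ∀ x, inner ℝ e₁ (planeQ e₀ e₁ x) = inner ℝ e₁ x := fun x => by
    rw [planeQ_apply, inner_add_right, real_inner_smul_right, real_inner_smul_right, h10, h11]; ring
  have i0J : ∀ x, inner ℝ e₀ (planeJ e₀ e₁ x) = - inner ℝ e₁ x := fun x => by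
    rw [planeJ_apply, inner_sub_right, real_inner_smul_right, real_inner_smul_right, h00, h01]; ring
  have i1J : ∀ x, inner ℝ e₁ (planeJ e₀ e₁ x) = inner ℝ e₀ x := fun x => by
    rw [planeJ_apply, inner_sub_right, real_inner_smul_right, real_inner_smul_right, h10, h11]; ring
  { Q := planeQ e₀ e₁
    J := planeJ e₀ e₁
    QQ := by
      intro x
      rw [planeQ_apply, i0Q, i1Q, planeQ_apply]
    Q_symm := by
      intro x y
      rw [planeQ_apply, planeQ_apply, inner_add_left, inner_add_right, real_inner_smul_left,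
        real_inner_smul_left, real_inner_smul_right, real_inner_smul_right,
        real_inner_comm y e₀, real_inner_comm y e₁, real_inner_comm x e₀, real_inner_comm x e₁]
      ring
    JQ := by
      intro x
      rw [planeJ_apply, i0Q, i1Q, planeJ_apply]
    QJ := by
      intro x
      rw [planeQ_apply, i0J, i1J, planeJ_apply]
      module
    JJ := by
      intro x
      rw [planeJ_apply, i0J, i1J, planeQ_apply]
      module
    J_skew := by
      intro x y
      rw [planeJ_apply, planeJ_apply, inner_sub_left, inner_sub_right, real_inner_smul_left,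
        real_inner_smul_left, real_inner_smul_right, real_inner_smul_right,
        real_inner_comm y e₀, real_inner_comm y e₁, real_inner_comm x e₀, real_inner_comm x e₁]
      ring
    decomp := by
      intro y y' hy hy'
      rw [planeQ_apply] at hy hy'
      set a := inner ℝ e₀ y with ha
      set b := inner ℝ e₁ y with hb
      set a' := inner ℝ e₀ y' with ha'
      set b' := inner ℝ e₁ y' with hb'
      have hnorm : ‖y‖ ^ 2 = a ^ 2 + b ^ 2 := by
        rw [← real_inner_self_eq_norm_sq]
        nth_rewrite 1 [← hy]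
        rw [inner_add_left, real_inner_smul_left, real_inner_smul_left, ← ha, ← hb]
        ring
      have h1 : inner ℝ y' y = a' * a + b' * b := by
        nth_rewrite 1 [← hy']
        rw [inner_add_left, real_inner_smul_left, real_inner_smul_left, ← ha, ← hb]
      have h2 : inner ℝ y' (planeJ e₀ e₁ y) = b' * a - a' * b := by
        nth_rewrite 1 [← hy']
        rw [inner_add_left, real_inner_smul_left, real_inner_smul_left, i0J, i1J, ← ha, ← hb]
        ring
      rw [hnorm, h1, h2, planeJ_apply, ← ha, ← hb]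
      nth_rewrite 1 [← hy]
      nth_rewrite 1 [← hy']
      module }

section
variable (e₀ e₁ : F) (h00 : inner ℝ e₀ e₀ = (1 : ℝ)) (h11 : inner ℝ e₁ e₁ = (1 : ℝ))
    (h01 : inner ℝ e₀ e₁ = (0 : ℝ))

lemma planeOf_Q_e0 : (planeOf e₀ e₁ h00 h11 h01).Q e₀ = e₀ := by
  have h10 : inner ℝ e₁ e₀ = (0 : ℝ) := by rw [real_inner_comm]; exact h01
  show planeQ e₀ e₁ e₀ = e₀
  rw [planeQ_apply, h00, h10]
  simp

end

end Crest.Agent.Lib.SCE
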