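import Crest.Agent.Lib.SCE.Classify
import Crest.Agent.Lib.SCE.Plane
import Crest.Agent.Lib.SCE.Chart

/-!
# S0175: base point, local choices, and the construction of the `Setup`.
-/

set_option autoImplicit false
set_option linter.unusedSectionVars false
set_option linter.unusedVariables false

open MeasureTheory Set Filter Topology
open scoped ENNReal ContDiff NNReal Interval
open Crest.AnalysisR.OT

namespace Crest.Agent.Lib.SCE

variable {s ε η U : ℝ}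

section base

variable {F : Type*} [NormedAddCommGroup F] [InnerProductSpace ℝ F] (P : PlaneOps F)
variable (Sh : Shells s ε U)

/-- Facts about the base point. -/
structure BaseFacts (P : PlaneOps F) (Sh : Shells s ε U) (a0 : F) : Prop where
  mem : a0 ∈ Sh.Usrc P
  Qa : P.Q a0 = a0
  norm_sq : ‖a0‖ ^ 2 = P1 s ε 1
  tau : Sh.I1 (‖a0‖ ^ 2) = 1
  perp0 : ‖P.perp a0‖ ^ 2 = 0
  pv : P.perp a0 = 0

lemma exists_baseFacts (hρ : 0 < P1 s ε 1) {e₀ : F} (he : ‖e₀‖ = 1) (hQ : P.Q e₀ = e₀) :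
    BaseFacts P Sh (Real.sqrt (P1 s ε 1) • e₀) := by
  set a0 := Real.sqrt (P1 s ε 1) • e₀ with ha0
  have h1mem : (1 : ℝ) ∈ Ioo (1 - Sh.r) (1 + Sh.r) := Sh.good.one_mem
  have hQa : P.Q a0 = a0 := by rw [ha0, map_smul, hQ]
  have hn : ‖a0‖ ^ 2 = P1 s ε 1 := by
    rw [ha0, norm_smul, he, mul_one, Real.norm_eq_abs, sq_abs, Real.sq_sqrt hρ.le]
  have hp : P.perp a0 = 0 := by
    unfold PlaneOps.perp; rw [hQa, sub_self]
  have hp2 : ‖P.perp a0‖ ^ 2 = 0 := by rw [hp]; simp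
  refine ⟨⟨?_, ?_⟩, hQa, hn, ?_, hp2, hp⟩
  · rw [hn]; exact mem_image_of_mem _ h1mem
  · rw [hp2]; simpa using Sh.rn_pos
  · rw [hn]; exact Sh.I1_left 1 h1mem

variable {P Sh} {a0 : F} (B : BaseFacts P Sh a0)
include B

lemma BaseFacts.mapA_eq (σ : ℝ) :
    Sh.mapA P σ a0 = c1 s ε (1, 0) • a0 + (σ * s1 s ε (1, 0)) • P.J a0 := by
  unfold Shells.mapA PlaneOps.tw
  rw [B.tau, B.perp0, B.Qa, B.pv]
  simp

lemma BaseFacts.mapB_eq (σ : ℝ) :
    Sh.mapB P σ a0 = c2 s ε (1, 0) • a0 + (σ * s2 s ε (1, 0)) • P.J a0 := by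
  unfold Shells.mapB PlaneOps.tw
  rw [B.tau, B.perp0, B.Qa, B.pv]
  simp

lemma BaseFacts.norm_a0 : ‖a0‖ = Real.sqrt (P1 s ε 1) := by
  rw [← B.norm_sq, Real.sqrt_sq (norm_nonneg _)]

lemma BaseFacts.norm_J : ‖P.J a0‖ = Real.sqrt (P1 s ε 1) := by
  have h := P.norm_J_sq a0
  rw [B.Qa] at h
  have h3 : ‖P.J a0‖ = ‖a0‖ := by
    have := (sq_eq_sq₀ (norm_nonneg (P.J a0)) (norm_nonneg a0)).mp h
    exact this
  rw [h3, B.norm_a0]

lemma BaseFacts.gap1 : ‖Sh.mapA P 1 a0 - Sh.mapB P (-1) a0‖ ≤ Gap s ε := by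
  rw [B.mapA_eq, B.mapB_eq]
  have e : c1 s ε (1, 0) • a0 + ((1:ℝ) * s1 s ε (1, 0)) • P.J a0 -
      (c2 s ε (1, 0) • a0 + ((-1:ℝ) * s2 s ε (1, 0)) • P.J a0) =
      (c1 s ε (1, 0) - c2 s ε (1, 0)) • a0 + (s1 s ε (1, 0) + s2 s ε (1, 0)) • P.J a0 := by
    module
  rw [e]
  refine (norm_add_le _ _).trans ?_
  rw [norm_smul, norm_smul, B.norm_a0, B.norm_J]
  unfold Gap
  simp only [Real.norm_eq_abs]
  apply le_of_eq
  ring

lemma BaseFacts.gap2 : ‖Sh.mapB P 1 a0 - Sh.mapA P (-1) a0‖ ≤ Gap s ε := by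
  rw [B.mapA_eq, B.mapB_eq]
  have e : c2 s ε (1, 0) • a0 + ((1:ℝ) * s2 s ε (1, 0)) • P.J a0 -
      (c1 s ε (1, 0) • a0 + ((-1:ℝ) * s1 s ε (1, 0)) • P.J a0) =
      (c2 s ε (1, 0) - c1 s ε (1, 0)) • a0 + (s1 s ε (1, 0) + s2 s ε (1, 0)) • P.J a0 := by
    module
  rw [e]
  refine (norm_add_le _ _).trans ?_
  rw [norm_smul, norm_smul, B.norm_a0, B.norm_J]
  unfold Gap
  simp only [Real.norm_eq_abs]
  rw [abs_sub_comm]
  apply le_of_eq
  ring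

lemma BaseFacts.sepA (hρ : 0 < P1 s ε 1) (hd : 0 < disc s ε (1, 0)) :
    0 < ‖Sh.mapA P 1 a0 - Sh.mapA P (-1) a0‖ := by
  rw [B.mapA_eq, B.mapA_eq]
  have e : c1 s ε (1, 0) • a0 + ((1:ℝ) * s1 s ε (1, 0)) • P.J a0 -
      (c1 s ε (1, 0) • a0 + ((-1:ℝ) * s1 s ε (1, 0)) • P.J a0) =
      (2 * s1 s ε (1, 0)) • P.J a0 := by
    module
  rw [e, norm_smul, B.norm_J]
  have h1 := s1_pos hd
  have h2 := Real.sqrt_pos.mpr hρ
  simp only [Real.norm_eq_abs]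
  positivity

lemma BaseFacts.sepB (hρ : 0 < P1 s ε 1) (hd : 0 < disc s ε (1, 0)) :
    0 < ‖Sh.mapB P 1 a0 - Sh.mapB P (-1) a0‖ := by
  obtain ⟨h4, h5⟩ := abs_lt.mp Sh.good.abs_eps
  rw [B.mapB_eq, B.mapB_eq]
  have e : c2 s ε (1, 0) • a0 + ((1:ℝ) * s2 s ε (1, 0)) • P.J a0 -
      (c2 s ε (1, 0) • a0 + ((-1:ℝ) * s2 s ε (1, 0)) • P.J a0) =
      (2 * s2 s ε (1, 0)) • P.J a0 := by
    module
  rw [e, norm_smul, B.norm_J]
  have h1 := s1_pos hd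
  have h2 := Real.sqrt_pos.mpr hρ
  have hs2 : s2 s ε (1, 0) ≠ 0 := by
    unfold s2
    have hk2 : 0 < 1 + ε := by linarith
    have hk3 : 0 < 1 - ε := by linarith
    have : (1 + ε) * s1 s ε (1, 0) ≠ 0 := by positivity
    exact div_ne_zero (neg_ne_zero.mpr this) hk3.ne'
  simp only [Real.norm_eq_abs]
  positivity

omit B in
lemma Shells.contAt_mapA (σ : ℝ) (hσ : σ ^ 2 = 1) {x : F} (hx : x ∈ Sh.Usrc P) :
    ContinuousAt (Sh.mapA P σ) x := by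
  have h := (TwistData.contDiffOn_toFun (P := P) (T := Sh.TDa σ hσ)).continuousOn
  exact h.continuousAt ((TwistData.isOpen_U (P := P) (T := Sh.TDa σ hσ)).mem_nhds hx)

omit B in
lemma Shells.contAt_mapB (σ : ℝ) (hσ : σ ^ 2 = 1) {x : F} (hx : x ∈ Sh.Usrc P) :
    ContinuousAt (Sh.mapB P σ) x := by
  have h := (TwistData.contDiffOn_toFun (P := P) (T := Sh.TDb σ hσ)).continuousOn
  exact h.continuousAt ((TwistData.isOpen_U (P := P) (T := Sh.TDb σ hσ)).mem_nhds hx)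

omit B in
lemma Shells.isOpen_Usrc : IsOpen (Sh.Usrc P) :=
  TwistData.isOpen_U (P := P) (T := Sh.TDa 1 (by norm_num))

/-- Choice of the radius of the ball. -/
theorem BaseFacts.exists_delta (h : GoodEps s ε η U) :
    ∃ δ : ℝ, 0 < δ ∧ ∀ K : Set F, K ⊆ Metric.closedBall a0 δ →
      Clusters P Sh K η ∧ (∀ x ∈ K, ∀ y ∈ K, Sh.mapA P 1 x ≠ Sh.mapA P (-1) y) ∧
        (∀ x ∈ K, ∀ y ∈ K, Sh.mapB P 1 x ≠ Sh.mapB P (-1) y) := by
  have hηpos := h.eta_pos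
  have hsepA := B.sepA h.P1_pos h.disc_pos
  have hsepB := B.sepB h.P1_pos h.disc_pos
  set ξ := min (η / 4) (min (‖Sh.mapA P 1 a0 - Sh.mapA P (-1) a0‖ / 2)
    (‖Sh.mapB P 1 a0 - Sh.mapB P (-1) a0‖ / 2)) with hξ
  have hξpos : 0 < ξ := by
    rw [hξ]
    exact lt_min (by positivity) (lt_min (by positivity) (by positivity))
  have hξ1 : ξ ≤ η / 4 := min_le_left _ _
  have hξ2 : ξ ≤ ‖Sh.mapA P 1 a0 - Sh.mapA P (-1) a0‖ / 2 :=
    (min_le_right _ _).trans (min_le_left _ _)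
  have hξ3 : ξ ≤ ‖Sh.mapB P 1 a0 - Sh.mapB P (-1) a0‖ / 2 :=
    (min_le_right _ _).trans (min_le_right _ _)
  have one2 : (1 : ℝ) ^ 2 = 1 := by norm_num
  have mone2 : (-1 : ℝ) ^ 2 = 1 := by norm_num
  have near : ∀ {f : F → F}, ContinuousAt f a0 → ∀ᶠ x in 𝓝 a0, ‖f x - f a0‖ < ξ := by
    intro f hf
    have := Metric.continuousAt_iff'.mp hf ξ hξpos
    simpa [dist_eq_norm] using this
  have ev : ∀ᶠ x in 𝓝 a0, x ∈ Sh.Usrc P ∧ ‖Sh.mapA P 1 x - Sh.mapA P 1 a0‖ < ξ ∧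
      ‖Sh.mapB P 1 x - Sh.mapB P 1 a0‖ < ξ ∧ ‖Sh.mapA P (-1) x - Sh.mapA P (-1) a0‖ < ξ ∧
      ‖Sh.mapB P (-1) x - Sh.mapB P (-1) a0‖ < ξ :=
    (Shells.isOpen_Usrc.eventually_mem B.mem).and ((near (Sh.contAt_mapA 1 one2 B.mem)).and
      ((near (Sh.contAt_mapB 1 one2 B.mem)).and ((near (Sh.contAt_mapA (-1) mone2 B.mem)).and
        (near (Sh.contAt_mapB (-1) mone2 B.mem)))))
  obtain ⟨ρ, hρ, hball⟩ := Metric.eventually_nhds_iff_ball.mp ev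
  refine ⟨min (ρ / 2) (η / 4), lt_min (by positivity) (by positivity), ?_⟩
  intro K hK
  have hK' : ∀ x ∈ K, x ∈ Metric.ball a0 ρ := by
    intro x hx
    have h1 := hK hx
    rw [Metric.mem_closedBall] at h1
    rw [Metric.mem_ball]
    have := min_le_left (ρ / 2) (η / 4)
    linarith
  have hK0 : ∀ x ∈ K, ‖x - a0‖ ≤ η / 4 := by
    intro x hx
    have h1 := hK hx
    rw [Metric.mem_closedBall, dist_eq_norm] at h1
    exact h1.trans (min_le_right _ _)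
  have tri : ∀ u u₀ v₀ v : F, ‖u - v‖ ≤ ‖u - u₀‖ + ‖u₀ - v₀‖ + ‖v - v₀‖ := by
    intro u u₀ v₀ v
    have e : u - v = (u - u₀) + (u₀ - v₀) - (v - v₀) := by abel
    rw [e]
    exact (norm_sub_le _ _).trans (by gcongr; exact norm_add_le _ _)
  have hgap := h.gap
  refine ⟨⟨fun x hx => (hball x (hK' x hx)).1, hηpos, h.big, ?_, ?_, ?_⟩, ?_, ?_⟩
  · intro x hx y hy
    have e : x - y = (x - a0) - (y - a0) := by abel
    rw [e]
    have a1 := hK0 x hx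
    have a2 := hK0 y hy
    have := norm_sub_le (x - a0) (y - a0)
    linarith
  · rintro _ (⟨x, hx, rfl⟩ | ⟨x, hx, rfl⟩) _ (⟨y, hy, rfl⟩ | ⟨y, hy, rfl⟩)
    · have a1 := (hball x (hK' x hx)).2.1
      have a2 := (hball y (hK' y hy)).2.1
      have := tri (Sh.mapA P 1 x) (Sh.mapA P 1 a0) (Sh.mapA P 1 a0) (Sh.mapA P 1 y)
      simp only [sub_self, norm_zero] at this
      linarith
    · have a1 := (hball x (hK' x hx)).2.1
      have a2 := (hball y (hK' y hy)).2.2.2.2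
      have := tri (Sh.mapA P 1 x) (Sh.mapA P 1 a0) (Sh.mapB P (-1) a0) (Sh.mapB P (-1) y)
      have a3 := B.gap1
      linarith
    · have a1 := (hball x (hK' x hx)).2.2.2.2
      have a2 := (hball y (hK' y hy)).2.1
      have := tri (Sh.mapB P (-1) x) (Sh.mapB P (-1) a0) (Sh.mapA P 1 a0) (Sh.mapA P 1 y)
      have a3 := B.gap1
      rw [norm_sub_rev] at a3
      linarith
    · have a1 := (hball x (hK' x hx)).2.2.2.2
      have a2 := (hball y (hK' y hy)).2.2.2.2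
      have := tri (Sh.mapB P (-1) x) (Sh.mapB P (-1) a0) (Sh.mapB P (-1) a0) (Sh.mapB P (-1) y)
      simp only [sub_self, norm_zero] at this
      linarith
  · rintro _ (⟨x, hx, rfl⟩ | ⟨x, hx, rfl⟩) _ (⟨y, hy, rfl⟩ | ⟨y, hy, rfl⟩)
    · have a1 := (hball x (hK' x hx)).2.2.1
      have a2 := (hball y (hK' y hy)).2.2.1
      have := tri (Sh.mapB P 1 x) (Sh.mapB P 1 a0) (Sh.mapB P 1 a0) (Sh.mapB P 1 y)
      simp only [sub_self, norm_zero] at this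
      linarith
    · have a1 := (hball x (hK' x hx)).2.2.1
      have a2 := (hball y (hK' y hy)).2.2.2.1
      have := tri (Sh.mapB P 1 x) (Sh.mapB P 1 a0) (Sh.mapA P (-1) a0) (Sh.mapA P (-1) y)
      have a3 := B.gap2
      linarith
    · have a1 := (hball x (hK' x hx)).2.2.2.1
      have a2 := (hball y (hK' y hy)).2.2.1
      have := tri (Sh.mapA P (-1) x) (Sh.mapA P (-1) a0) (Sh.mapB P 1 a0) (Sh.mapB P 1 y)
      have a3 := B.gap2
      rw [norm_sub_rev] at a3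
      linarith
    · have a1 := (hball x (hK' x hx)).2.2.2.1
      have a2 := (hball y (hK' y hy)).2.2.2.1
      have := tri (Sh.mapA P (-1) x) (Sh.mapA P (-1) a0) (Sh.mapA P (-1) a0) (Sh.mapA P (-1) y)
      simp only [sub_self, norm_zero] at this
      linarith
  · intro x hx y hy he
    have a1 := (hball x (hK' x hx)).2.1
    have a2 := (hball y (hK' y hy)).2.2.2.1
    have := tri (Sh.mapA P 1 a0) (Sh.mapA P 1 x) (Sh.mapA P (-1) y) (Sh.mapA P (-1) a0)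
    have h0 : ‖Sh.mapA P 1 x - Sh.mapA P (-1) y‖ = 0 := by rw [he, sub_self, norm_zero]
    rw [h0, norm_sub_rev (Sh.mapA P 1 a0) (Sh.mapA P 1 x),
      norm_sub_rev (Sh.mapA P (-1) a0) (Sh.mapA P (-1) y)] at this
    linarith
  · intro x hx y hy he
    have a1 := (hball x (hK' x hx)).2.2.1
    have a2 := (hball y (hK' y hy)).2.2.2.2
    have := tri (Sh.mapB P 1 a0) (Sh.mapB P 1 x) (Sh.mapB P (-1) y) (Sh.mapB P (-1) a0)
    have h0 : ‖Sh.mapB P 1 x - Sh.mapB P (-1) y‖ = 0 := by rw [he, sub_self, norm_zero]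
    rw [h0, norm_sub_rev (Sh.mapB P 1 a0) (Sh.mapB P 1 x),
      norm_sub_rev (Sh.mapB P (-1) a0) (Sh.mapB P (-1) y)] at this
    linarith

end base

end Crest.Agent.Lib.SCE
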