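import Crest.Agent.Lib.SCE.Basic

/-!
# S0175: the curve of triangles, potentials.
-/

set_option autoImplicit false
set_option linter.unusedSectionVars false
set_option linter.unusedVariables false

open MeasureTheory Set
open scoped ENNReal ContDiff NNReal Interval
open Crest.AnalysisR.OT

namespace Crest.Agent.Lib.SCE

variable {s ε τ : ℝ}

/-- squared side opposite to the weight pair `(τ, 1+ε)`. -/
noncomputable def D12 (s ε τ : ℝ) : ℝ := Dd s (τ * (1 + ε))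
/-- squared side opposite to the weight pair `(τ, 1-ε)`. -/
noncomputable def D13 (s ε τ : ℝ) : ℝ := Dd s (τ * (1 - ε))
/-- squared side opposite to the weight pair `(1+ε, 1-ε)`. -/
noncomputable def D23 (s ε : ℝ) : ℝ := Dd s ((1 + ε) * (1 - ε))

/-- squared radius of the first vertex. -/
noncomputable def P1 (s ε τ : ℝ) : ℝ :=
  ((1 + ε) * 2 * D12 s ε τ + (1 - ε) * 2 * D13 s ε τ - (1 + ε) * (1 - ε) * D23 s ε) / (τ + 2) ^ 2
/-- squared radius of the second vertex. -/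
noncomputable def P2 (s ε τ : ℝ) : ℝ :=
  (τ * (τ + (1 - ε)) * D12 s ε τ + (1 - ε) * (τ + (1 - ε)) * D23 s ε
    - τ * (1 - ε) * D13 s ε τ) / (τ + 2) ^ 2
/-- squared radius of the third vertex. -/
noncomputable def P3 (s ε τ : ℝ) : ℝ :=
  (τ * (τ + (1 + ε)) * D13 s ε τ + (1 + ε) * (τ + (1 + ε)) * D23 s ε
    - τ * (1 + ε) * D12 s ε τ) / (τ + 2) ^ 2
/-- cost along the curve. -/
noncomputable def CC (s ε τ : ℝ) : ℝ :=
  phi s (D12 s ε τ) + phi s (D13 s ε τ) + phi s (D23 s ε)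

lemma psi_sum (hτ : 0 < τ) :
    psi s (τ * (1 + ε)) + psi s (τ * (1 - ε)) + psi s ((1 + ε) * (1 - ε)) =
      CC s ε τ + (τ + 2) * (τ * P1 s ε τ + (1 + ε) * P2 s ε τ + (1 - ε) * P3 s ε τ) := by
  have h2 : τ + 2 ≠ 0 := by positivity
  unfold psi CC P1 P2 P3
  unfold D12 D13 D23
  generalize Dd s (τ * (1 + ε)) = a
  generalize Dd s (τ * (1 - ε)) = b
  generalize Dd s ((1 + ε) * (1 - ε)) = c
  field_simp
  ring

section Ineq

variable {F : Type*} [NormedAddCommGroup F] [InnerProductSpace ℝ F]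

/-- the tangent inequality at the point `τ` of the curve. -/
lemma cR_ge_curve (hs : 0 < s) (hε : |ε| < 1) (hτ : 0 < τ) {x y z : F}
    (h1 : x ≠ y) (h2 : x ≠ z) (h3 : y ≠ z) :
    CC s ε τ - (τ + 2) * (τ * (‖x‖ ^ 2 - P1 s ε τ) + (1 + ε) * (‖y‖ ^ 2 - P2 s ε τ)
        + (1 - ε) * (‖z‖ ^ 2 - P3 s ε τ))
      + ‖τ • x + (1 + ε) • y + (1 - ε) • z‖ ^ 2 ≤ cR s x y z := by
  obtain ⟨h4, h5⟩ := abs_lt.mp hε
  have hk2 : 0 < 1 + ε := by linarith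
  have hk3 : 0 < 1 - ε := by linarith
  have := cR_tangent hs hτ hk2 hk3 h1 h2 h3
  have e := psi_sum (s := s) (ε := ε) hτ
  have e2 : τ + (1 + ε) + (1 - ε) = τ + 2 := by ring
  rw [e2, e] at this
  nlinarith

/-- the equality case. -/
lemma cR_eq_curve (hs : 0 < s) (hε : |ε| < 1) (hτ : 0 < τ) {x y z : F}
    (h1 : x ≠ y) (h2 : x ≠ z) (h3 : y ≠ z)
    (heq : cR s x y z ≤ CC s ε τ - (τ + 2) * (τ * (‖x‖ ^ 2 - P1 s ε τ)
        + (1 + ε) * (‖y‖ ^ 2 - P2 s ε τ) + (1 - ε) * (‖z‖ ^ 2 - P3 s ε τ))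
      + ‖τ • x + (1 + ε) • y + (1 - ε) • z‖ ^ 2) :
    ‖x - y‖ ^ 2 = D12 s ε τ ∧ ‖x - z‖ ^ 2 = D13 s ε τ ∧ ‖y - z‖ ^ 2 = D23 s ε := by
  obtain ⟨h4, h5⟩ := abs_lt.mp hε
  have hk2 : 0 < 1 + ε := by linarith
  have hk3 : 0 < 1 - ε := by linarith
  have e := psi_sum (s := s) (ε := ε) hτ
  have e2 : τ + (1 + ε) + (1 - ε) = τ + 2 := by ring
  refine cR_tangent_eq hs hτ hk2 hk3 h1 h2 h3 ?_
  rw [e2, e]
  nlinarith

/-- the triangle closes up: two vertices and the balance relation determine the rest. -/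
lemma triangle_close (hε : |ε| < 1) (hτ : 0 < τ) {x y z : F}
    (hx : ‖x‖ ^ 2 = P1 s ε τ) (hy : ‖y‖ ^ 2 = P2 s ε τ) (hxy : ‖x - y‖ ^ 2 = D12 s ε τ)
    (hz : τ • x + (1 + ε) • y + (1 - ε) • z = 0) :
    ‖z‖ ^ 2 = P3 s ε τ ∧ ‖x - z‖ ^ 2 = D13 s ε τ ∧ ‖y - z‖ ^ 2 = D23 s ε := by
  obtain ⟨h4, h5⟩ := abs_lt.mp hε
  have hk3 : 1 - ε ≠ 0 := by linarith
  have h2 : τ + 2 ≠ 0 := by positivity
  have hzz : z = (-(τ / (1 - ε))) • x + (-((1 + ε) / (1 - ε))) • y := by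
    have : (1 - ε) • z = (-τ) • x + (-(1 + ε)) • y := by
      have h := eq_neg_of_add_eq_zero_right hz
      rw [h, neg_add, neg_smul, neg_smul]
    have h' : z = (1 - ε)⁻¹ • ((1 - ε) • z) := by
      rw [smul_smul, inv_mul_cancel₀ hk3, one_smul]
    rw [h', this, smul_add, smul_smul, smul_smul]
    congr 2 <;> (field_simp)
  have hI : 2 * inner ℝ x y = ‖x‖ ^ 2 + ‖y‖ ^ 2 - ‖x - y‖ ^ 2 := by
    rw [norm_sub_sq_real]; ring
  have ez : ‖z‖ ^ 2 = (τ / (1 - ε)) ^ 2 * ‖x‖ ^ 2 + ((1 + ε) / (1 - ε)) ^ 2 * ‖y‖ ^ 2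
      + (τ / (1 - ε)) * ((1 + ε) / (1 - ε)) * (2 * inner ℝ x y) := by
    rw [hzz, norm_add_sq_real, norm_smul, norm_smul]
    simp only [real_inner_smul_left, real_inner_smul_right, Real.norm_eq_abs, mul_pow, sq_abs]
    ring
  have exz : ‖x - z‖ ^ 2 = (1 + τ / (1 - ε)) ^ 2 * ‖x‖ ^ 2 + ((1 + ε) / (1 - ε)) ^ 2 * ‖y‖ ^ 2
      + (1 + τ / (1 - ε)) * ((1 + ε) / (1 - ε)) * (2 * inner ℝ x y) := by
    have : x - z = (1 + τ / (1 - ε)) • x + ((1 + ε) / (1 - ε)) • y := by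
      rw [hzz]
      simp only [neg_smul, add_smul, one_smul]
      abel
    rw [this, norm_add_sq_real, norm_smul, norm_smul]
    simp only [real_inner_smul_left, real_inner_smul_right, Real.norm_eq_abs, mul_pow, sq_abs]
    ring
  have eyz : ‖y - z‖ ^ 2 = (τ / (1 - ε)) ^ 2 * ‖x‖ ^ 2 + (1 + (1 + ε) / (1 - ε)) ^ 2 * ‖y‖ ^ 2
      + (τ / (1 - ε)) * (1 + (1 + ε) / (1 - ε)) * (2 * inner ℝ x y) := by
    have : y - z = (τ / (1 - ε)) • x + (1 + (1 + ε) / (1 - ε)) • y := by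
      rw [hzz]
      simp only [neg_smul, add_smul, one_smul]
      abel
    rw [this, norm_add_sq_real, norm_smul, norm_smul]
    simp only [real_inner_smul_left, real_inner_smul_right, Real.norm_eq_abs, mul_pow, sq_abs]
    ring
  rw [hI, hx, hy, hxy] at ez exz eyz
  refine ⟨?_, ?_, ?_⟩
  · rw [ez]; unfold P1 P2 P3
    generalize D12 s ε τ = a
    generalize D13 s ε τ = b
    generalize D23 s ε = c
    field_simp
    ring
  · rw [exz]; unfold P1 P2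
    generalize D12 s ε τ = a
    generalize D13 s ε τ = b
    generalize D23 s ε = c
    field_simp
    ring
  · rw [eyz]; unfold P1 P2
    generalize D12 s ε τ = a
    generalize D13 s ε τ = b
    generalize D23 s ε = c
    field_simp
    ring

end Ineq

/-- antiderivative potential. -/
noncomputable def YY (k v : ℝ) (P : ℝ → ℝ) (τ : ℝ) : ℝ :=
  v - k * (τ + 2) * P τ + k * 3 * P 1 + k * ∫ σ in (1 : ℝ)..τ, P σ

lemma YY_one (k v : ℝ) (P : ℝ → ℝ) : YY k v P 1 = v := by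
  unfold YY
  simp only [intervalIntegral.integral_same]
  ring

section Concave

variable {J : Set ℝ} {P : ℝ → ℝ} {k v : ℝ}

private lemma iicont (hJ : J.OrdConnected) (hP : ContinuousOn P J) {a b : ℝ} (ha : a ∈ J) (hb : b ∈ J) :
    IntervalIntegrable P volume a b :=
  (hP.mono (hJ.uIcc_subset ha hb)).intervalIntegrable

lemma YY_diff (hJ : J.OrdConnected) (h1 : (1 : ℝ) ∈ J) (hP : ContinuousOn P J) {τ τ' : ℝ}
    (hτ : τ ∈ J) (hτ' : τ' ∈ J) :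
    YY k v P τ - k * (τ + 2) * (P τ' - P τ) - YY k v P τ' =
      k * ((τ' - τ) * P τ' - ∫ σ in τ..τ', P σ) := by
  have h := intervalIntegral.integral_add_adjacent_intervals (iicont hJ hP h1 hτ) (iicont hJ hP hτ hτ')
  unfold YY
  rw [← h]
  ring

lemma primitive_lt (hJ : J.OrdConnected) (hP : ContinuousOn P J) (hm : StrictMonoOn P J) {τ τ' : ℝ}
    (hτ : τ ∈ J) (hτ' : τ' ∈ J) (hne : τ' ≠ τ) :
    (∫ σ in τ..τ', P σ) < (τ' - τ) * P τ' := by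
  rcases lt_or_gt_of_ne hne with hlt | hlt
  · -- τ' < τ
    have hii := iicont hJ hP hτ' hτ
    have hsub : Icc τ' τ ⊆ J := hJ.out hτ' hτ
    have h : (∫ σ in τ'..τ, (P σ - P τ')) > 0 := by
      apply intervalIntegral.intervalIntegral_pos_of_pos_on (hii.sub intervalIntegrable_const) _ hlt
      intro σ hσ
      have := hm hτ' (hsub (Ioo_subset_Icc_self hσ)) hσ.1
      linarith
    rw [intervalIntegral.integral_sub hii intervalIntegrable_const, intervalIntegral.integral_const,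
      smul_eq_mul] at h
    rw [intervalIntegral.integral_symm]
    nlinarith
  · have hii := iicont hJ hP hτ hτ'
    have hsub : Icc τ τ' ⊆ J := hJ.out hτ hτ'
    have h : (∫ σ in τ..τ', (P τ' - P σ)) > 0 := by
      apply intervalIntegral.intervalIntegral_pos_of_pos_on (intervalIntegrable_const.sub hii) _ hlt
      intro σ hσ
      have := hm (hsub (Ioo_subset_Icc_self hσ)) hτ' hσ.2
      linarith
    rw [intervalIntegral.integral_sub intervalIntegrable_const hii, intervalIntegral.integral_const,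
      smul_eq_mul] at h
    nlinarith

/-- strict concavity of the potential with respect to `P`. -/
lemma YY_lt (hk : 0 < k) (hJ : J.OrdConnected) (h1 : (1 : ℝ) ∈ J) (hP : ContinuousOn P J)
    (hm : StrictMonoOn P J) {τ τ' : ℝ} (hτ : τ ∈ J) (hτ' : τ' ∈ J) (hne : τ' ≠ τ) :
    YY k v P τ' < YY k v P τ - k * (τ + 2) * (P τ' - P τ) := by
  have h := YY_diff (k := k) (v := v) hJ h1 hP hτ hτ'
  have h2 := primitive_lt hJ hP hm hτ hτ' hne
  have h3 : 0 < k * ((τ' - τ) * P τ' - ∫ σ in τ..τ', P σ) := mul_pos hk (by linarith)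
  linarith

lemma YY_le (hk : 0 < k) (hJ : J.OrdConnected) (h1 : (1 : ℝ) ∈ J) (hP : ContinuousOn P J)
    (hm : StrictMonoOn P J) {τ τ' : ℝ} (hτ : τ ∈ J) (hτ' : τ' ∈ J) :
    YY k v P τ' ≤ YY k v P τ - k * (τ + 2) * (P τ' - P τ) := by
  by_cases hne : τ' = τ
  · subst hne; simp
  · exact (YY_lt hk hJ h1 hP hm hτ hτ' hne).le

end Concave

/-- potential on the second shell. -/
noncomputable def Y2 (s ε v : ℝ) : ℝ → ℝ := YY (1 + ε) v (P2 s ε)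
/-- potential on the third shell. -/
noncomputable def Y3 (s ε v : ℝ) : ℝ → ℝ := YY (1 - ε) v (P3 s ε)
/-- potential on the first shell. -/
noncomputable def Y1 (s ε v₂ v₃ τ : ℝ) : ℝ := CC s ε τ - Y2 s ε v₂ τ - Y3 s ε v₃ τ

section Proper

variable {F : Type*} [NormedAddCommGroup F] [InnerProductSpace ℝ F]
variable {J : Set ℝ}

/-- Hypotheses on the parameter interval. -/
structure GoodJ (s ε : ℝ) (J : Set ℝ) : Prop where
  ord : J.OrdConnected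
  one_mem : (1 : ℝ) ∈ J
  pos : ∀ τ ∈ J, 0 < τ
  abs_eps : |ε| < 1
  cont2 : ContinuousOn (P2 s ε) J
  cont3 : ContinuousOn (P3 s ε) J
  mono2 : StrictMonoOn (P2 s ε) J
  mono3 : StrictMonoOn (P3 s ε) J

variable {v₂ v₃ τ₁ τ₂ τ₃ : ℝ} {x y z : F}

/-- the proper inequality. -/
lemma proper_le (hs : 0 < s) (hJ : GoodJ s ε J) (h1 : τ₁ ∈ J) (h2 : τ₂ ∈ J) (h3 : τ₃ ∈ J)
    (hx : ‖x‖ ^ 2 = P1 s ε τ₁) (hy : ‖y‖ ^ 2 = P2 s ε τ₂) (hz : ‖z‖ ^ 2 = P3 s ε τ₃)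
    (hxy : x ≠ y) (hxz : x ≠ z) (hyz : y ≠ z) :
    Y1 s ε v₂ v₃ τ₁ + Y2 s ε v₂ τ₂ + Y3 s ε v₃ τ₃ ≤ cR s x y z := by
  obtain ⟨h4, h5⟩ := abs_lt.mp hJ.abs_eps
  have ht := cR_ge_curve hs hJ.abs_eps (hJ.pos _ h1) hxy hxz hyz
  have a2 := YY_le (k := 1 + ε) (v := v₂) (by linarith) hJ.ord hJ.one_mem hJ.cont2 hJ.mono2 h1 h2
  have a3 := YY_le (k := 1 - ε) (v := v₃) (by linarith) hJ.ord hJ.one_mem hJ.cont3 hJ.mono3 h1 h3
  unfold Y1 Y2 Y3
  rw [hx, hy, hz] at ht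
  have hn : 0 ≤ ‖τ₁ • x + (1 + ε) • y + (1 - ε) • z‖ ^ 2 := by positivity
  nlinarith

/-- equality in the proper inequality. -/
lemma proper_eq (hs : 0 < s) (hJ : GoodJ s ε J) (h1 : τ₁ ∈ J) (h2 : τ₂ ∈ J) (h3 : τ₃ ∈ J)
    (hx : ‖x‖ ^ 2 = P1 s ε τ₁) (hy : ‖y‖ ^ 2 = P2 s ε τ₂) (hz : ‖z‖ ^ 2 = P3 s ε τ₃)
    (hxy : x ≠ y) (hxz : x ≠ z) (hyz : y ≠ z)
    (heq : cR s x y z ≤ Y1 s ε v₂ v₃ τ₁ + Y2 s ε v₂ τ₂ + Y3 s ε v₃ τ₃) :
    τ₂ = τ₁ ∧ τ₃ = τ₁ ∧ ‖x - y‖ ^ 2 = D12 s ε τ₁ ∧ ‖x - z‖ ^ 2 = D13 s ε τ₁ ∧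
      ‖y - z‖ ^ 2 = D23 s ε ∧ τ₁ • x + (1 + ε) • y + (1 - ε) • z = 0 := by
  obtain ⟨h4, h5⟩ := abs_lt.mp hJ.abs_eps
  have ht := cR_ge_curve hs hJ.abs_eps (hJ.pos _ h1) hxy hxz hyz
  have a2 := YY_le (k := 1 + ε) (v := v₂) (by linarith) hJ.ord hJ.one_mem hJ.cont2 hJ.mono2 h1 h2
  have a3 := YY_le (k := 1 - ε) (v := v₃) (by linarith) hJ.ord hJ.one_mem hJ.cont3 hJ.mono3 h1 h3
  have hn : 0 ≤ ‖τ₁ • x + (1 + ε) • y + (1 - ε) • z‖ ^ 2 := by positivity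
  unfold Y1 Y2 Y3 at heq
  rw [hx, hy, hz] at ht
  have e2 : τ₂ = τ₁ := by
    by_contra hne
    have a2' := YY_lt (k := 1 + ε) (v := v₂) (by linarith) hJ.ord hJ.one_mem hJ.cont2 hJ.mono2 h1 h2 hne
    nlinarith
  have e3 : τ₃ = τ₁ := by
    by_contra hne
    have a3' := YY_lt (k := 1 - ε) (v := v₃) (by linarith) hJ.ord hJ.one_mem hJ.cont3 hJ.mono3 h1 h3 hne
    nlinarith
  subst e2 e3
  have hn0 : ‖τ₃ • x + (1 + ε) • y + (1 - ε) • z‖ ^ 2 ≤ 0 := by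
    unfold YY at heq
    nlinarith
  have hn1 : ‖τ₃ • x + (1 + ε) • y + (1 - ε) • z‖ = 0 := by
    have : ‖τ₃ • x + (1 + ε) • y + (1 - ε) • z‖ ^ 2 = 0 := le_antisymm hn0 hn
    simpa using this
  have hzero : τ₃ • x + (1 + ε) • y + (1 - ε) • z = 0 := norm_eq_zero.mp hn1
  have hh := cR_eq_curve hs hJ.abs_eps (hJ.pos _ h1) hxy hxz hyz (by
    rw [hx, hy, hz, hzero]
    simp only [sub_self, mul_zero, add_zero, norm_zero]
    unfold YY at heq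
    simp only [ne_eq, OfNat.ofNat_ne_zero, not_false_eq_true, zero_pow]
    nlinarith)
  exact ⟨rfl, rfl, hh.1, hh.2.1, hh.2.2, hzero⟩

/-- the cost on an exact triangle of the curve. -/
lemma cR_curve (hε : |ε| < 1) (hτ : 0 < τ₁) (hxy : ‖x - y‖ ^ 2 = D12 s ε τ₁)
    (hxz : ‖x - z‖ ^ 2 = D13 s ε τ₁) (hyz : ‖y - z‖ ^ 2 = D23 s ε) :
    cR s x y z = CC s ε τ₁ := by
  unfold cR CC
  rw [hxy, hxz, hyz]

end Proper

end Crest.Agent.Lib.SCE
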