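import Crest.Agent.Lib.SCE.Params

/-!
# S0175: choice of the interval of parameters.
-/

set_option autoImplicit false
set_option linter.unusedSectionVars false
set_option linter.unusedVariables false

open MeasureTheory Set Filter Topology
open scoped ENNReal ContDiff NNReal Interval

namespace Crest.Agent.Lib.SCE

lemma exists_inverse {f f' : ℝ → ℝ} {J : Set ℝ} (hJ : IsOpen J) (hinj : InjOn f J)
    (hf : ∀ τ ∈ J, ContDiffAt ℝ ∞ f τ) (hd : ∀ τ ∈ J, HasDerivAt f (f' τ) τ)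
    (hne : ∀ τ ∈ J, f' τ ≠ 0) :
    ∃ I : ℝ → ℝ, IsOpen (f '' J) ∧ ContDiffOn ℝ ∞ I (f '' J) ∧ (∀ τ ∈ J, I (f τ) = τ) ∧
      ∀ t ∈ f '' J, I t ∈ J ∧ f (I t) = t := by
  classical
  set I := Function.invFunOn f J with hI
  have h1 : ∀ τ ∈ J, I (f τ) = τ := fun τ hτ => hinj.leftInvOn_invFunOn hτ
  have h2 : ∀ t ∈ f '' J, I t ∈ J ∧ f (I t) = t := fun t ht =>
    ⟨Function.invFunOn_mem ht, Function.invFunOn_eq ht⟩
  have hn : (∞ : WithTop ℕ∞) ≠ 0 := by simp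
  have hopen : IsOpen (f '' J) := by
    rw [isOpen_iff_mem_nhds]
    rintro _ ⟨τ, hτ, rfl⟩
    have hs : HasStrictDerivAt f (f' τ) τ := (hf τ hτ).hasStrictDerivAt' (hd τ hτ) hn
    rw [← hs.map_nhds_eq (hne τ hτ)]
    exact image_mem_map (hJ.mem_nhds hτ)
  refine ⟨I, hopen, ?_, h1, h2⟩
  rintro _ ⟨τ, hτ, rfl⟩
  apply ContDiffAt.contDiffWithinAt
  have hfd := (hd τ hτ).hasFDerivAt_equiv (hne τ hτ)
  have hc := (hf τ hτ).to_localInverse hfd hn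
  have hstrict := (hf τ hτ).hasStrictFDerivAt' hfd hn
  have hr := hstrict.eventually_right_inverse
  have ht := hstrict.localInverse_tendsto
  have hmem : ∀ᶠ y in 𝓝 (f τ), hstrict.localInverse f _ τ y ∈ J := ht (hJ.mem_nhds hτ)
  refine hc.congr_of_eventuallyEq ?_
  filter_upwards [hr, hmem] with y hy1 hy2
  have hy3 : y ∈ f '' J := ⟨_, hy2, hy1⟩
  have := h2 y hy3
  exact hinj this.1 hy2 (this.2.trans hy1.symm)

lemma exists_r_of_eventually {p : ℝ → Prop} (h : ∀ᶠ τ in 𝓝 (1 : ℝ), p τ) :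
    ∃ r : ℝ, 0 < r ∧ r ≤ 1 / 2 ∧ ∀ τ ∈ Ioo (1 - r) (1 + r), p τ := by
  obtain ⟨ρ, hρ, hball⟩ := Metric.eventually_nhds_iff_ball.mp h
  refine ⟨min ρ (1 / 2), by positivity, min_le_right _ _, ?_⟩
  intro τ hτ
  apply hball
  rw [Real.ball_eq_Ioo]
  have := min_le_left ρ (1 / 2)
  exact ⟨by linarith [hτ.1], by linarith [hτ.2]⟩

variable {s ε : ℝ}

/-- Everything needed about the shells. -/
structure Shells (s ε U : ℝ) where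
  r : ℝ
  rn : ℝ
  I1 : ℝ → ℝ
  I2 : ℝ → ℝ
  I3 : ℝ → ℝ
  r_pos : 0 < r
  r_le : r ≤ 1 / 2
  rn_pos : 0 < rn
  good : GoodJ s ε (Ioo (1 - r) (1 + r))
  W1_open : IsOpen (P1 s ε '' Ioo (1 - r) (1 + r))
  W2_open : IsOpen (P2 s ε '' Ioo (1 - r) (1 + r))
  W3_open : IsOpen (P3 s ε '' Ioo (1 - r) (1 + r))
  I1_smooth : ContDiffOn ℝ ∞ I1 (P1 s ε '' Ioo (1 - r) (1 + r))
  I2_smooth : ContDiffOn ℝ ∞ I2 (P2 s ε '' Ioo (1 - r) (1 + r))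
  I3_smooth : ContDiffOn ℝ ∞ I3 (P3 s ε '' Ioo (1 - r) (1 + r))
  I1_left : ∀ τ ∈ Ioo (1 - r) (1 + r), I1 (P1 s ε τ) = τ
  I2_left : ∀ τ ∈ Ioo (1 - r) (1 + r), I2 (P2 s ε τ) = τ
  I3_left : ∀ τ ∈ Ioo (1 - r) (1 + r), I3 (P3 s ε τ) = τ
  I1_right : ∀ t ∈ P1 s ε '' Ioo (1 - r) (1 + r), I1 t ∈ Ioo (1 - r) (1 + r) ∧ P1 s ε (I1 t) = t
  I2_right : ∀ t ∈ P2 s ε '' Ioo (1 - r) (1 + r), I2 t ∈ Ioo (1 - r) (1 + r) ∧ P2 s ε (I2 t) = t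
  I3_right : ∀ t ∈ P3 s ε '' Ioo (1 - r) (1 + r), I3 t ∈ Ioo (1 - r) (1 + r) ∧ P3 s ε (I3 t) = t
  disj12 : ∀ τ ∈ Ioo (1 - r) (1 + r), ∀ τ' ∈ Ioo (1 - r) (1 + r), P1 s ε τ ≠ P2 s ε τ'
  disj13 : ∀ τ ∈ Ioo (1 - r) (1 + r), ∀ τ' ∈ Ioo (1 - r) (1 + r), P1 s ε τ ≠ P3 s ε τ'
  disj23 : ∀ τ ∈ Ioo (1 - r) (1 + r), ∀ τ' ∈ Ioo (1 - r) (1 + r), P2 s ε τ ≠ P3 s ε τ'
  Aa_pos : ∀ τ ∈ Ioo (1 - r) (1 + r), ∀ n, |n| < rn → 0 < P1 s ε τ - n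
  disc_pos : ∀ τ ∈ Ioo (1 - r) (1 + r), ∀ n, |n| < rn → 0 < disc s ε (τ, n)
  cont_Y1 : ContinuousOn (Y1 s ε 0 (vc s ε)) (Ioo (1 - r) (1 + r))
  cont_Y2 : ContinuousOn (Y2 s ε 0) (Ioo (1 - r) (1 + r))
  cont_Y3 : ContinuousOn (Y3 s ε (vc s ε)) (Ioo (1 - r) (1 + r))
  bd1 : ∀ τ ∈ Ioo (1 - r) (1 + r), |Y1 s ε 0 (vc s ε) τ| ≤ U
  bd2 : ∀ τ ∈ Ioo (1 - r) (1 + r), |Y2 s ε 0 τ| ≤ U
  bd3 : ∀ τ ∈ Ioo (1 - r) (1 + r), |Y3 s ε (vc s ε) τ| ≤ U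
  imp1 : ∀ τ₁ ∈ Ioo (1 - r) (1 + r), ∀ τ₂ ∈ Ioo (1 - r) (1 + r), ∀ τ₃ ∈ Ioo (1 - r) (1 + r),
    Y1 s ε 0 (vc s ε) τ₁ + Y2 s ε 0 τ₂ + Y2 s ε 0 τ₃ <
      LB s 1 (1 + ε) (1 + ε) (P1 s ε τ₁) (P2 s ε τ₂) (P2 s ε τ₃)
  imp2 : ∀ τ₁ ∈ Ioo (1 - r) (1 + r), ∀ τ₂ ∈ Ioo (1 - r) (1 + r), ∀ τ₃ ∈ Ioo (1 - r) (1 + r),
    Y1 s ε 0 (vc s ε) τ₁ + Y3 s ε (vc s ε) τ₂ + Y3 s ε (vc s ε) τ₃ <
      LB s 1 (1 - ε) (1 - ε) (P1 s ε τ₁) (P3 s ε τ₂) (P3 s ε τ₃)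

lemma continuousAt_YY {k v : ℝ} {P : ℝ → ℝ} {r₀ : ℝ} (hr : 0 < r₀)
    (hP : ContinuousOn P (Ioo (1 - r₀) (1 + r₀))) :
    ContinuousOn (YY k v P) (Ioo (1 - r₀ / 2) (1 + r₀ / 2)) := by
  have hsub : Icc (1 - r₀ / 2) (1 + r₀ / 2) ⊆ Ioo (1 - r₀) (1 + r₀) := by
    intro x hx
    exact ⟨by linarith [hx.1], by linarith [hx.2]⟩
  have hle : 1 - r₀ / 2 ≤ 1 + r₀ / 2 := by linarith
  have hu : [[1 - r₀ / 2, 1 + r₀ / 2]] = Icc (1 - r₀ / 2) (1 + r₀ / 2) := uIcc_of_le hle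
  have hint : IntervalIntegrable P volume (1 - r₀ / 2) (1 + r₀ / 2) := by
    apply ContinuousOn.intervalIntegrable
    rw [hu]
    exact hP.mono hsub
  have h1mem : (1 : ℝ) ∈ [[1 - r₀ / 2, 1 + r₀ / 2]] := by
    rw [hu]
    exact ⟨by linarith, by linarith⟩
  have hprim := intervalIntegral.continuousOn_primitive_interval' hint h1mem
  rw [hu] at hprim
  have hPc : ContinuousOn P (Icc (1 - r₀ / 2) (1 + r₀ / 2)) := hP.mono hsub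
  unfold YY
  refine ContinuousOn.mono ?_ Ioo_subset_Icc_self
  refine ContinuousOn.add (ContinuousOn.add (ContinuousOn.sub continuousOn_const ?_) continuousOn_const)
    (continuousOn_const.mul hprim)
  exact ((continuousOn_const.mul (continuousOn_id.add continuousOn_const))).mul hPc

/-- values at the base. -/
lemma Y1_one (s ε v₂ v₃ : ℝ) : Y1 s ε v₂ v₃ 1 = CC s ε 1 - v₂ - v₃ := by
  unfold Y1 Y2 Y3; rw [YY_one, YY_one]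

lemma Y2_one (s ε v : ℝ) : Y2 s ε v 1 = v := YY_one _ _ _
lemma Y3_one (s ε v : ℝ) : Y3 s ε v 1 = v := YY_one _ _ _

theorem exists_shells {η U : ℝ} (hs : 0 < s) (h : GoodEps s ε η U) : Nonempty (Shells s ε U) := by
  have hε1 : |ε| < 1 := by
    rw [abs_lt]; exact ⟨by linarith [h.eps_pos], h.eps_lt⟩
  have hε2 : |(-ε)| < 1 := by rwa [abs_neg]
  have hk2 : 0 < 1 + ε := by linarith [h.eps_pos]
  have hk3 : 0 < 1 - ε := by linarith [h.eps_lt]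
  -- Step 1: signs of the derivatives
  have ev1 : ∀ᶠ τ in 𝓝 (1 : ℝ), dP1 s ε τ < 0 ∧ 0 < dP2 s ε τ ∧ 0 < dP2 s (-ε) τ := by
    have a := (continuousAt_dP1 (s := s) hε1 one_pos).eventually (gt_mem_nhds h.dP1_neg)
    have b := (continuousAt_dP2 (s := s) hε1 one_pos).eventually (lt_mem_nhds h.dP2_pos)
    have c := (continuousAt_dP2 (s := s) hε2 one_pos).eventually (lt_mem_nhds h.dP3_pos)
    exact a.and (b.and c)
  obtain ⟨r₀, hr₀, hr₀le, hr₀p⟩ := exists_r_of_eventually ev1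
  have hpos₀ : ∀ τ ∈ Ioo (1 - r₀) (1 + r₀), 0 < τ := fun τ hτ => by linarith [hτ.1]
  have hconv : Convex ℝ (Ioo (1 - r₀) (1 + r₀)) := convex_Ioo _ _
  have hc1 : ContinuousOn (P1 s ε) (Ioo (1 - r₀) (1 + r₀)) := fun τ hτ =>
    (contDiffAt_P1 hε1 (hpos₀ τ hτ)).continuousAt.continuousWithinAt
  have hc2 : ContinuousOn (P2 s ε) (Ioo (1 - r₀) (1 + r₀)) := fun τ hτ =>
    (contDiffAt_P2 hε1 (hpos₀ τ hτ)).continuousAt.continuousWithinAt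
  have hc3 : ContinuousOn (P3 s ε) (Ioo (1 - r₀) (1 + r₀)) := fun τ hτ =>
    (contDiffAt_P3 hε1 (hpos₀ τ hτ)).continuousAt.continuousWithinAt
  have hanti1 : StrictAntiOn (P1 s ε) (Ioo (1 - r₀) (1 + r₀)) := by
    refine strictAntiOn_of_deriv_neg hconv hc1 ?_
    intro τ hτ
    rw [interior_Ioo] at hτ
    rw [(hasDerivAt_P1 hε1 (hpos₀ τ hτ)).deriv]
    exact (hr₀p τ hτ).1
  have hmono2 : StrictMonoOn (P2 s ε) (Ioo (1 - r₀) (1 + r₀)) := by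
    refine strictMonoOn_of_deriv_pos hconv hc2 ?_
    intro τ hτ
    rw [interior_Ioo] at hτ
    rw [(hasDerivAt_P2 hε1 (hpos₀ τ hτ)).deriv]
    exact (hr₀p τ hτ).2.1
  have hmono3 : StrictMonoOn (P3 s ε) (Ioo (1 - r₀) (1 + r₀)) := by
    refine strictMonoOn_of_deriv_pos hconv hc3 ?_
    intro τ hτ
    rw [interior_Ioo] at hτ
    rw [(hasDerivAt_P3 hε1 (hpos₀ τ hτ)).deriv]
    exact (hr₀p τ hτ).2.2
  -- Step 2: continuity of the potentials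
  have hy2 : ContinuousOn (Y2 s ε 0) (Ioo (1 - r₀ / 2) (1 + r₀ / 2)) := continuousAt_YY hr₀ hc2
  have hy3 : ContinuousOn (Y3 s ε (vc s ε)) (Ioo (1 - r₀ / 2) (1 + r₀ / 2)) := continuousAt_YY hr₀ hc3
  have hsub₁ : Ioo (1 - r₀ / 2) (1 + r₀ / 2) ⊆ Ioo (1 - r₀) (1 + r₀) := by
    intro x hx
    exact ⟨by linarith [hx.1], by linarith [hx.2]⟩
  have hCC : ContinuousOn (CC s ε) (Ioo (1 - r₀) (1 + r₀)) := by
    intro τ hτ
    have hτ0 := hpos₀ τ hτ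
    have d12 := (contDiffAt_D12 (s := s) hε1 hτ0).continuousAt
    have d13 := (contDiffAt_D13 (s := s) hε1 hτ0).continuousAt
    have p12 : 0 < D12 s ε τ := Dd_pos hs (by positivity)
    have p13 : 0 < D13 s ε τ := Dd_pos hs (by positivity)
    unfold CC phi
    apply ContinuousAt.continuousWithinAt
    exact ((d12.rpow_const (Or.inl p12.ne')).add (d13.rpow_const (Or.inl p13.ne'))).add continuousAt_const
  have hy1 : ContinuousOn (Y1 s ε 0 (vc s ε)) (Ioo (1 - r₀ / 2) (1 + r₀ / 2)) :=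
    ((hCC.mono hsub₁).sub hy2).sub hy3
  have h1mem : (1 : ℝ) ∈ Ioo (1 - r₀ / 2) (1 + r₀ / 2) := ⟨by linarith, by linarith⟩
  have hopen₁ : IsOpen (Ioo (1 - r₀ / 2) (1 + r₀ / 2)) := isOpen_Ioo
  have cat : ∀ {f : ℝ → ℝ}, ContinuousOn f (Ioo (1 - r₀ / 2) (1 + r₀ / 2)) → ContinuousAt f 1 :=
    fun hf => hf.continuousAt (hopen₁.mem_nhds h1mem)
  have cy1 := cat hy1
  have cy2 := cat hy2
  have cy3 := cat hy3
  have cp1 : ContinuousAt (P1 s ε) 1 := (contDiffAt_P1 hε1 one_pos).continuousAt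
  have cp2 : ContinuousAt (P2 s ε) 1 := (contDiffAt_P2 hε1 one_pos).continuousAt
  have cp3 : ContinuousAt (P3 s ε) 1 := (contDiffAt_P3 hε1 one_pos).continuousAt
  -- base values
  have Y1one : Y1 s ε 0 (vc s ε) 1 = va s ε := by
    rw [Y1_one]; unfold vc; ring
  have Y2one : Y2 s ε 0 1 = 0 := Y2_one _ _ _
  have Y3one : Y3 s ε (vc s ε) 1 = vc s ε := Y3_one _ _ _
  have hΔ := h.delta_pos
  -- Step 3: near 1
  have near : ∀ {f : ℝ → ℝ}, ContinuousAt f 1 → ∀ {δ : ℝ}, 0 < δ → ∀ᶠ τ in 𝓝 (1 : ℝ), |f τ - f 1| < δ := by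
    intro f hf δ hδ
    have := Metric.continuousAt_iff'.mp hf δ hδ
    simpa [Real.dist_eq] using this
  have ev2 : ∀ᶠ τ in 𝓝 (1 : ℝ),
      |Y1 s ε 0 (vc s ε) τ - Y1 s ε 0 (vc s ε) 1| < 1 ∧ |Y2 s ε 0 τ - Y2 s ε 0 1| < 1 ∧
      |Y3 s ε (vc s ε) τ - Y3 s ε (vc s ε) 1| < 1 :=
    (near cy1 one_pos).and ((near cy2 one_pos).and (near cy3 one_pos))
  set gap1 := (P1 s ε 1 - P2 s ε 1) / 2 with hgap1
  set gap2 := (P3 s ε 1 - P1 s ε 1) / 2 with hgap2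
  have hgap1pos : 0 < gap1 := by have := h.ord1; rw [hgap1]; linarith
  have hgap2pos : 0 < gap2 := by have := h.ord2; rw [hgap2]; linarith
  have ev3 : ∀ᶠ τ in 𝓝 (1 : ℝ), |P1 s ε τ - P1 s ε 1| < min gap1 gap2 ∧
      |P2 s ε τ - P2 s ε 1| < gap1 ∧ |P3 s ε τ - P3 s ε 1| < gap2 :=
    (near cp1 (lt_min hgap1pos hgap2pos)).and ((near cp2 hgap1pos).and (near cp3 hgap2pos))
  have hδ8 : 0 < Delta s ε / 8 := by positivity
  -- improper combos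
  set A1 : ℝ → ℝ := fun τ => (1 + (1 + ε) + (1 + ε)) * P1 s ε τ + Y1 s ε 0 (vc s ε) τ with hA1
  set B1 : ℝ → ℝ := fun τ => (1 + (1 + ε) + (1 + ε)) * ((1 + ε) * P2 s ε τ) + Y2 s ε 0 τ with hB1
  set A2 : ℝ → ℝ := fun τ => (1 + (1 - ε) + (1 - ε)) * P1 s ε τ + Y1 s ε 0 (vc s ε) τ with hA2
  set B2 : ℝ → ℝ := fun τ => (1 + (1 - ε) + (1 - ε)) * ((1 - ε) * P3 s ε τ) + Y3 s ε (vc s ε) τ with hB2
  have cA1 : ContinuousAt A1 1 := (continuousAt_const.mul cp1).add cy1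
  have cB1 : ContinuousAt B1 1 := (continuousAt_const.mul (continuousAt_const.mul cp2)).add cy2
  have cA2 : ContinuousAt A2 1 := (continuousAt_const.mul cp1).add cy1
  have cB2 : ContinuousAt B2 1 := (continuousAt_const.mul (continuousAt_const.mul cp3)).add cy3
  have ev4 : ∀ᶠ τ in 𝓝 (1 : ℝ), |A1 τ - A1 1| < Delta s ε / 8 ∧ |B1 τ - B1 1| < Delta s ε / 8 ∧
      |A2 τ - A2 1| < Delta s ε / 8 ∧ |B2 τ - B2 1| < Delta s ε / 8 :=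
    (near cA1 hδ8).and ((near cB1 hδ8).and ((near cA2 hδ8).and (near cB2 hδ8)))
  -- two-variable positivity
  have hdisc2 : ∀ᶠ p in 𝓝 ((1 : ℝ), (0 : ℝ)), 0 < P1 s ε p.1 - p.2 ∧ 0 < disc s ε p := by
    have cfst : ∀ {g : ℝ → ℝ}, ContinuousAt g 1 → ContinuousAt (fun p : ℝ × ℝ => g p.1) (1, 0) :=
      fun {g} hg => ContinuousAt.comp (g := g) (f := fun p : ℝ × ℝ => p.1) (x := ((1 : ℝ), (0 : ℝ))) hg continuousAt_fst
    have cid1 : ContinuousAt (fun p : ℝ × ℝ => p.1) ((1 : ℝ), (0 : ℝ)) := continuousAt_fst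
    have cid2 : ContinuousAt (fun p : ℝ × ℝ => p.2) ((1 : ℝ), (0 : ℝ)) := continuousAt_snd
    have e1 := cfst cp1
    have e2 := cfst cp2
    have cD : ContinuousAt (D12 s ε) 1 := (contDiffAt_D12 hε1 one_pos).continuousAt
    have e3 := cfst cD
    have cAa : ContinuousAt (fun p : ℝ × ℝ => P1 s ε p.1 - p.2) (1, 0) := by fun_prop
    have cAb : ContinuousAt (fun p : ℝ × ℝ => P2 s ε p.1 - (p.1 / 2) ^ 2 * p.2) (1, 0) := by fun_prop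
    have cCab : ContinuousAt (fun p : ℝ × ℝ => (P1 s ε p.1 + P2 s ε p.1 - D12 s ε p.1) / 2 + (p.1 / 2) * p.2)
        (1, 0) := by fun_prop
    have hne : P1 s ε 1 - 0 ≠ 0 := by have := h.P1_pos; simpa using this.ne'
    have cc1 : ContinuousAt (c1 s ε) (1, 0) := cCab.div cAa hne
    have cdisc : ContinuousAt (disc s ε) (1, 0) := (cAb.div cAa hne).sub (cc1.pow 2)
    have a1 : ∀ᶠ p in 𝓝 ((1 : ℝ), (0 : ℝ)), 0 < P1 s ε p.1 - p.2 :=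
      cAa.eventually (lt_mem_nhds (by simpa using h.P1_pos))
    have a2 : ∀ᶠ p in 𝓝 ((1 : ℝ), (0 : ℝ)), 0 < disc s ε p :=
      cdisc.eventually (lt_mem_nhds h.disc_pos)
    exact a1.and a2
  obtain ⟨ρ, hρ, hball⟩ := Metric.eventually_nhds_iff_ball.mp hdisc2
  obtain ⟨r₂, hr₂, hr₂le, hr₂p⟩ := exists_r_of_eventually (ev2.and (ev3.and ev4))
  -- final radius
  set r := min (min r₂ (r₀ / 2)) ρ with hr
  have hrpos : 0 < r := by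
    rw [hr]; exact lt_min (lt_min hr₂ (by positivity)) hρ
  have hr1 : r ≤ r₂ := (min_le_left _ _).trans (min_le_left _ _)
  have hr2 : r ≤ r₀ / 2 := (min_le_left _ _).trans (min_le_right _ _)
  have hr3 : r ≤ ρ := min_le_right _ _
  have hr4 : r ≤ 1 / 2 := hr1.trans hr₂le
  have subJ₂ : Ioo (1 - r) (1 + r) ⊆ Ioo (1 - r₂) (1 + r₂) := fun x hx =>
    ⟨by linarith [hx.1], by linarith [hx.2]⟩
  have subJ₁ : Ioo (1 - r) (1 + r) ⊆ Ioo (1 - r₀ / 2) (1 + r₀ / 2) := fun x hx =>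
    ⟨by linarith [hx.1], by linarith [hx.2]⟩
  have subJ₀ : Ioo (1 - r) (1 + r) ⊆ Ioo (1 - r₀) (1 + r₀) := subJ₁.trans hsub₁
  have hJopen : IsOpen (Ioo (1 - r) (1 + r)) := isOpen_Ioo
  have hposJ : ∀ τ ∈ Ioo (1 - r) (1 + r), 0 < τ := fun τ hτ => hpos₀ τ (subJ₀ hτ)
  have hgood : GoodJ s ε (Ioo (1 - r) (1 + r)) :=
    { ord := ordConnected_Ioo
      one_mem := ⟨by linarith, by linarith⟩
      pos := hposJ
      abs_eps := hε1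
      cont2 := hc2.mono subJ₀
      cont3 := hc3.mono subJ₀
      mono2 := hmono2.mono subJ₀
      mono3 := hmono3.mono subJ₀ }
  obtain ⟨I1, hW1, hI1s, hI1l, hI1r⟩ := exists_inverse (f := P1 s ε) (f' := dP1 s ε) hJopen
    ((hanti1.mono subJ₀).injOn) (fun τ hτ => contDiffAt_P1 hε1 (hposJ τ hτ))
    (fun τ hτ => hasDerivAt_P1 hε1 (hposJ τ hτ)) (fun τ hτ => (hr₀p τ (subJ₀ hτ)).1.ne)
  obtain ⟨I2, hW2, hI2s, hI2l, hI2r⟩ := exists_inverse (f := P2 s ε) (f' := dP2 s ε) hJopen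
    ((hmono2.mono subJ₀).injOn) (fun τ hτ => contDiffAt_P2 hε1 (hposJ τ hτ))
    (fun τ hτ => hasDerivAt_P2 hε1 (hposJ τ hτ)) (fun τ hτ => (hr₀p τ (subJ₀ hτ)).2.1.ne')
  obtain ⟨I3, hW3, hI3s, hI3l, hI3r⟩ := exists_inverse (f := P3 s ε) (f' := dP2 s (-ε)) hJopen
    ((hmono3.mono subJ₀).injOn) (fun τ hτ => contDiffAt_P3 hε1 (hposJ τ hτ))
    (fun τ hτ => hasDerivAt_P3 hε1 (hposJ τ hτ)) (fun τ hτ => (hr₀p τ (subJ₀ hτ)).2.2.ne')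
  have hsep : ∀ τ ∈ Ioo (1 - r) (1 + r), P2 s ε τ < P1 s ε 1 - gap1 ∧
      P1 s ε 1 - gap1 < P1 s ε τ ∧ P1 s ε τ < P1 s ε 1 + gap2 ∧ P1 s ε 1 + gap2 < P3 s ε τ := by
    intro τ hτ
    obtain ⟨-, ⟨h1, h2, h3⟩, -⟩ := hr₂p τ (subJ₂ hτ)
    have h1' := lt_of_lt_of_le h1 (min_le_left _ _)
    have h1'' := lt_of_lt_of_le h1 (min_le_right _ _)
    rw [abs_lt] at h1' h1'' h2 h3
    have e1 : P1 s ε 1 - gap1 = P2 s ε 1 + gap1 := by rw [hgap1]; ring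
    have e2 : P1 s ε 1 + gap2 = P3 s ε 1 - gap2 := by rw [hgap2]; ring
    refine ⟨?_, ?_, ?_, ?_⟩
    · rw [e1]; linarith [h2.2]
    · linarith [h1'.1]
    · linarith [h1''.2]
    · rw [e2]; linarith [h3.1]
  refine ⟨{ r := r, rn := ρ, I1 := I1, I2 := I2, I3 := I3, r_pos := hrpos, r_le := hr4, rn_pos := hρ,
            good := hgood, W1_open := hW1, W2_open := hW2, W3_open := hW3, I1_smooth := hI1s,
            I2_smooth := hI2s, I3_smooth := hI3s, I1_left := hI1l, I2_left := hI2l, I3_left := hI3l,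
            I1_right := hI1r, I2_right := hI2r, I3_right := hI3r, disj12 := ?_, disj13 := ?_, disj23 := ?_,
            Aa_pos := ?_, disc_pos := ?_, cont_Y1 := hy1.mono subJ₁, cont_Y2 := hy2.mono subJ₁,
            cont_Y3 := hy3.mono subJ₁, bd1 := ?_, bd2 := ?_, bd3 := ?_, imp1 := ?_, imp2 := ?_ }⟩
  · intro τ hτ τ' hτ'
    have a := hsep τ hτ
    have b := hsep τ' hτ'
    intro he
    linarith [a.2.1, b.1]
  · intro τ hτ τ' hτ'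
    have a := hsep τ hτ
    have b := hsep τ' hτ'
    intro he
    linarith [a.2.2.1, b.2.2.2]
  · intro τ hτ τ' hτ'
    have a := hsep τ hτ
    have b := hsep τ' hτ'
    intro he
    have : P1 s ε 1 - gap1 < P1 s ε 1 + gap2 := by linarith
    linarith [a.1, b.2.2.2]
  · intro τ hτ n hn
    have hmem : (τ, n) ∈ Metric.ball ((1 : ℝ), (0 : ℝ)) ρ := by
      rw [Metric.mem_ball, Prod.dist_eq]
      simp only [Real.dist_eq, sub_zero]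
      refine max_lt ?_ hn
      rw [abs_lt]
      exact ⟨by linarith [hτ.1], by linarith [hτ.2]⟩
    exact (hball _ hmem).1
  · intro τ hτ n hn
    have hmem : (τ, n) ∈ Metric.ball ((1 : ℝ), (0 : ℝ)) ρ := by
      rw [Metric.mem_ball, Prod.dist_eq]
      simp only [Real.dist_eq, sub_zero]
      refine max_lt ?_ hn
      rw [abs_lt]
      exact ⟨by linarith [hτ.1], by linarith [hτ.2]⟩
    exact (hball _ hmem).2
  · intro τ hτ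
    obtain ⟨⟨h1, -, -⟩, -, -⟩ := hr₂p τ (subJ₂ hτ)
    rw [Y1one] at h1
    have hb := h.bound
    have h3 : |Y1 s ε 0 (vc s ε) τ| ≤ |Y1 s ε 0 (vc s ε) τ - va s ε| + |va s ε| := by
      have := abs_add_le (Y1 s ε 0 (vc s ε) τ - va s ε) (va s ε)
      simpa using this
    have := abs_nonneg (vc s ε)
    linarith
  · intro τ hτ
    obtain ⟨⟨-, h1, -⟩, -, -⟩ := hr₂p τ (subJ₂ hτ)
    rw [Y2one, sub_zero] at h1
    have hb := h.bound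
    have := abs_nonneg (vc s ε)
    have := abs_nonneg (va s ε)
    linarith
  · intro τ hτ
    obtain ⟨⟨-, -, h1⟩, -, -⟩ := hr₂p τ (subJ₂ hτ)
    rw [Y3one] at h1
    have hb := h.bound
    have h3 : |Y3 s ε (vc s ε) τ| ≤ |Y3 s ε (vc s ε) τ - vc s ε| + |vc s ε| := by
      have := abs_add_le (Y3 s ε (vc s ε) τ - vc s ε) (vc s ε)
      simpa using this
    have := abs_nonneg (va s ε)
    linarith
  · intro τ₁ h₁ τ₂ h₂ τ₃ h₃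
    obtain ⟨-, -, ha, -, -, -⟩ := hr₂p τ₁ (subJ₂ h₁)
    obtain ⟨-, -, -, hb, -, -⟩ := hr₂p τ₂ (subJ₂ h₂)
    obtain ⟨-, -, -, hc, -, -⟩ := hr₂p τ₃ (subJ₂ h₃)
    rw [abs_lt] at ha hb hc
    have base : A1 1 + B1 1 + B1 1 = psi s (1 * (1 + ε)) + psi s (1 * (1 + ε)) + psi s ((1 + ε) * (1 + ε))
        - Delta s ε / 2 := by
      simp only [hA1, hB1, Y1one, Y2one]
      unfold va L1 LB
      ring
    have : LB s 1 (1 + ε) (1 + ε) (P1 s ε τ₁) (P2 s ε τ₂) (P2 s ε τ₃) - (Y1 s ε 0 (vc s ε) τ₁ + Y2 s ε 0 τ₂ + Y2 s ε 0 τ₃)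
        = psi s (1 * (1 + ε)) + psi s (1 * (1 + ε)) + psi s ((1 + ε) * (1 + ε)) - (A1 τ₁ + B1 τ₂ + B1 τ₃) := by
      simp only [hA1, hB1]
      unfold LB
      ring
    have h5 : A1 τ₁ + B1 τ₂ + B1 τ₃ < A1 1 + B1 1 + B1 1 + 3 * (Delta s ε / 8) := by
      linarith [ha.2, hb.2, hc.2]
    linarith
  · intro τ₁ h₁ τ₂ h₂ τ₃ h₃
    obtain ⟨-, -, -, -, ha, -⟩ := hr₂p τ₁ (subJ₂ h₁)
    obtain ⟨-, -, -, -, -, hb⟩ := hr₂p τ₂ (subJ₂ h₂)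
    obtain ⟨-, -, -, -, -, hc⟩ := hr₂p τ₃ (subJ₂ h₃)
    rw [abs_lt] at ha hb hc
    have base : A2 1 + B2 1 + B2 1 = psi s (1 * (1 - ε)) + psi s (1 * (1 - ε)) + psi s ((1 - ε) * (1 - ε))
        - Delta s ε / 2 := by
      simp only [hA2, hB2, Y1one, Y3one]
      unfold vc va Delta L2 LB
      unfold L1 LB
      ring
    have : LB s 1 (1 - ε) (1 - ε) (P1 s ε τ₁) (P3 s ε τ₂) (P3 s ε τ₃) - (Y1 s ε 0 (vc s ε) τ₁ + Y3 s ε (vc s ε) τ₂ + Y3 s ε (vc s ε) τ₃)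
        = psi s (1 * (1 - ε)) + psi s (1 * (1 - ε)) + psi s ((1 - ε) * (1 - ε)) - (A2 τ₁ + B2 τ₂ + B2 τ₃) := by
      simp only [hA2, hB2]
      unfold LB
      ring
    have h5 : A2 τ₁ + B2 τ₂ + B2 τ₃ < A2 1 + B2 1 + B2 1 + 3 * (Delta s ε / 8) := by
      linarith [ha.2, hb.2, hc.2]
    linarith

end Crest.Agent.Lib.SCE
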