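import Crest.Agent.Lib.SCE.Spec

/-!
# S0175: twist maps.
-/

set_option autoImplicit false
set_option linter.unusedSectionVars false
set_option linter.unusedVariables false

open MeasureTheory Set
open scoped ENNReal ContDiff NNReal

namespace Crest.Agent.Lib.SCE

/-- a distinguished plane with a rotation by a right angle. -/
structure PlaneOps (F : Type*) [NormedAddCommGroup F] [InnerProductSpace ℝ F] where
  Q : F →L[ℝ] F
  J : F →L[ℝ] F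
  QQ : ∀ x, Q (Q x) = Q x
  Q_symm : ∀ x y, inner ℝ (Q x) y = inner ℝ x (Q y)
  JQ : ∀ x, J (Q x) = J x
  QJ : ∀ x, Q (J x) = J x
  JJ : ∀ x, J (J x) = - Q x
  J_skew : ∀ x y, inner ℝ (J x) y = - inner ℝ x (J y)
  decomp : ∀ y y', Q y = y → Q y' = y' → (‖y‖ ^ 2) • y' = inner ℝ y' y • y + inner ℝ y' (J y) • J y

variable {F : Type*} [NormedAddCommGroup F] [InnerProductSpace ℝ F] (P : PlaneOps F)

namespace PlaneOps

/-- the part orthogonal to the plane. -/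
def perp (x : F) : F := x - P.Q x

lemma Q_perp (x : F) : P.Q (P.perp x) = 0 := by
  unfold perp; rw [map_sub, P.QQ, sub_self]

lemma Q_add_perp (x : F) : P.Q x + P.perp x = x := by
  unfold perp; abel

lemma inner_Q_perp (x y : F) : inner ℝ (P.Q x) (P.perp y) = 0 := by
  rw [P.Q_symm, Q_perp, inner_zero_right]

lemma norm_sq_split (x : F) : ‖x‖ ^ 2 = ‖P.Q x‖ ^ 2 + ‖P.perp x‖ ^ 2 := by
  conv_lhs => rw [← P.Q_add_perp x]
  rw [norm_add_sq_real, inner_Q_perp]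
  ring

lemma inner_split (x y : F) : inner ℝ x y = inner ℝ (P.Q x) (P.Q y) + inner ℝ (P.perp x) (P.perp y) := by
  conv_lhs => rw [← P.Q_add_perp x, ← P.Q_add_perp y]
  rw [inner_add_left, inner_add_right, inner_add_right, inner_Q_perp, real_inner_comm (P.Q y) (P.perp x), inner_Q_perp]
  ring

lemma inner_J_self (x : F) : inner ℝ (P.J x) x = 0 := by
  have h := P.J_skew x x
  rw [real_inner_comm x (P.J x)] at h ⊢
  linarith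

lemma inner_J_Q (x : F) : inner ℝ (P.J x) (P.Q x) = 0 := by
  rw [← P.Q_symm, P.QJ, inner_J_self]

lemma inner_Q_J (x : F) : inner ℝ (P.Q x) (P.J x) = 0 := by
  rw [real_inner_comm, inner_J_Q]

lemma norm_J_sq (x : F) : ‖P.J x‖ ^ 2 = ‖P.Q x‖ ^ 2 := by
  have h1 : ‖P.J x‖ ^ 2 = inner ℝ (P.J x) (P.J x) := (real_inner_self_eq_norm_sq _).symm
  rw [h1, P.J_skew, P.JJ, inner_neg_right, neg_neg]
  have h2 : inner ℝ x (P.Q x) = inner ℝ (P.Q x) (P.Q x) := by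
    rw [P.Q_symm (x := x), P.QQ]
  rw [h2, real_inner_self_eq_norm_sq]

lemma Q_J_perp (x : F) : P.J (P.perp x) = 0 := by
  unfold perp; rw [map_sub, P.JQ, sub_self]

/-- twist map with frozen coefficients. -/
def tw (a b c : ℝ) (x : F) : F := a • P.Q x + b • P.J x - c • P.perp x

/-- inverse twist map with frozen coefficients. -/
noncomputable def twi (a b c : ℝ) (x : F) : F :=
  (a ^ 2 + b ^ 2)⁻¹ • (a • P.Q x - b • P.J x) - c⁻¹ • P.perp x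

lemma Q_tw (a b c : ℝ) (x : F) : P.Q (P.tw a b c x) = a • P.Q x + b • P.J x := by
  unfold tw
  simp only [map_sub, map_add, map_smul, P.QQ, P.QJ, Q_perp, smul_zero, sub_zero]

lemma J_tw (a b c : ℝ) (x : F) : P.J (P.tw a b c x) = a • P.J x - b • P.Q x := by
  unfold tw
  simp only [map_sub, map_add, map_smul, P.JQ, P.JJ, Q_J_perp, smul_zero, sub_zero, smul_neg]
  abel

lemma perp_tw (a b c : ℝ) (x : F) : P.perp (P.tw a b c x) = -(c • P.perp x) := by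
  have h : P.perp (P.tw a b c x) = P.tw a b c x - P.Q (P.tw a b c x) := rfl
  rw [h, Q_tw]
  unfold tw
  abel

lemma twi_tw {a b c : ℝ} (hab : a ^ 2 + b ^ 2 ≠ 0) (hc : c ≠ 0) (x : F) :
    P.twi a b c (P.tw a b c x) = x := by
  unfold twi
  rw [Q_tw, J_tw, perp_tw]
  have e1 : a • (a • P.Q x + b • P.J x) - b • (a • P.J x - b • P.Q x) = (a ^ 2 + b ^ 2) • P.Q x := by
    simp only [smul_add, smul_sub, smul_smul]
    rw [mul_comm b a, add_smul]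
    have : a * a = a ^ 2 := by ring
    have h2 : b * b = b ^ 2 := by ring
    rw [this, h2]
    abel
  rw [e1, smul_smul, inv_mul_cancel₀ hab, one_smul, smul_neg, smul_smul, inv_mul_cancel₀ hc, one_smul,
    sub_neg_eq_add, Q_add_perp]

lemma norm_perp_tw (a b c : ℝ) (x : F) : ‖P.perp (P.tw a b c x)‖ ^ 2 = c ^ 2 * ‖P.perp x‖ ^ 2 := by
  rw [perp_tw, norm_neg, norm_smul, mul_pow]
  simp

lemma norm_Q_tw (a b c : ℝ) (x : F) : ‖P.Q (P.tw a b c x)‖ ^ 2 = (a ^ 2 + b ^ 2) * ‖P.Q x‖ ^ 2 := by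
  rw [Q_tw, norm_add_sq_real, norm_smul, norm_smul, real_inner_smul_left, real_inner_smul_right,
    inner_Q_J, mul_pow, mul_pow, norm_J_sq]
  simp only [Real.norm_eq_abs, sq_abs, mul_zero]
  ring

lemma norm_tw (a b c : ℝ) (x : F) :
    ‖P.tw a b c x‖ ^ 2 = (a ^ 2 + b ^ 2) * ‖P.Q x‖ ^ 2 + c ^ 2 * ‖P.perp x‖ ^ 2 := by
  rw [P.norm_sq_split (P.tw a b c x), norm_Q_tw, norm_perp_tw]

lemma inner_tw (a b c : ℝ) (x : F) :
    inner ℝ x (P.tw a b c x) = a * ‖P.Q x‖ ^ 2 - c * ‖P.perp x‖ ^ 2 := by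
  rw [P.inner_split x (P.tw a b c x), Q_tw, perp_tw, inner_add_right, real_inner_smul_right,
    real_inner_smul_right, inner_Q_J, inner_neg_right, real_inner_smul_right,
    real_inner_self_eq_norm_sq, real_inner_self_eq_norm_sq]
  ring

/-- continuity / smoothness of the twist map in all its arguments. -/
lemma contDiffAt_tw {G : Type*} [NormedAddCommGroup G] [NormedSpace ℝ G] {x₀ : F}
    {a b c : F → ℝ} (ha : ContDiffAt ℝ ∞ a x₀) (hb : ContDiffAt ℝ ∞ b x₀) (hc : ContDiffAt ℝ ∞ c x₀) :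
    ContDiffAt ℝ ∞ (fun x => P.tw (a x) (b x) (c x) x) x₀ := by
  unfold tw perp
  have hQ : ContDiffAt ℝ ∞ (fun x => P.Q x) x₀ := P.Q.contDiff.contDiffAt
  have hJ : ContDiffAt ℝ ∞ (fun x => P.J x) x₀ := P.J.contDiff.contDiffAt
  exact ((ha.smul hQ).add (hb.smul hJ)).sub (hc.smul (contDiffAt_id.sub hQ))

lemma contDiffAt_twi {x₀ : F}
    {a b c : F → ℝ} (ha : ContDiffAt ℝ ∞ a x₀) (hb : ContDiffAt ℝ ∞ b x₀) (hc : ContDiffAt ℝ ∞ c x₀)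
    (hab : a x₀ ^ 2 + b x₀ ^ 2 ≠ 0) (hc0 : c x₀ ≠ 0) :
    ContDiffAt ℝ ∞ (fun x => P.twi (a x) (b x) (c x) x) x₀ := by
  unfold twi perp
  have hQ : ContDiffAt ℝ ∞ (fun x => P.Q x) x₀ := P.Q.contDiff.contDiffAt
  have hJ : ContDiffAt ℝ ∞ (fun x => P.J x) x₀ := P.J.contDiff.contDiffAt
  refine (((ha.pow 2).add (hb.pow 2)).inv hab).smul ((ha.smul hQ).sub (hb.smul hJ)) |>.sub ?_
  exact (hc.inv hc0).smul (contDiffAt_id.sub hQ)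

end PlaneOps

/-- Data of a parametrized twist map. `a b : ℝ × ℝ → ℝ` are coefficients in terms of `(τ, n)`,
`c` the scaling of the orthogonal part. -/
structure TwistData where
  /-- parameter interval. -/
  Jt : Set ℝ
  /-- bound on `n`. -/
  rn : ℝ
  /-- source radial function -/
  Psrc : ℝ → ℝ
  /-- target radial function -/
  Ptgt : ℝ → ℝ
  Isrc : ℝ → ℝ
  Itgt : ℝ → ℝ
  Wsrc : Set ℝ
  Wtgt : Set ℝ
  a : ℝ × ℝ → ℝ
  b : ℝ × ℝ → ℝ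
  c : ℝ → ℝ
  Wsrc_open : IsOpen Wsrc
  Wtgt_open : IsOpen Wtgt
  Isrc_smooth : ContDiffOn ℝ ∞ Isrc Wsrc
  Itgt_smooth : ContDiffOn ℝ ∞ Itgt Wtgt
  Isrc_mem : ∀ t ∈ Wsrc, Isrc t ∈ Jt
  Itgt_mem : ∀ t ∈ Wtgt, Itgt t ∈ Jt
  Psrc_Isrc : ∀ t ∈ Wsrc, Psrc (Isrc t) = t
  Ptgt_mem : ∀ τ ∈ Jt, Ptgt τ ∈ Wtgt
  Itgt_Ptgt : ∀ τ ∈ Jt, Itgt (Ptgt τ) = τ
  a_smooth : ∀ τ ∈ Jt, ∀ n, |n| < rn → ContDiffAt ℝ ∞ a (τ, n)
  b_smooth : ∀ τ ∈ Jt, ∀ n, |n| < rn → ContDiffAt ℝ ∞ b (τ, n)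
  c_smooth : ∀ τ ∈ Jt, ContDiffAt ℝ ∞ c τ
  c_pos : ∀ τ ∈ Jt, 0 < c τ
  ab_pos : ∀ τ ∈ Jt, ∀ n, |n| < rn → 0 < a (τ, n) ^ 2 + b (τ, n) ^ 2
  radial : ∀ τ ∈ Jt, ∀ n, |n| < rn →
    (a (τ, n) ^ 2 + b (τ, n) ^ 2) * (Psrc τ - n) + c τ ^ 2 * n = Ptgt τ

namespace TwistData

variable {P} (T : TwistData)

/-- the source domain -/
def U (P : PlaneOps F) (T : TwistData) : Set F := {x | ‖x‖ ^ 2 ∈ T.Wsrc ∧ |‖P.perp x‖ ^ 2| < T.rn}

/-- the target domain -/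
def V (P : PlaneOps F) (T : TwistData) : Set F :=
  {x | ‖x‖ ^ 2 ∈ T.Wtgt ∧ |‖P.perp x‖ ^ 2 / T.c (T.Itgt (‖x‖ ^ 2)) ^ 2| < T.rn}

/-- the map. -/
noncomputable def toFun (P : PlaneOps F) (T : TwistData) (x : F) : F :=
  P.tw (T.a (T.Isrc (‖x‖ ^ 2), ‖P.perp x‖ ^ 2)) (T.b (T.Isrc (‖x‖ ^ 2), ‖P.perp x‖ ^ 2))
    (T.c (T.Isrc (‖x‖ ^ 2))) x

/-- the left inverse. -/
noncomputable def invFun (P : PlaneOps F) (T : TwistData) (x : F) : F :=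
  P.twi (T.a (T.Itgt (‖x‖ ^ 2), ‖P.perp x‖ ^ 2 / T.c (T.Itgt (‖x‖ ^ 2)) ^ 2))
    (T.b (T.Itgt (‖x‖ ^ 2), ‖P.perp x‖ ^ 2 / T.c (T.Itgt (‖x‖ ^ 2)) ^ 2))
    (T.c (T.Itgt (‖x‖ ^ 2))) x

private lemma contDiff_normsq : ContDiff ℝ ∞ (fun x : F => ‖x‖ ^ 2) := contDiff_norm_sq ℝ

private lemma contDiff_perpsq (P : PlaneOps F) : ContDiff ℝ ∞ (fun x : F => ‖P.perp x‖ ^ 2) := by
  have : ContDiff ℝ ∞ (fun x : F => P.perp x) := by
    unfold PlaneOps.perp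
    exact contDiff_id.sub P.Q.contDiff
  exact (contDiff_norm_sq ℝ).comp this

lemma isOpen_U : IsOpen (U P T) := by
  have h1 : IsOpen {x : F | ‖x‖ ^ 2 ∈ T.Wsrc} :=
    T.Wsrc_open.preimage (contDiff_normsq (F := F)).continuous
  have h2 : IsOpen {x : F | |‖P.perp x‖ ^ 2| < T.rn} :=
    isOpen_lt ((contDiff_perpsq P).continuous.abs) continuous_const
  exact h1.inter h2

lemma isOpen_V : IsOpen (V P T) := by
  -- the map `x ↦ n'` is continuous on the open set `{‖x‖² ∈ Wtgt}`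
  have h1 : IsOpen {x : F | ‖x‖ ^ 2 ∈ T.Wtgt} :=
    T.Wtgt_open.preimage (contDiff_normsq (F := F)).continuous
  have hcont : ContinuousOn (fun x : F => |‖P.perp x‖ ^ 2 / T.c (T.Itgt (‖x‖ ^ 2)) ^ 2|)
      {x : F | ‖x‖ ^ 2 ∈ T.Wtgt} := by
    intro x hx
    have hx' : ‖x‖ ^ 2 ∈ T.Wtgt := hx
    have hI : ContinuousAt T.Itgt (‖x‖ ^ 2) :=
      (T.Itgt_smooth.contDiffAt (T.Wtgt_open.mem_nhds hx')).continuousAt
    have hc : ContinuousAt T.c (T.Itgt (‖x‖ ^ 2)) :=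
      (T.c_smooth _ (T.Itgt_mem _ hx')).continuousAt
    have hcomp : ContinuousAt (fun x : F => T.Itgt (‖x‖ ^ 2)) x :=
      ContinuousAt.comp (f := fun x : F => ‖x‖ ^ 2) hI (contDiff_normsq (F := F)).continuous.continuousAt
    have hcomp2 : ContinuousAt (fun x : F => T.c (T.Itgt (‖x‖ ^ 2))) x :=
      ContinuousAt.comp (f := fun x : F => T.Itgt (‖x‖ ^ 2)) hc hcomp
    have hne : T.c (T.Itgt (‖x‖ ^ 2)) ^ 2 ≠ 0 := by
      have := T.c_pos _ (T.Itgt_mem _ hx')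
      positivity
    have hdiv : ContinuousAt (fun x : F => ‖P.perp x‖ ^ 2 / T.c (T.Itgt (‖x‖ ^ 2)) ^ 2) x :=
      ((contDiff_perpsq P).continuous.continuousAt).div (hcomp2.pow 2) hne
    exact hdiv.abs.continuousWithinAt
  have := hcont.isOpen_inter_preimage h1 (isOpen_Iio (a := T.rn))
  convert this using 1
  ext x
  simp only [V, mem_ofPred_eq, mem_inter_iff, mem_preimage, mem_Iio]

lemma contDiffOn_toFun : ContDiffOn ℝ ∞ (toFun P T) (U P T) := by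
  intro x hx
  have hx1 : ‖x‖ ^ 2 ∈ T.Wsrc := hx.1
  have hx2 : |‖P.perp x‖ ^ 2| < T.rn := hx.2
  have hI : ContDiffAt ℝ ∞ T.Isrc (‖x‖ ^ 2) := T.Isrc_smooth.contDiffAt (T.Wsrc_open.mem_nhds hx1)
  have hτ : ContDiffAt ℝ ∞ (fun x : F => T.Isrc (‖x‖ ^ 2)) x :=
    ContDiffAt.comp (f := fun x : F => ‖x‖ ^ 2) x hI (contDiff_normsq (F := F)).contDiffAt
  have hn : ContDiffAt ℝ ∞ (fun x : F => ‖P.perp x‖ ^ 2) x := (contDiff_perpsq P).contDiffAt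
  have hpair := hτ.prodMk hn
  have hmem := T.Isrc_mem _ hx1
  have ha : ContDiffAt ℝ ∞ (fun x : F => T.a (T.Isrc (‖x‖ ^ 2), ‖P.perp x‖ ^ 2)) x :=
    ContDiffAt.comp x (T.a_smooth _ hmem _ hx2) hpair
  have hb : ContDiffAt ℝ ∞ (fun x : F => T.b (T.Isrc (‖x‖ ^ 2), ‖P.perp x‖ ^ 2)) x :=
    ContDiffAt.comp x (T.b_smooth _ hmem _ hx2) hpair
  have hc : ContDiffAt ℝ ∞ (fun x : F => T.c (T.Isrc (‖x‖ ^ 2))) x :=
    ContDiffAt.comp x (T.c_smooth _ hmem) hτ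
  exact (PlaneOps.contDiffAt_tw (G := ℝ) P ha hb hc).contDiffWithinAt

lemma contDiffOn_invFun : ContDiffOn ℝ ∞ (invFun P T) (V P T) := by
  intro x hx
  have hx1 : ‖x‖ ^ 2 ∈ T.Wtgt := hx.1
  have hx2 : |‖P.perp x‖ ^ 2 / T.c (T.Itgt (‖x‖ ^ 2)) ^ 2| < T.rn := hx.2
  have hI : ContDiffAt ℝ ∞ T.Itgt (‖x‖ ^ 2) := T.Itgt_smooth.contDiffAt (T.Wtgt_open.mem_nhds hx1)
  have hτ : ContDiffAt ℝ ∞ (fun x : F => T.Itgt (‖x‖ ^ 2)) x :=
    ContDiffAt.comp (f := fun x : F => ‖x‖ ^ 2) x hI (contDiff_normsq (F := F)).contDiffAt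
  have hmem := T.Itgt_mem _ hx1
  have hc : ContDiffAt ℝ ∞ (fun x : F => T.c (T.Itgt (‖x‖ ^ 2))) x :=
    ContDiffAt.comp x (T.c_smooth _ hmem) hτ
  have hcpos := T.c_pos _ hmem
  have hn : ContDiffAt ℝ ∞ (fun x : F => ‖P.perp x‖ ^ 2 / T.c (T.Itgt (‖x‖ ^ 2)) ^ 2) x :=
    (contDiff_perpsq P).contDiffAt.div (hc.pow 2) (by positivity)
  have hpair := hτ.prodMk hn
  have ha : ContDiffAt ℝ ∞ (fun x : F => T.a (T.Itgt (‖x‖ ^ 2), ‖P.perp x‖ ^ 2 / T.c (T.Itgt (‖x‖ ^ 2)) ^ 2)) x :=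
    ContDiffAt.comp x (T.a_smooth _ hmem _ hx2) hpair
  have hb : ContDiffAt ℝ ∞ (fun x : F => T.b (T.Itgt (‖x‖ ^ 2), ‖P.perp x‖ ^ 2 / T.c (T.Itgt (‖x‖ ^ 2)) ^ 2)) x :=
    ContDiffAt.comp x (T.b_smooth _ hmem _ hx2) hpair
  exact (PlaneOps.contDiffAt_twi P ha hb hc (T.ab_pos _ hmem _ hx2).ne' hcpos.ne').contDiffWithinAt

/-- parameters of the image point. -/
lemma norm_toFun {x : F} (hx : x ∈ U P T) :
    ‖toFun P T x‖ ^ 2 = T.Ptgt (T.Isrc (‖x‖ ^ 2)) := by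
  have hx1 : ‖x‖ ^ 2 ∈ T.Wsrc := hx.1
  have hx2 : |‖P.perp x‖ ^ 2| < T.rn := hx.2
  have hmem := T.Isrc_mem _ hx1
  unfold toFun
  rw [PlaneOps.norm_tw, ← T.radial _ hmem _ hx2, T.Psrc_Isrc _ hx1, P.norm_sq_split x]
  ring

lemma norm_perp_toFun {x : F} :
    ‖P.perp (toFun P T x)‖ ^ 2 = T.c (T.Isrc (‖x‖ ^ 2)) ^ 2 * ‖P.perp x‖ ^ 2 := by
  unfold toFun
  rw [PlaneOps.norm_perp_tw]

lemma mapsTo_toFun : MapsTo (toFun P T) (U P T) (V P T) := by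
  intro x hx
  have hx1 : ‖x‖ ^ 2 ∈ T.Wsrc := hx.1
  have hx2 : |‖P.perp x‖ ^ 2| < T.rn := hx.2
  have hmem := T.Isrc_mem _ hx1
  have hn := norm_toFun (P := P) (T := T) hx
  have hp := norm_perp_toFun (P := P) (T := T) (x := x)
  have hc := T.c_pos _ hmem
  refine ⟨?_, ?_⟩
  · rw [hn]; exact T.Ptgt_mem _ hmem
  · rw [hn, T.Itgt_Ptgt _ hmem, hp]
    have e : T.c (T.Isrc (‖x‖ ^ 2)) ^ 2 * ‖P.perp x‖ ^ 2 / T.c (T.Isrc (‖x‖ ^ 2)) ^ 2 = ‖P.perp x‖ ^ 2 := by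
      field_simp
    rw [e]
    exact hx2

lemma left_inv_toFun {x : F} (hx : x ∈ U P T) : invFun P T (toFun P T x) = x := by
  have hx1 : ‖x‖ ^ 2 ∈ T.Wsrc := hx.1
  have hx2 : |‖P.perp x‖ ^ 2| < T.rn := hx.2
  have hmem := T.Isrc_mem _ hx1
  have hn := norm_toFun (P := P) (T := T) hx
  have hp := norm_perp_toFun (P := P) (T := T) (x := x)
  have hc := T.c_pos _ hmem
  unfold invFun
  rw [hn, T.Itgt_Ptgt _ hmem, hp]
  have e : T.c (T.Isrc (‖x‖ ^ 2)) ^ 2 * ‖P.perp x‖ ^ 2 / T.c (T.Isrc (‖x‖ ^ 2)) ^ 2 = ‖P.perp x‖ ^ 2 := by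
    field_simp
  rw [e]
  exact PlaneOps.twi_tw P (T.ab_pos _ hmem _ hx2).ne' hc.ne' x

end TwistData

end Crest.Agent.Lib.SCE
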