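import Crest.Agent.Lib.SCE.Local
import Crest.Agent.Lib.SCE.Twist

/-!
# S0175: the four maps.
-/

set_option autoImplicit false
set_option linter.unusedSectionVars false
set_option linter.unusedVariables false

open MeasureTheory Set Filter Topology
open scoped ENNReal ContDiff NNReal Interval

namespace Crest.Agent.Lib.SCE

variable {s ε U : ℝ}

section coeffs

variable {τ n : ℝ}

lemma contDiffAt_c1 (hε : |ε| < 1) (hτ : 0 < τ) (hne : P1 s ε τ - n ≠ 0) :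
    ContDiffAt ℝ ∞ (c1 s ε) (τ, n) := by
  have h1 : ContDiffAt ℝ ∞ (fun p : ℝ × ℝ => p.1) (τ, n) := contDiffAt_fst
  have h2 : ContDiffAt ℝ ∞ (fun p : ℝ × ℝ => p.2) (τ, n) := contDiffAt_snd
  have a : ContDiffAt ℝ ∞ (fun p : ℝ × ℝ => P1 s ε p.1) (τ, n) :=
    ContDiffAt.comp (τ, n) (contDiffAt_P1 hε hτ) h1
  have b : ContDiffAt ℝ ∞ (fun p : ℝ × ℝ => P2 s ε p.1) (τ, n) :=
    ContDiffAt.comp (τ, n) (contDiffAt_P2 hε hτ) h1
  have d : ContDiffAt ℝ ∞ (fun p : ℝ × ℝ => D12 s ε p.1) (τ, n) :=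
    ContDiffAt.comp (g := D12 s ε) (f := fun p : ℝ × ℝ => p.1) (τ, n) (contDiffAt_D12 hε hτ) h1
  unfold c1
  exact ((((a.add b).sub d).div_const 2).add ((h1.div_const 2).mul h2)).div (a.sub h2) hne

lemma contDiffAt_disc (hε : |ε| < 1) (hτ : 0 < τ) (hne : P1 s ε τ - n ≠ 0) :
    ContDiffAt ℝ ∞ (disc s ε) (τ, n) := by
  have h1 : ContDiffAt ℝ ∞ (fun p : ℝ × ℝ => p.1) (τ, n) := contDiffAt_fst
  have h2 : ContDiffAt ℝ ∞ (fun p : ℝ × ℝ => p.2) (τ, n) := contDiffAt_snd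
  have a : ContDiffAt ℝ ∞ (fun p : ℝ × ℝ => P1 s ε p.1) (τ, n) :=
    ContDiffAt.comp (τ, n) (contDiffAt_P1 hε hτ) h1
  have b : ContDiffAt ℝ ∞ (fun p : ℝ × ℝ => P2 s ε p.1) (τ, n) :=
    ContDiffAt.comp (τ, n) (contDiffAt_P2 hε hτ) h1
  unfold disc
  exact ((b.sub (((h1.div_const 2).pow 2).mul h2)).div (a.sub h2) hne).sub
    ((contDiffAt_c1 hε hτ hne).pow 2)

lemma contDiffAt_s1 (hε : |ε| < 1) (hτ : 0 < τ) (hne : P1 s ε τ - n ≠ 0) (hd : 0 < disc s ε (τ, n)) :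
    ContDiffAt ℝ ∞ (s1 s ε) (τ, n) := by
  unfold s1
  exact (contDiffAt_disc hε hτ hne).sqrt hd.ne'

lemma contDiffAt_c2 (hε : |ε| < 1) (hτ : 0 < τ) (hne : P1 s ε τ - n ≠ 0) :
    ContDiffAt ℝ ∞ (c2 s ε) (τ, n) := by
  have h1 : ContDiffAt ℝ ∞ (fun p : ℝ × ℝ => p.1) (τ, n) := contDiffAt_fst
  unfold c2
  exact ((h1.add (contDiffAt_const.mul (contDiffAt_c1 hε hτ hne))).neg).div_const _

lemma contDiffAt_s2 (hε : |ε| < 1) (hτ : 0 < τ) (hne : P1 s ε τ - n ≠ 0) (hd : 0 < disc s ε (τ, n)) :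
    ContDiffAt ℝ ∞ (s2 s ε) (τ, n) := by
  unfold s2
  exact ((contDiffAt_const.mul (contDiffAt_s1 hε hτ hne hd)).neg).div_const _

lemma s1_pos (hd : 0 < disc s ε (τ, n)) : 0 < s1 s ε (τ, n) := Real.sqrt_pos.mpr hd

lemma s1_sq (hd : 0 < disc s ε (τ, n)) : s1 s ε (τ, n) ^ 2 = disc s ε (τ, n) := Real.sq_sqrt hd.le

lemma c1_mul (hne : P1 s ε τ - n ≠ 0) :
    c1 s ε (τ, n) * (P1 s ε τ - n) = (P1 s ε τ + P2 s ε τ - D12 s ε τ) / 2 + (τ / 2) * n := by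
  unfold c1
  simp only
  field_simp

lemma c1s1_mul (hne : P1 s ε τ - n ≠ 0) (hd : 0 < disc s ε (τ, n)) :
    (c1 s ε (τ, n) ^ 2 + s1 s ε (τ, n) ^ 2) * (P1 s ε τ - n) = P2 s ε τ - (τ / 2) ^ 2 * n := by
  rw [s1_sq hd]
  unfold disc
  simp only
  field_simp
  ring

/-- algebraic form of the third radius. -/
lemma P3_identity (hε : |ε| < 1) (hτ : 0 < τ) :
    (1 - ε) ^ 2 * P3 s ε τ = τ ^ 2 * P1 s ε τ + τ * (1 + ε) * (P1 s ε τ + P2 s ε τ - D12 s ε τ)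
      + (1 + ε) ^ 2 * P2 s ε τ := by
  have h2 : τ + 2 ≠ 0 := by positivity
  unfold P1 P2 P3
  generalize D12 s ε τ = a
  generalize D13 s ε τ = b
  generalize D23 s ε = c
  field_simp
  ring

lemma radial2 (σ : ℝ) (hσ : σ ^ 2 = 1) (hne : P1 s ε τ - n ≠ 0) (hd : 0 < disc s ε (τ, n)) :
    (c1 s ε (τ, n) ^ 2 + (σ * s1 s ε (τ, n)) ^ 2) * (P1 s ε τ - n) + (τ / 2) ^ 2 * n = P2 s ε τ := by
  have h := c1s1_mul hne hd
  rw [mul_pow, hσ, one_mul]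
  linarith

lemma radial3 (hε : |ε| < 1) (hτ : 0 < τ) (σ : ℝ) (hσ : σ ^ 2 = 1) (hne : P1 s ε τ - n ≠ 0)
    (hd : 0 < disc s ε (τ, n)) :
    (c2 s ε (τ, n) ^ 2 + (σ * s2 s ε (τ, n)) ^ 2) * (P1 s ε τ - n) + (τ / 2) ^ 2 * n = P3 s ε τ := by
  obtain ⟨h4, h5⟩ := abs_lt.mp hε
  have hk3 : 1 - ε ≠ 0 := by linarith
  have h1 := c1_mul hne
  have h2 := c1s1_mul hne hd
  have h3 := P3_identity (s := s) hε hτ
  have e : (c2 s ε (τ, n) ^ 2 + (σ * s2 s ε (τ, n)) ^ 2) * (1 - ε) ^ 2 =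
      τ ^ 2 + 2 * τ * (1 + ε) * c1 s ε (τ, n) + (1 + ε) ^ 2 * (c1 s ε (τ, n) ^ 2 + s1 s ε (τ, n) ^ 2) := by
    rw [mul_pow, hσ, one_mul]
    unfold c2 s2
    simp only
    field_simp
    ring
  have hk32 : (1 - ε) ^ 2 ≠ 0 := pow_ne_zero _ hk3
  apply mul_left_cancel₀ hk32
  rw [h3]
  have e' : (1 - ε) ^ 2 * ((c2 s ε (τ, n) ^ 2 + (σ * s2 s ε (τ, n)) ^ 2) * (P1 s ε τ - n) + (τ / 2) ^ 2 * n)
      = (τ ^ 2 + 2 * τ * (1 + ε) * c1 s ε (τ, n) + (1 + ε) ^ 2 * (c1 s ε (τ, n) ^ 2 + s1 s ε (τ, n) ^ 2))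
          * (P1 s ε τ - n) + (1 - ε) ^ 2 * ((τ / 2) ^ 2 * n) := by
    rw [← e]; ring
  rw [e']
  linear_combination (2 * τ * (1 + ε)) * h1 + (1 + ε) ^ 2 * h2

lemma ab_pos2 (σ : ℝ) (hσ : σ ^ 2 = 1) (hd : 0 < disc s ε (τ, n)) :
    0 < c1 s ε (τ, n) ^ 2 + (σ * s1 s ε (τ, n)) ^ 2 := by
  rw [mul_pow, hσ, one_mul, s1_sq hd]
  positivity

lemma ab_pos3 (hε : |ε| < 1) (σ : ℝ) (hσ : σ ^ 2 = 1) (hd : 0 < disc s ε (τ, n)) :
    0 < c2 s ε (τ, n) ^ 2 + (σ * s2 s ε (τ, n)) ^ 2 := by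
  obtain ⟨h4, h5⟩ := abs_lt.mp hε
  have hk2 : 0 < 1 + ε := by linarith
  have hk3 : 0 < 1 - ε := by linarith
  have h1 := s1_pos hd
  rw [mul_pow, hσ, one_mul]
  have : 0 < s2 s ε (τ, n) ^ 2 := by
    have hne : s2 s ε (τ, n) ≠ 0 := by
      unfold s2
      have : (1 + ε) * s1 s ε (τ, n) ≠ 0 := by positivity
      exact div_ne_zero (neg_ne_zero.mpr this) hk3.ne'
    positivity
  positivity

end coeffs

namespace Shells

variable (Sh : Shells s ε U)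

/-- first family of twist data (target: second shell). -/
noncomputable def TDa (σ : ℝ) (hσ : σ ^ 2 = 1) : TwistData where
  Jt := Ioo (1 - Sh.r) (1 + Sh.r)
  rn := Sh.rn
  Psrc := P1 s ε
  Ptgt := P2 s ε
  Isrc := Sh.I1
  Itgt := Sh.I2
  Wsrc := P1 s ε '' Ioo (1 - Sh.r) (1 + Sh.r)
  Wtgt := P2 s ε '' Ioo (1 - Sh.r) (1 + Sh.r)
  a := c1 s ε
  b := fun p => σ * s1 s ε p
  c := fun τ => τ / 2
  Wsrc_open := Sh.W1_open
  Wtgt_open := Sh.W2_open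
  Isrc_smooth := Sh.I1_smooth
  Itgt_smooth := Sh.I2_smooth
  Isrc_mem := fun t ht => (Sh.I1_right t ht).1
  Itgt_mem := fun t ht => (Sh.I2_right t ht).1
  Psrc_Isrc := fun t ht => (Sh.I1_right t ht).2
  Ptgt_mem := fun τ hτ => ⟨τ, hτ, rfl⟩
  Itgt_Ptgt := fun τ hτ => Sh.I2_left τ hτ
  a_smooth := fun τ hτ n hn =>
    contDiffAt_c1 Sh.good.abs_eps (Sh.good.pos τ hτ) (Sh.Aa_pos τ hτ n hn).ne'
  b_smooth := fun τ hτ n hn => contDiffAt_const.mul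
    (contDiffAt_s1 Sh.good.abs_eps (Sh.good.pos τ hτ) (Sh.Aa_pos τ hτ n hn).ne' (Sh.disc_pos τ hτ n hn))
  c_smooth := fun τ hτ => contDiffAt_id.div_const 2
  c_pos := fun τ hτ => by have := Sh.good.pos τ hτ; positivity
  ab_pos := fun τ hτ n hn => ab_pos2 σ hσ (Sh.disc_pos τ hτ n hn)
  radial := fun τ hτ n hn => radial2 σ hσ (Sh.Aa_pos τ hτ n hn).ne' (Sh.disc_pos τ hτ n hn)

/-- second family of twist data (target: third shell). -/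
noncomputable def TDb (σ : ℝ) (hσ : σ ^ 2 = 1) : TwistData where
  Jt := Ioo (1 - Sh.r) (1 + Sh.r)
  rn := Sh.rn
  Psrc := P1 s ε
  Ptgt := P3 s ε
  Isrc := Sh.I1
  Itgt := Sh.I3
  Wsrc := P1 s ε '' Ioo (1 - Sh.r) (1 + Sh.r)
  Wtgt := P3 s ε '' Ioo (1 - Sh.r) (1 + Sh.r)
  a := c2 s ε
  b := fun p => σ * s2 s ε p
  c := fun τ => τ / 2
  Wsrc_open := Sh.W1_open
  Wtgt_open := Sh.W3_open
  Isrc_smooth := Sh.I1_smooth
  Itgt_smooth := Sh.I3_smooth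
  Isrc_mem := fun t ht => (Sh.I1_right t ht).1
  Itgt_mem := fun t ht => (Sh.I3_right t ht).1
  Psrc_Isrc := fun t ht => (Sh.I1_right t ht).2
  Ptgt_mem := fun τ hτ => ⟨τ, hτ, rfl⟩
  Itgt_Ptgt := fun τ hτ => Sh.I3_left τ hτ
  a_smooth := fun τ hτ n hn =>
    contDiffAt_c2 Sh.good.abs_eps (Sh.good.pos τ hτ) (Sh.Aa_pos τ hτ n hn).ne'
  b_smooth := fun τ hτ n hn => contDiffAt_const.mul
    (contDiffAt_s2 Sh.good.abs_eps (Sh.good.pos τ hτ) (Sh.Aa_pos τ hτ n hn).ne' (Sh.disc_pos τ hτ n hn))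
  c_smooth := fun τ hτ => contDiffAt_id.div_const 2
  c_pos := fun τ hτ => by have := Sh.good.pos τ hτ; positivity
  ab_pos := fun τ hτ n hn => ab_pos3 Sh.good.abs_eps σ hσ (Sh.disc_pos τ hτ n hn)
  radial := fun τ hτ n hn => radial3 Sh.good.abs_eps (Sh.good.pos τ hτ) σ hσ
    (Sh.Aa_pos τ hτ n hn).ne' (Sh.disc_pos τ hτ n hn)

end Shells

section pair

variable {F : Type*} [NormedAddCommGroup F] [InnerProductSpace ℝ F] (P : PlaneOps F)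
variable (Sh : Shells s ε U)

/-- common source domain. -/
def Shells.Usrc (P : PlaneOps F) (Sh : Shells s ε U) : Set F :=
  {x | ‖x‖ ^ 2 ∈ P1 s ε '' Ioo (1 - Sh.r) (1 + Sh.r) ∧ |‖P.perp x‖ ^ 2| < Sh.rn}

lemma Shells.U_TDa (σ : ℝ) (hσ : σ ^ 2 = 1) : TwistData.U P (Sh.TDa σ hσ) = Sh.Usrc P := rfl
lemma Shells.U_TDb (σ : ℝ) (hσ : σ ^ 2 = 1) : TwistData.U P (Sh.TDb σ hσ) = Sh.Usrc P := rfl

/-- parameter of the source point. -/
noncomputable def Shells.tauOf (P : PlaneOps F) (Sh : Shells s ε U) (x : F) : ℝ := Sh.I1 (‖x‖ ^ 2)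
/-- orthogonal square norm of the source point. -/
noncomputable def nOf (P : PlaneOps F) (x : F) : ℝ := ‖P.perp x‖ ^ 2

/-- first target map. -/
noncomputable def Shells.mapA (P : PlaneOps F) (Sh : Shells s ε U) (σ : ℝ) (x : F) : F :=
  P.tw (c1 s ε (Sh.I1 (‖x‖ ^ 2), ‖P.perp x‖ ^ 2)) (σ * s1 s ε (Sh.I1 (‖x‖ ^ 2), ‖P.perp x‖ ^ 2))
    (Sh.I1 (‖x‖ ^ 2) / 2) x
/-- second target map. -/
noncomputable def Shells.mapB (P : PlaneOps F) (Sh : Shells s ε U) (σ : ℝ) (x : F) : F :=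
  P.tw (c2 s ε (Sh.I1 (‖x‖ ^ 2), ‖P.perp x‖ ^ 2)) (σ * s2 s ε (Sh.I1 (‖x‖ ^ 2), ‖P.perp x‖ ^ 2))
    (Sh.I1 (‖x‖ ^ 2) / 2) x

lemma Shells.mapA_eq (σ : ℝ) (hσ : σ ^ 2 = 1) (x : F) :
    Sh.mapA P σ x = TwistData.toFun P (Sh.TDa σ hσ) x := rfl
lemma Shells.mapB_eq (σ : ℝ) (hσ : σ ^ 2 = 1) (x : F) :
    Sh.mapB P σ x = TwistData.toFun P (Sh.TDb σ hσ) x := rfl

/-- balance for twists. -/
lemma PlaneOps.balance_tw (τ k₂ k₃ a b e a' b' : ℝ) (h1 : τ + k₂ * a + k₃ * a' = 0)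
    (h2 : k₂ * b + k₃ * b' = 0) (h3 : τ - k₂ * e - k₃ * e = 0) (x : F) :
    τ • x + k₂ • P.tw a b e x + k₃ • P.tw a' b' e x = 0 := by
  have hx : τ • x = τ • (P.Q x + P.perp x) := by rw [P.Q_add_perp]
  rw [hx]
  unfold PlaneOps.tw
  have : τ • (P.Q x + P.perp x) + k₂ • (a • P.Q x + b • P.J x - e • P.perp x)
      + k₃ • (a' • P.Q x + b' • P.J x - e • P.perp x)
      = (τ + k₂ * a + k₃ * a') • P.Q x + (k₂ * b + k₃ * b') • P.J x + (τ - k₂ * e - k₃ * e) • P.perp x := by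
    module
  rw [this, h1, h2, h3]
  simp

/-- All relations satisfied by the triple `(x, mapA x, mapB x)`. -/
lemma Shells.pair_identities (σ : ℝ) (hσ : σ ^ 2 = 1) {x : F} (hx : x ∈ Sh.Usrc P) :
    ∃ τ ∈ Ioo (1 - Sh.r) (1 + Sh.r), τ = Sh.I1 (‖x‖ ^ 2) ∧ ‖x‖ ^ 2 = P1 s ε τ ∧
      ‖Sh.mapA P σ x‖ ^ 2 = P2 s ε τ ∧ ‖Sh.mapB P σ x‖ ^ 2 = P3 s ε τ ∧
      ‖x - Sh.mapA P σ x‖ ^ 2 = D12 s ε τ ∧ ‖x - Sh.mapB P σ x‖ ^ 2 = D13 s ε τ ∧
      ‖Sh.mapA P σ x - Sh.mapB P σ x‖ ^ 2 = D23 s ε ∧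
      τ • x + (1 + ε) • Sh.mapA P σ x + (1 - ε) • Sh.mapB P σ x = 0 ∧
      P.perp (Sh.mapA P σ x) = -((τ / 2) • P.perp x) ∧
      P.perp (Sh.mapB P σ x) = -((τ / 2) • P.perp x) := by
  have hx1 := Sh.I1_right _ hx.1
  set τ := Sh.I1 (‖x‖ ^ 2) with hτdef
  have hτ := hx1.1
  have hp1 : ‖x‖ ^ 2 = P1 s ε τ := hx1.2.symm
  have hτ0 := Sh.good.pos τ hτ
  have hn : |‖P.perp x‖ ^ 2| < Sh.rn := hx.2
  set n := ‖P.perp x‖ ^ 2 with hndef
  have hAa := Sh.Aa_pos τ hτ n hn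
  have hdisc := Sh.disc_pos τ hτ n hn
  have hε := Sh.good.abs_eps
  obtain ⟨h4, h5⟩ := abs_lt.mp hε
  have hk3 : 1 - ε ≠ 0 := by linarith
  -- norms
  have hy : ‖Sh.mapA P σ x‖ ^ 2 = P2 s ε τ := by
    have := TwistData.norm_toFun (P := P) (T := Sh.TDa σ hσ) (x := x) hx
    exact this
  have hxy : ‖x - Sh.mapA P σ x‖ ^ 2 = D12 s ε τ := by
    rw [norm_sub_sq_real, hy, hp1]
    have hin : inner ℝ x (Sh.mapA P σ x) = c1 s ε (τ, n) * (P1 s ε τ - n) - (τ / 2) * n := by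
      unfold Shells.mapA
      rw [PlaneOps.inner_tw]
      have : ‖P.Q x‖ ^ 2 = P1 s ε τ - n := by
        have := P.norm_sq_split x
        rw [hp1] at this
        rw [hndef]
        linarith
      rw [this]
    rw [hin, c1_mul hAa.ne']
    ring
  have hbal : τ • x + (1 + ε) • Sh.mapA P σ x + (1 - ε) • Sh.mapB P σ x = 0 := by
    unfold Shells.mapA Shells.mapB
    apply PlaneOps.balance_tw
    · rw [← hτdef, ← hndef]
      unfold c2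
      field_simp
      ring
    · rw [← hτdef, ← hndef]
      unfold s2
      field_simp
      ring
    · rw [← hτdef]
      ring
  obtain ⟨hz, hxz, hyz⟩ := triangle_close hε hτ0 hp1 hy hxy hbal
  refine ⟨τ, hτ, rfl, hp1, hy, hz, hxy, hxz, hyz, hbal, ?_, ?_⟩
  · unfold Shells.mapA
    rw [PlaneOps.perp_tw]
  · unfold Shells.mapB
    rw [PlaneOps.perp_tw]

lemma PlaneOps.perp_add (x y : F) : P.perp (x + y) = P.perp x + P.perp y := by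
  unfold PlaneOps.perp; rw [map_add]; abel

lemma PlaneOps.perp_smul (a : ℝ) (x : F) : P.perp (a • x) = a • P.perp x := by
  unfold PlaneOps.perp; rw [map_smul, smul_sub]

/-- Rigidity: a triangle with the right radii whose two last vertices have the same orthogonal part
is given by the maps. -/
lemma Shells.rigid_pair {x y z : F} (hx : x ∈ Sh.Usrc P)
    (hy : ‖y‖ ^ 2 = P2 s ε (Sh.I1 (‖x‖ ^ 2)))
    (hxy : ‖x - y‖ ^ 2 = D12 s ε (Sh.I1 (‖x‖ ^ 2)))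
    (hbal : Sh.I1 (‖x‖ ^ 2) • x + (1 + ε) • y + (1 - ε) • z = 0)
    (hperp : P.perp y = P.perp z) :
    ∃ σ : ℝ, σ ^ 2 = 1 ∧ y = Sh.mapA P σ x ∧ z = Sh.mapB P σ x := by
  have hx1 := Sh.I1_right _ hx.1
  set τ := Sh.I1 (‖x‖ ^ 2) with hτdef
  have hτ := hx1.1
  have hp1 : ‖x‖ ^ 2 = P1 s ε τ := hx1.2.symm
  have hτ0 := Sh.good.pos τ hτ
  have hn : |‖P.perp x‖ ^ 2| < Sh.rn := hx.2
  set n := ‖P.perp x‖ ^ 2 with hndef
  have hAa := Sh.Aa_pos τ hτ n hn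
  have hdisc := Sh.disc_pos τ hτ n hn
  have hε := Sh.good.abs_eps
  obtain ⟨h4, h5⟩ := abs_lt.mp hε
  have hk3 : 1 - ε ≠ 0 := by linarith
  -- the orthogonal part of y
  have hw : P.perp y = -((τ / 2) • P.perp x) := by
    have h := congrArg P.perp hbal
    have h0 : P.perp (0 : F) = 0 := by
      unfold PlaneOps.perp; simp
    rw [PlaneOps.perp_add, PlaneOps.perp_add, PlaneOps.perp_smul, PlaneOps.perp_smul,
      PlaneOps.perp_smul, ← hperp, h0] at h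
    have h2 : (2 : ℝ) • P.perp y = (-τ) • P.perp x := by
      have e : (2 : ℝ) • P.perp y = (1 + ε) • P.perp y + (1 - ε) • P.perp y := by
        rw [← add_smul]; congr 1; ring
      rw [e, neg_smul]
      apply eq_neg_of_add_eq_zero_left
      rw [add_comm]
      rw [← add_assoc]
      exact h
    have h3 : P.perp y = (2 : ℝ)⁻¹ • ((2 : ℝ) • P.perp y) := by
      rw [smul_smul]; norm_num
    rw [h3, h2, smul_smul]
    rw [show (2 : ℝ)⁻¹ * -τ = -(τ / 2) by ring, neg_smul]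
  have hQx : ‖P.Q x‖ ^ 2 = P1 s ε τ - n := by
    have := P.norm_sq_split x
    rw [hp1] at this
    rw [hndef]
    linarith
  have hQy : ‖P.Q y‖ ^ 2 = P2 s ε τ - (τ / 2) ^ 2 * n := by
    have := P.norm_sq_split y
    rw [hy, hw, norm_neg, norm_smul, mul_pow] at this
    simp only [Real.norm_eq_abs, sq_abs] at this
    rw [hndef]
    linarith
  have hin : inner ℝ (P.Q y) (P.Q x) = c1 s ε (τ, n) * (P1 s ε τ - n) := by
    rw [c1_mul hAa.ne']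
    have h1 : 2 * inner ℝ x y = ‖x‖ ^ 2 + ‖y‖ ^ 2 - ‖x - y‖ ^ 2 := by
      rw [norm_sub_sq_real]; ring
    rw [hp1, hy, hxy] at h1
    have h2 := P.inner_split x y
    rw [hw, inner_neg_right, real_inner_smul_right, real_inner_self_eq_norm_sq] at h2
    rw [real_inner_comm]
    rw [← hndef] at h2
    linarith
  have hdec := P.decomp (P.Q x) (P.Q y) (P.QQ x) (P.QQ y)
  rw [P.JQ, hQx, hin] at hdec
  set β := inner ℝ (P.Q y) (P.J x) / (P1 s ε τ - n) with hβ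
  have hQy2 : P.Q y = c1 s ε (τ, n) • P.Q x + β • P.J x := by
    have hA := hAa.ne'
    have h1 : P.Q y = (P1 s ε τ - n)⁻¹ • ((P1 s ε τ - n) • P.Q y) := by
      rw [smul_smul, inv_mul_cancel₀ hA, one_smul]
    rw [h1, hdec, smul_add, smul_smul, smul_smul]
    congr 2
    · field_simp
    · rw [hβ]; field_simp
  have hnormQy : ‖P.Q y‖ ^ 2 = (c1 s ε (τ, n) ^ 2 + β ^ 2) * (P1 s ε τ - n) := by
    rw [hQy2, norm_add_sq_real, norm_smul, norm_smul, real_inner_smul_left, real_inner_smul_right,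
      PlaneOps.inner_Q_J, mul_pow, mul_pow, PlaneOps.norm_J_sq, hQx]
    simp only [Real.norm_eq_abs, sq_abs, mul_zero]
    ring
  have hβ2 : β ^ 2 = s1 s ε (τ, n) ^ 2 := by
    have h1 := c1s1_mul hAa.ne' hdisc
    rw [hQy] at hnormQy
    have h2 : (c1 s ε (τ, n) ^ 2 + β ^ 2) * (P1 s ε τ - n) =
        (c1 s ε (τ, n) ^ 2 + s1 s ε (τ, n) ^ 2) * (P1 s ε τ - n) := by
      rw [← hnormQy, h1]
    have h3 := mul_right_cancel₀ hAa.ne' h2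
    linarith
  have hs1 := s1_pos hdisc
  refine ⟨β / s1 s ε (τ, n), ?_, ?_, ?_⟩
  · rw [div_pow, hβ2]; field_simp
  · have hβe : β / s1 s ε (τ, n) * s1 s ε (τ, n) = β := by field_simp
    have : y = P.Q y + P.perp y := (P.Q_add_perp y).symm
    rw [this, hQy2, hw]
    unfold Shells.mapA PlaneOps.tw
    rw [← hτdef, ← hndef, hβe]
    abel
  · -- from the balance relation
    have hA : y = Sh.mapA P (β / s1 s ε (τ, n)) x := by
      have hβe : β / s1 s ε (τ, n) * s1 s ε (τ, n) = β := by field_simp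
      have : y = P.Q y + P.perp y := (P.Q_add_perp y).symm
      rw [this, hQy2, hw]
      unfold Shells.mapA PlaneOps.tw
      rw [← hτdef, ← hndef, hβe]
      abel
    have hσ' : (β / s1 s ε (τ, n)) ^ 2 = 1 := by
      rw [div_pow, hβ2]; field_simp
    obtain ⟨τ', hτ', hτ'e, -, -, -, -, -, -, hbal', -, -⟩ :=
      Sh.pair_identities P (β / s1 s ε (τ, n)) hσ' hx
    rw [← hτdef] at hτ'e
    subst hτ'e
    rw [← hA] at hbal'
    have h1 : (1 - ε) • z = (1 - ε) • Sh.mapB P (β / s1 s ε (τ, n)) x := by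
      have a := hbal.trans hbal'.symm
      exact add_left_cancel a
    exact smul_right_injective F hk3 h1

end pair

end Crest.Agent.Lib.SCE
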