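import Crest.Agent.Lib.SCE.Curve

/-!
# S0175: calculus along the curve; choice of `ε`.
-/

set_option autoImplicit false
set_option linter.unusedSectionVars false
set_option linter.unusedVariables false

open MeasureTheory Set Filter Topology
open scoped ENNReal ContDiff NNReal Interval

namespace Crest.Agent.Lib.SCE

variable {s ε τ : ℝ}

lemma hasDerivAt_Dd (k : ℝ) (hk : 0 < k) (hτ : 0 < τ) :
    HasDerivAt (fun t => Dd s (t * k)) (-(mm s) / τ * Dd s (τ * k)) τ := by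
  unfold Dd
  have h1 : HasDerivAt (fun t : ℝ => t * k) k τ := by
    simpa using (hasDerivAt_id τ).mul_const k
  have h2 := h1.rpow_const (p := -(mm s)) (Or.inl (by positivity))
  have h3 := h2.const_mul (c0 s)
  refine h3.congr_deriv ?_
  have hpos : 0 < τ * k := by positivity
  rw [Real.rpow_sub_one hpos.ne']
  field_simp

lemma contDiffAt_Dd (k : ℝ) (hk : 0 < k) (hτ : 0 < τ) :
    ContDiffAt ℝ ∞ (fun t => Dd s (t * k)) τ := by
  unfold Dd
  have h1 : ContDiffAt ℝ ∞ (fun t : ℝ => t * k) τ := contDiffAt_id.mul contDiffAt_const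
  exact contDiffAt_const.mul (h1.rpow_const_of_ne (by positivity))

/-- derivative of `P1` in `τ`. -/
noncomputable def dP1 (s ε τ : ℝ) : ℝ :=
  ((1 + ε) * 2 * (-(mm s) / τ * D12 s ε τ) + (1 - ε) * 2 * (-(mm s) / τ * D13 s ε τ)) / (τ + 2) ^ 2
  - 2 * ((1 + ε) * 2 * D12 s ε τ + (1 - ε) * 2 * D13 s ε τ - (1 + ε) * (1 - ε) * D23 s ε) / (τ + 2) ^ 3

/-- derivative of `P2` in `τ`. -/
noncomputable def dP2 (s ε τ : ℝ) : ℝ :=
  (((2 * τ + (1 - ε)) * D12 s ε τ + τ * (τ + (1 - ε)) * (-(mm s) / τ * D12 s ε τ)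
      + (1 - ε) * D23 s ε - ((1 - ε) * D13 s ε τ + τ * (1 - ε) * (-(mm s) / τ * D13 s ε τ))) / (τ + 2) ^ 2)
  - 2 * (τ * (τ + (1 - ε)) * D12 s ε τ + (1 - ε) * (τ + (1 - ε)) * D23 s ε
      - τ * (1 - ε) * D13 s ε τ) / (τ + 2) ^ 3

lemma hasDerivAt_sq_den (hτ : 0 < τ) : HasDerivAt (fun t : ℝ => (t + 2) ^ 2) (2 * (τ + 2)) τ := by
  have := ((hasDerivAt_id' τ).add_const 2).fun_pow 2
  refine this.congr_deriv ?_
  simp

lemma hasDerivAt_P1 (hε : |ε| < 1) (hτ : 0 < τ) : HasDerivAt (P1 s ε) (dP1 s ε τ) τ := by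
  obtain ⟨h4, h5⟩ := abs_lt.mp hε
  have hk2 : 0 < 1 + ε := by linarith
  have hk3 : 0 < 1 - ε := by linarith
  have d12 : HasDerivAt (fun t => D12 s ε t) (-(mm s) / τ * D12 s ε τ) τ := hasDerivAt_Dd _ hk2 hτ
  have d13 : HasDerivAt (fun t => D13 s ε t) (-(mm s) / τ * D13 s ε τ) τ := hasDerivAt_Dd _ hk3 hτ
  have hden := hasDerivAt_sq_den hτ
  have hnum := ((d12.const_mul ((1 + ε) * 2)).fun_add (d13.const_mul ((1 - ε) * 2))).sub_const
    ((1 + ε) * (1 - ε) * D23 s ε)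
  have h2 : τ + 2 ≠ 0 := by positivity
  have := hnum.fun_div hden (by positivity)
  refine HasDerivAt.congr_deriv (f := P1 s ε) this ?_
  unfold dP1
  field_simp

lemma hasDerivAt_P2 (hε : |ε| < 1) (hτ : 0 < τ) : HasDerivAt (P2 s ε) (dP2 s ε τ) τ := by
  obtain ⟨h4, h5⟩ := abs_lt.mp hε
  have hk2 : 0 < 1 + ε := by linarith
  have hk3 : 0 < 1 - ε := by linarith
  have d12 : HasDerivAt (fun t => D12 s ε t) (-(mm s) / τ * D12 s ε τ) τ := hasDerivAt_Dd _ hk2 hτ
  have d13 : HasDerivAt (fun t => D13 s ε t) (-(mm s) / τ * D13 s ε τ) τ := hasDerivAt_Dd _ hk3 hτ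
  have hden := hasDerivAt_sq_den hτ
  have ha : HasDerivAt (fun t : ℝ => t * (t + (1 - ε))) (2 * τ + (1 - ε)) τ := by
    have := (hasDerivAt_id' τ).fun_mul ((hasDerivAt_id' τ).add_const (1 - ε))
    refine this.congr_deriv ?_
    ring
  have hb : HasDerivAt (fun t : ℝ => (1 - ε) * (t + (1 - ε))) (1 - ε) τ := by
    have := ((hasDerivAt_id' τ).add_const (1 - ε)).const_mul (1 - ε)
    refine this.congr_deriv ?_
    ring
  have hc : HasDerivAt (fun t : ℝ => t * (1 - ε)) (1 - ε) τ := by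
    simpa using (hasDerivAt_id' τ).mul_const (1 - ε)
  have hnum := ((ha.fun_mul d12).fun_add (hb.mul_const (D23 s ε))).fun_sub (hc.fun_mul d13)
  have h2 : τ + 2 ≠ 0 := by positivity
  have := hnum.fun_div hden (by positivity)
  refine HasDerivAt.congr_deriv (f := P2 s ε) this ?_
  unfold dP2
  field_simp

lemma P3_eq (s ε τ : ℝ) : P3 s ε τ = P2 s (-ε) τ := by
  unfold P3 P2 D12 D13 D23
  rw [show (1 + -ε) = 1 - ε by ring, show (1 - -ε) = 1 + ε by ring, mul_comm (1 - ε) (1 + ε)]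

lemma P3_eq' (s ε : ℝ) : P3 s ε = P2 s (-ε) := funext (P3_eq s ε)

lemma P1_neg (s ε τ : ℝ) : P1 s (-ε) τ = P1 s ε τ := by
  unfold P1 D12 D13 D23
  rw [show (1 + -ε) = 1 - ε by ring, show (1 - -ε) = 1 + ε by ring, mul_comm (1 - ε) (1 + ε)]
  ring

lemma contDiffAt_P1 (hε : |ε| < 1) (hτ : 0 < τ) : ContDiffAt ℝ ∞ (P1 s ε) τ := by
  obtain ⟨h4, h5⟩ := abs_lt.mp hε
  have hk2 : 0 < 1 + ε := by linarith
  have hk3 : 0 < 1 - ε := by linarith
  have d12 : ContDiffAt ℝ ∞ (fun t => D12 s ε t) τ := contDiffAt_Dd _ hk2 hτ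
  have d13 : ContDiffAt ℝ ∞ (fun t => D13 s ε t) τ := contDiffAt_Dd _ hk3 hτ
  unfold P1
  refine ContDiffAt.div ?_ ?_ (by positivity)
  · exact ((contDiffAt_const.mul d12).add (contDiffAt_const.mul d13)).sub contDiffAt_const
  · exact (contDiffAt_id.add contDiffAt_const).pow 2

lemma contDiffAt_P2 (hε : |ε| < 1) (hτ : 0 < τ) : ContDiffAt ℝ ∞ (P2 s ε) τ := by
  obtain ⟨h4, h5⟩ := abs_lt.mp hε
  have hk2 : 0 < 1 + ε := by linarith
  have hk3 : 0 < 1 - ε := by linarith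
  have d12 : ContDiffAt ℝ ∞ (fun t => D12 s ε t) τ := contDiffAt_Dd _ hk2 hτ
  have d13 : ContDiffAt ℝ ∞ (fun t => D13 s ε t) τ := contDiffAt_Dd _ hk3 hτ
  have hid : ContDiffAt ℝ ∞ (fun t : ℝ => t) τ := contDiffAt_id
  unfold P2
  refine ContDiffAt.div ?_ ?_ (by positivity)
  · exact (((hid.mul (hid.add contDiffAt_const)).mul d12).add
      ((contDiffAt_const.mul (hid.add contDiffAt_const)).mul contDiffAt_const)).sub
      ((hid.mul contDiffAt_const).mul d13)
  · exact (hid.add contDiffAt_const).pow 2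

lemma contDiffAt_P3 (hε : |ε| < 1) (hτ : 0 < τ) : ContDiffAt ℝ ∞ (P3 s ε) τ := by
  rw [P3_eq']
  exact contDiffAt_P2 (by rwa [abs_neg]) hτ

lemma hasDerivAt_P3 (hε : |ε| < 1) (hτ : 0 < τ) : HasDerivAt (P3 s ε) (dP2 s (-ε) τ) τ := by
  rw [P3_eq']
  exact hasDerivAt_P2 (by rwa [abs_neg]) hτ

lemma contDiffAt_D12 (hε : |ε| < 1) (hτ : 0 < τ) : ContDiffAt ℝ ∞ (D12 s ε) τ := by
  obtain ⟨h4, h5⟩ := abs_lt.mp hε
  exact contDiffAt_Dd _ (by linarith) hτ

lemma contDiffAt_D13 (hε : |ε| < 1) (hτ : 0 < τ) : ContDiffAt ℝ ∞ (D13 s ε) τ := by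
  obtain ⟨h4, h5⟩ := abs_lt.mp hε
  exact contDiffAt_Dd _ (by linarith) hτ

/-! continuity in `τ`. -/

lemma continuousAt_dP1 (hε : |ε| < 1) (hτ : 0 < τ) : ContinuousAt (dP1 s ε) τ := by
  have d12 := (contDiffAt_D12 (s := s) hε hτ).continuousAt
  have d13 := (contDiffAt_D13 (s := s) hε hτ).continuousAt
  unfold dP1
  have hid : ContinuousAt (fun t : ℝ => t) τ := continuousAt_id
  refine ContinuousAt.sub (ContinuousAt.div ?_ ?_ (by positivity)) (ContinuousAt.div ?_ ?_ (by positivity))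
  · exact (continuousAt_const.mul ((continuousAt_const.div hid hτ.ne').mul d12)).add
      (continuousAt_const.mul ((continuousAt_const.div hid hτ.ne').mul d13))
  · exact (hid.add continuousAt_const).pow 2
  · exact continuousAt_const.mul
      (((continuousAt_const.mul d12).add (continuousAt_const.mul d13)).sub continuousAt_const)
  · exact (hid.add continuousAt_const).pow 3

lemma continuousAt_dP2 (hε : |ε| < 1) (hτ : 0 < τ) : ContinuousAt (dP2 s ε) τ := by
  have d12 := (contDiffAt_D12 (s := s) hε hτ).continuousAt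
  have d13 := (contDiffAt_D13 (s := s) hε hτ).continuousAt
  unfold dP2
  have hid : ContinuousAt (fun t : ℝ => t) τ := continuousAt_id
  have hq := (continuousAt_const (y := -(mm s))).div hid hτ.ne'
  refine ContinuousAt.sub (ContinuousAt.div ?_ ?_ (by positivity)) (ContinuousAt.div ?_ ?_ (by positivity))
  · refine ContinuousAt.sub (ContinuousAt.add (ContinuousAt.add ?_ ?_) continuousAt_const) ?_
    · exact ((continuousAt_const.mul hid).add continuousAt_const).mul d12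
    · exact (hid.mul (hid.add continuousAt_const)).mul (hq.mul d12)
    · exact (continuousAt_const.mul d13).add ((hid.mul continuousAt_const).mul (hq.mul d13))
  · exact (hid.add continuousAt_const).pow 2
  · exact continuousAt_const.mul ((((hid.mul (hid.add continuousAt_const)).mul d12).add
      ((continuousAt_const.mul (hid.add continuousAt_const)).mul continuousAt_const)).sub
      ((hid.mul continuousAt_const).mul d13))
  · exact (hid.add continuousAt_const).pow 3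

/-! values at the central point. -/

lemma Dd_one (s : ℝ) : Dd s 1 = c0 s := by
  unfold Dd; simp

lemma dP1_central (hs : 0 < s) : dP1 s 0 1 < 0 := by
  have hm := mm_pos hs
  have hc := c0_pos hs
  have e1 : D12 s 0 1 = c0 s := by unfold D12; simp [Dd_one]
  have e2 : D13 s 0 1 = c0 s := by unfold D13; simp [Dd_one]
  have e3 : D23 s 0 = c0 s := by unfold D23; simp [Dd_one]
  unfold dP1
  rw [e1, e2, e3]
  norm_num
  have : 0 < mm s * c0 s := mul_pos hm hc
  nlinarith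

lemma dP2_central (hs : 0 < s) : 0 < dP2 s 0 1 := by
  have hm := mm_pos hs
  have hp := pp_pos hs
  have hpe := pp_eq hs
  have hc := c0_pos hs
  have e1 : D12 s 0 1 = c0 s := by unfold D12; simp [Dd_one]
  have e2 : D13 s 0 1 = c0 s := by unfold D13; simp [Dd_one]
  have e3 : D23 s 0 = c0 s := by unfold D23; simp [Dd_one]
  unfold dP2
  rw [e1, e2, e3]
  norm_num
  have h : mm s = 1 - pp s := by linarith
  rw [h]
  have : 0 < pp s * c0 s := mul_pos hp hc
  nlinarith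

/-! continuity in `ε` at `0` (at `τ = 1`). -/

lemma continuousAt_rpow_one_add (c p : ℝ) :
    ContinuousAt (fun ε : ℝ => (1 * (1 + c * ε)) ^ p) 0 := by
  have h : ContinuousAt (fun ε : ℝ => 1 * (1 + c * ε)) 0 := by fun_prop
  exact h.rpow_const (Or.inl (by simp))

lemma continuousAt_D12_eps (s : ℝ) : ContinuousAt (fun ε => D12 s ε 1) 0 := by
  unfold D12 Dd
  have h : ContinuousAt (fun ε : ℝ => 1 * (1 + ε)) 0 := by fun_prop
  exact continuousAt_const.mul (h.rpow_const (Or.inl (by simp)))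

lemma continuousAt_D13_eps (s : ℝ) : ContinuousAt (fun ε => D13 s ε 1) 0 := by
  unfold D13 Dd
  have h : ContinuousAt (fun ε : ℝ => 1 * (1 - ε)) 0 := by fun_prop
  exact continuousAt_const.mul (h.rpow_const (Or.inl (by simp)))

lemma continuousAt_D23_eps (s : ℝ) : ContinuousAt (fun ε => D23 s ε) 0 := by
  unfold D23 Dd
  have h : ContinuousAt (fun ε : ℝ => (1 + ε) * (1 - ε)) 0 := by fun_prop
  exact continuousAt_const.mul (h.rpow_const (Or.inl (by simp)))

lemma continuousAt_P1_eps (s : ℝ) : ContinuousAt (fun ε => P1 s ε 1) 0 := by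
  have a := continuousAt_D12_eps s
  have b := continuousAt_D13_eps s
  have c := continuousAt_D23_eps s
  unfold P1
  refine ContinuousAt.div ?_ continuousAt_const (by norm_num)
  fun_prop

lemma continuousAt_P2_eps (s : ℝ) : ContinuousAt (fun ε => P2 s ε 1) 0 := by
  have a := continuousAt_D12_eps s
  have b := continuousAt_D13_eps s
  have c := continuousAt_D23_eps s
  unfold P2
  refine ContinuousAt.div ?_ continuousAt_const (by norm_num)
  fun_prop

lemma continuousAt_P3_eps (s : ℝ) : ContinuousAt (fun ε => P3 s ε 1) 0 := by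
  have a := continuousAt_D12_eps s
  have b := continuousAt_D13_eps s
  have c := continuousAt_D23_eps s
  unfold P3
  refine ContinuousAt.div ?_ continuousAt_const (by norm_num)
  fun_prop

lemma continuousAt_dP1_eps (s : ℝ) : ContinuousAt (fun ε => dP1 s ε 1) 0 := by
  have a := continuousAt_D12_eps s
  have b := continuousAt_D13_eps s
  have c := continuousAt_D23_eps s
  unfold dP1
  refine ContinuousAt.sub (ContinuousAt.div ?_ continuousAt_const (by norm_num))
    (ContinuousAt.div ?_ continuousAt_const (by norm_num))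
  · fun_prop
  · fun_prop

lemma continuousAt_dP2_eps (s : ℝ) : ContinuousAt (fun ε => dP2 s ε 1) 0 := by
  have a := continuousAt_D12_eps s
  have b := continuousAt_D13_eps s
  have c := continuousAt_D23_eps s
  unfold dP2
  refine ContinuousAt.sub (ContinuousAt.div ?_ continuousAt_const (by norm_num))
    (ContinuousAt.div ?_ continuousAt_const (by norm_num))
  · fun_prop
  · fun_prop

/-! expansions in `ε`. -/

lemma eventually_pos_right {f : ℝ → ℝ} {f' : ℝ} (hd : HasDerivAt f f' 0) (h0 : f 0 = 0)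
    (hf' : 0 < f') : ∀ᶠ ε in 𝓝[>] (0 : ℝ), 0 < f ε := by
  have h1 := hd.tendsto_slope
  have h2 : ∀ᶠ ε in 𝓝[≠] (0 : ℝ), 0 < slope f 0 ε := h1.eventually (lt_mem_nhds hf')
  have h3 : ∀ᶠ ε in 𝓝[>] (0 : ℝ), 0 < slope f 0 ε :=
    h2.filter_mono (nhdsWithin_mono _ (fun x (hx : 0 < x) => hx.ne'))
  filter_upwards [h3, self_mem_nhdsWithin] with ε hε hpos
  have hpos' : (0 : ℝ) < ε := hpos
  rw [slope_def_field, h0, sub_zero, sub_zero] at hε
  have := mul_pos hε hpos'
  rwa [div_mul_cancel₀ _ hpos'.ne'] at this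

/-- base radii as a function of `ε`. -/
lemma hasDerivAt_Dd_eps (s c : ℝ) :
    HasDerivAt (fun ε : ℝ => Dd s (1 * (1 + c * ε))) (c0 s * (-(mm s) * c)) 0 := by
  unfold Dd
  have h1 : HasDerivAt (fun ε : ℝ => 1 * (1 + c * ε)) c 0 := by
    have := ((hasDerivAt_id' (0:ℝ)).const_mul c).const_add 1
    have h2 := this.const_mul 1
    refine h2.congr_deriv ?_
    ring
  have h2 := h1.rpow_const (p := -(mm s)) (Or.inl (by simp))
  have h3 := h2.const_mul (c0 s)
  refine h3.congr_deriv ?_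
  simp only [mul_zero, add_zero, mul_one, Real.one_rpow]
  ring

lemma hasDerivAt_D12_eps (s : ℝ) : HasDerivAt (fun ε : ℝ => D12 s ε 1) (c0 s * (-(mm s))) 0 := by
  have := hasDerivAt_Dd_eps s 1
  simp only [one_mul, mul_one] at this
  simpa [D12] using this

lemma hasDerivAt_D13_eps (s : ℝ) : HasDerivAt (fun ε : ℝ => D13 s ε 1) (c0 s * mm s) 0 := by
  have := hasDerivAt_Dd_eps s (-1)
  simp only [one_mul, neg_mul, ← sub_eq_add_neg, mul_neg, neg_neg, mul_one] at this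
  simpa [D13] using this

lemma hasDerivAt_D23_eps (s : ℝ) : HasDerivAt (fun ε : ℝ => D23 s ε) 0 0 := by
  unfold D23 Dd
  have h1 : HasDerivAt (fun ε : ℝ => (1 + ε) * (1 - ε)) 0 0 := by
    have a : HasDerivAt (fun ε : ℝ => 1 + ε) 1 0 := (hasDerivAt_id' (0:ℝ)).const_add 1
    have b : HasDerivAt (fun ε : ℝ => 1 - ε) (-1) 0 := (hasDerivAt_id' (0:ℝ)).const_sub 1
    have := a.fun_mul b
    refine this.congr_deriv ?_
    simp
  have h2 := h1.rpow_const (p := -(mm s)) (Or.inl (by simp))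
  have h3 := h2.const_mul (c0 s)
  refine h3.congr_deriv ?_
  simp

lemma D12_zero (s : ℝ) : D12 s 0 1 = c0 s := by unfold D12; simp [Dd_one]
lemma D13_zero (s : ℝ) : D13 s 0 1 = c0 s := by unfold D13; simp [Dd_one]
lemma D23_zero (s : ℝ) : D23 s 0 = c0 s := by unfold D23; simp [Dd_one]

lemma P1_zero (s : ℝ) : P1 s 0 1 = c0 s / 3 := by
  unfold P1; rw [D12_zero, D13_zero, D23_zero]; norm_num; ring
lemma P2_zero (s : ℝ) : P2 s 0 1 = c0 s / 3 := by
  unfold P2; rw [D12_zero, D13_zero, D23_zero]; norm_num; ring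
lemma P3_zero (s : ℝ) : P3 s 0 1 = c0 s / 3 := by
  rw [P3_eq]; simpa using P2_zero s

lemma hasDerivAt_P1_eps (s : ℝ) : HasDerivAt (fun ε : ℝ => P1 s ε 1) 0 0 := by
  have a := hasDerivAt_D12_eps s
  have b := hasDerivAt_D13_eps s
  have c := hasDerivAt_D23_eps s
  have k2 : HasDerivAt (fun ε : ℝ => (1 + ε) * 2) 2 0 := by
    have := ((hasDerivAt_id' (0:ℝ)).const_add 1).mul_const 2
    simpa using this
  have k3 : HasDerivAt (fun ε : ℝ => (1 - ε) * 2) (-2) 0 := by
    have := ((hasDerivAt_id' (0:ℝ)).const_sub 1).mul_const 2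
    simpa using this
  have k23 : HasDerivAt (fun ε : ℝ => (1 + ε) * (1 - ε)) 0 0 := by
    have a : HasDerivAt (fun ε : ℝ => 1 + ε) 1 0 := (hasDerivAt_id' (0:ℝ)).const_add 1
    have b : HasDerivAt (fun ε : ℝ => 1 - ε) (-1) 0 := (hasDerivAt_id' (0:ℝ)).const_sub 1
    have := a.fun_mul b
    refine this.congr_deriv ?_
    simp
  have hnum := (((k2.fun_mul a).fun_add (k3.fun_mul b)).fun_sub (k23.fun_mul c)).div_const (((1:ℝ) + 2) ^ 2)
  refine hnum.congr_deriv ?_
  rw [D12_zero, D13_zero, D23_zero]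
  ring

lemma hasDerivAt_P2_eps (s : ℝ) :
    HasDerivAt (fun ε : ℝ => P2 s ε 1) (-(c0 s * (1 + mm s) / 3)) 0 := by
  have a := hasDerivAt_D12_eps s
  have b := hasDerivAt_D13_eps s
  have c := hasDerivAt_D23_eps s
  have k1 : HasDerivAt (fun ε : ℝ => (1:ℝ) * (1 + (1 - ε))) (-1) 0 := by
    have := (((hasDerivAt_id' (0:ℝ)).const_sub 1).const_add 1).const_mul 1
    refine this.congr_deriv ?_
    ring
  have k3 : HasDerivAt (fun ε : ℝ => (1 - ε) * (1 + (1 - ε))) (-3) 0 := by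
    have a1 : HasDerivAt (fun ε : ℝ => 1 - ε) (-1) 0 := (hasDerivAt_id' (0:ℝ)).const_sub 1
    have a2 : HasDerivAt (fun ε : ℝ => 1 + (1 - ε)) (-1) 0 := a1.const_add 1
    have := a1.fun_mul a2
    refine this.congr_deriv ?_
    norm_num
  have k4 : HasDerivAt (fun ε : ℝ => (1:ℝ) * (1 - ε)) (-1) 0 := by
    have := ((hasDerivAt_id' (0:ℝ)).const_sub 1).const_mul 1
    refine this.congr_deriv ?_
    ring
  have hnum := (((k1.fun_mul a).fun_add (k3.fun_mul c)).fun_sub (k4.fun_mul b)).div_const (((1:ℝ) + 2) ^ 2)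
  refine hnum.congr_deriv ?_
  rw [D12_zero, D13_zero, D23_zero]
  norm_num
  ring

/-- `ρ_b < ρ_a` for small `ε > 0`. -/
lemma eventually_P2_lt_P1 (hs : 0 < s) : ∀ᶠ ε in 𝓝[>] (0 : ℝ), P2 s ε 1 < P1 s ε 1 := by
  have hm := mm_pos hs
  have hc := c0_pos hs
  have hd := (hasDerivAt_P1_eps s).fun_sub (hasDerivAt_P2_eps s)
  have h := eventually_pos_right hd (by simp [P1_zero, P2_zero]) (by
    have : 0 < c0 s * (1 + mm s) / 3 := by positivity
    linarith)
  filter_upwards [h] with ε hε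
  linarith

lemma hasDerivAt_P3_eps (s : ℝ) :
    HasDerivAt (fun ε : ℝ => P3 s ε 1) (c0 s * (1 + mm s) / 3) 0 := by
  have h1 : HasDerivAt (fun ε : ℝ => -ε) (-1) 0 := (hasDerivAt_id' (0:ℝ)).neg
  have h2 : HasDerivAt (fun ε : ℝ => P2 s ε 1) (-(c0 s * (1 + mm s) / 3)) ((fun ε : ℝ => -ε) 0) := by
    simpa using hasDerivAt_P2_eps s
  have := h2.scomp (0:ℝ) h1
  have e : (fun ε : ℝ => P3 s ε 1) = (fun ε : ℝ => P2 s ε 1) ∘ (fun ε : ℝ => -ε) := by
    funext ε; simp [P3_eq]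
  rw [e]
  refine this.congr_deriv ?_
  simp

/-- `ρ_a < ρ_c` for small `ε > 0`. -/
lemma eventually_P1_lt_P3 (hs : 0 < s) : ∀ᶠ ε in 𝓝[>] (0 : ℝ), P1 s ε 1 < P3 s ε 1 := by
  have hm := mm_pos hs
  have hc := c0_pos hs
  have hd := (hasDerivAt_P3_eps s).fun_sub (hasDerivAt_P1_eps s)
  have h := eventually_pos_right hd (by simp [P1_zero, P3_zero]) (by
    have : 0 < c0 s * (1 + mm s) / 3 := by positivity
    linarith)
  filter_upwards [h] with ε hε
  linarith

/-- `k₂ ρ_b < k₃ ρ_c` for small `ε > 0`. -/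
lemma eventually_k2P2_lt_k3P3 (hs : 0 < s) :
    ∀ᶠ ε in 𝓝[>] (0 : ℝ), (1 + ε) * P2 s ε 1 < (1 - ε) * P3 s ε 1 := by
  have hm := mm_pos hs
  have hc := c0_pos hs
  have k2 : HasDerivAt (fun ε : ℝ => 1 + ε) 1 0 := (hasDerivAt_id' (0:ℝ)).const_add 1
  have k3 : HasDerivAt (fun ε : ℝ => 1 - ε) (-1) 0 := (hasDerivAt_id' (0:ℝ)).const_sub 1
  have hd := (k3.fun_mul (hasDerivAt_P3_eps s)).fun_sub (k2.fun_mul (hasDerivAt_P2_eps s))
  have h := eventually_pos_right hd (by simp [P2_zero, P3_zero]) (by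
    simp only [P2_zero, P3_zero, add_zero, sub_zero, one_mul]
    have : 0 < c0 s * mm s := by positivity
    nlinarith)
  filter_upwards [h] with ε hε
  linarith

/-! The improper lower bound and the gap `Δ`. -/

/-- `κ`. -/
noncomputable def kappa (s : ℝ) : ℝ := phi s (c0 s) + c0 s

lemma psi_eq (hs : 0 < s) {e : ℝ} (he : 0 < e) : psi s e = kappa s * e ^ pp s := by
  have hc := c0_pos hs
  unfold psi phi Dd kappa phi
  rw [Real.mul_rpow hc.le (by positivity), ← Real.rpow_mul he.le]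
  have e1 : -(mm s) * -(s / 2) = pp s := by
    unfold mm pp; field_simp
  have e2 : e * (c0 s * e ^ (-(mm s))) = c0 s * e ^ (pp s) := by
    rw [pp_eq hs, sub_eq_add_neg, Real.rpow_add he, Real.rpow_one]
    ring
  rw [e1, e2]
  ring

/-- lower bound from the tangent inequality. -/
noncomputable def LB (s a b c A B G : ℝ) : ℝ :=
  psi s (a * b) + psi s (a * c) + psi s (b * c) - (a + b + c) * (a * A + b * B + c * G)

lemma LB_le_cR {F : Type*} [NormedAddCommGroup F] [InnerProductSpace ℝ F] (hs : 0 < s) {a b c : ℝ}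
    (ha : 0 < a) (hb : 0 < b) (hc : 0 < c) {x y z : F}
    (h1 : x ≠ y) (h2 : x ≠ z) (h3 : y ≠ z) :
    LB s a b c (‖x‖ ^ 2) (‖y‖ ^ 2) (‖z‖ ^ 2) ≤ cR s x y z := by
  have := cR_tangent hs ha hb hc h1 h2 h3
  have h0 : 0 ≤ ‖a • x + b • y + c • z‖ ^ 2 := by positivity
  unfold LB
  linarith

/-- `L₁`. -/
noncomputable def L1 (s ε : ℝ) : ℝ := LB s 1 (1 + ε) (1 + ε) (P1 s ε 1) (P2 s ε 1) (P2 s ε 1)
/-- `L₂`. -/
noncomputable def L2 (s ε : ℝ) : ℝ := LB s 1 (1 - ε) (1 - ε) (P1 s ε 1) (P3 s ε 1) (P3 s ε 1)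
/-- `Δ`. -/
noncomputable def Delta (s ε : ℝ) : ℝ := L1 s ε + L2 s ε - 2 * CC s ε 1

lemma Delta_eq (hs : 0 < s) (hε : |ε| < 1) :
    Delta s ε = kappa s * ((1 + ε) ^ pp s - (1 - ε) ^ pp s) ^ 2
      + 4 * ε * ((1 - ε) * P3 s ε 1 - (1 + ε) * P2 s ε 1) := by
  obtain ⟨h4, h5⟩ := abs_lt.mp hε
  have hk2 : 0 < 1 + ε := by linarith
  have hk3 : 0 < 1 - ε := by linarith
  have e := psi_sum (s := s) (ε := ε) (τ := 1) one_pos
  unfold Delta L1 L2 LB
  have e22 : psi s ((1 + ε) * (1 + ε)) = kappa s * ((1 + ε) ^ pp s) ^ 2 := by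
    rw [psi_eq hs (by positivity), Real.mul_rpow hk2.le hk2.le]; ring
  have e33 : psi s ((1 - ε) * (1 - ε)) = kappa s * ((1 - ε) ^ pp s) ^ 2 := by
    rw [psi_eq hs (by positivity), Real.mul_rpow hk3.le hk3.le]; ring
  have e23 : psi s ((1 + ε) * (1 - ε)) = kappa s * ((1 + ε) ^ pp s * (1 - ε) ^ pp s) := by
    rw [psi_eq hs (by positivity), Real.mul_rpow hk2.le hk3.le]
  rw [e22, e33]
  rw [e23] at e
  have hC : CC s ε 1 = psi s (1 * (1 + ε)) + psi s (1 * (1 - ε))
      + kappa s * ((1 + ε) ^ pp s * (1 - ε) ^ pp s)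
      - (1 + 2) * (1 * P1 s ε 1 + (1 + ε) * P2 s ε 1 + (1 - ε) * P3 s ε 1) := by
    linarith
  rw [hC]
  ring

lemma kappa_pos (hs : 0 < s) : 0 < kappa s := by
  have hc := c0_pos hs
  have : 0 < phi s (c0 s) := phi_pos hc
  unfold kappa; linarith

lemma eventually_Delta_pos (hs : 0 < s) : ∀ᶠ ε in 𝓝[>] (0 : ℝ), 0 < Delta s ε := by
  have h1 := eventually_k2P2_lt_k3P3 hs
  have h2 : ∀ᶠ ε in 𝓝[>] (0 : ℝ), |ε| < 1 := by
    have : ∀ᶠ ε in 𝓝 (0 : ℝ), |ε| < 1 := by
      have h : ContinuousAt (fun ε : ℝ => |ε|) 0 := continuous_abs.continuousAt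
      exact h.eventually (gt_mem_nhds (by simp))
    exact this.filter_mono nhdsWithin_le_nhds
  filter_upwards [h1, h2, self_mem_nhdsWithin] with ε h1 h2 h3
  have h3' : (0 : ℝ) < ε := h3
  rw [Delta_eq hs h2]
  have := kappa_pos hs
  have a : 0 ≤ kappa s * ((1 + ε) ^ pp s - (1 - ε) ^ pp s) ^ 2 := by positivity
  have b : 0 < 4 * ε * ((1 - ε) * P3 s ε 1 - (1 + ε) * P2 s ε 1) :=
    mul_pos (by positivity) (by linarith)
  linarith

/-! Twist coefficients. -/

/-- cosine-type coefficient. -/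
noncomputable def c1 (s ε : ℝ) (p : ℝ × ℝ) : ℝ :=
  ((P1 s ε p.1 + P2 s ε p.1 - D12 s ε p.1) / 2 + (p.1 / 2) * p.2) / (P1 s ε p.1 - p.2)
/-- discriminant. -/
noncomputable def disc (s ε : ℝ) (p : ℝ × ℝ) : ℝ :=
  (P2 s ε p.1 - (p.1 / 2) ^ 2 * p.2) / (P1 s ε p.1 - p.2) - c1 s ε p ^ 2
/-- sine-type coefficient. -/
noncomputable def s1 (s ε : ℝ) (p : ℝ × ℝ) : ℝ := Real.sqrt (disc s ε p)
/-- cosine-type coefficient of the third vertex. -/
noncomputable def c2 (s ε : ℝ) (p : ℝ × ℝ) : ℝ := -(p.1 + (1 + ε) * c1 s ε p) / (1 - ε)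
/-- sine-type coefficient of the third vertex. -/
noncomputable def s2 (s ε : ℝ) (p : ℝ × ℝ) : ℝ := -((1 + ε) * s1 s ε p) / (1 - ε)
/-- distance inside a cluster at the base point. -/
noncomputable def Gap (s ε : ℝ) : ℝ :=
  Real.sqrt (P1 s ε 1) * (|c1 s ε (1, 0) - c2 s ε (1, 0)| + |s1 s ε (1, 0) + s2 s ε (1, 0)|)
/-- value of the potential at the base of the first shell. -/
noncomputable def va (s ε : ℝ) : ℝ := L1 s ε - Delta s ε / 2
/-- value of the potential at the base of the third shell. -/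
noncomputable def vc (s ε : ℝ) : ℝ := CC s ε 1 - va s ε

section contEps

lemma continuousAt_psi_comp (hs : 0 < s) {u : ℝ → ℝ} (hu : ContinuousAt u 0) (h0 : 0 < u 0) :
    ContinuousAt (fun ε => psi s (u ε)) 0 := by
  have hc := c0_pos hs
  have hD : ContinuousAt (fun ε => Dd s (u ε)) 0 := by
    unfold Dd
    exact continuousAt_const.mul (hu.rpow_const (Or.inl h0.ne'))
  have hD0 : 0 < Dd s (u 0) := Dd_pos hs h0
  have hphi : ContinuousAt (fun ε => phi s (Dd s (u ε))) 0 := by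
    unfold phi
    exact hD.rpow_const (Or.inl hD0.ne')
  unfold psi
  exact hphi.add (hu.mul hD)

lemma continuousAt_CC_eps (hs : 0 < s) : ContinuousAt (fun ε => CC s ε 1) 0 := by
  have hc := c0_pos hs
  unfold CC phi
  refine ((continuousAt_D12_eps s).rpow_const (Or.inl ?_)).add
    ((continuousAt_D13_eps s).rpow_const (Or.inl ?_)) |>.add
    ((continuousAt_D23_eps s).rpow_const (Or.inl ?_))
  · rw [D12_zero]; exact hc.ne'
  · rw [D13_zero]; exact hc.ne'
  · rw [D23_zero]; exact hc.ne'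

lemma continuousAt_L1_eps (hs : 0 < s) : ContinuousAt (fun ε => L1 s ε) 0 := by
  have a := continuousAt_P1_eps s
  have b := continuousAt_P2_eps s
  unfold L1 LB
  have e1 : ContinuousAt (fun ε : ℝ => psi s (1 * (1 + ε))) 0 :=
    continuousAt_psi_comp hs (by fun_prop) (by norm_num)
  have e2 : ContinuousAt (fun ε : ℝ => psi s ((1 + ε) * (1 + ε))) 0 :=
    continuousAt_psi_comp hs (by fun_prop) (by norm_num)
  refine ContinuousAt.sub ((e1.add e1).add e2) ?_
  fun_prop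

lemma continuousAt_L2_eps (hs : 0 < s) : ContinuousAt (fun ε => L2 s ε) 0 := by
  have a := continuousAt_P1_eps s
  have b := continuousAt_P3_eps s
  unfold L2 LB
  have e1 : ContinuousAt (fun ε : ℝ => psi s (1 * (1 - ε))) 0 :=
    continuousAt_psi_comp hs (by fun_prop) (by norm_num)
  have e2 : ContinuousAt (fun ε : ℝ => psi s ((1 - ε) * (1 - ε))) 0 :=
    continuousAt_psi_comp hs (by fun_prop) (by norm_num)
  refine ContinuousAt.sub ((e1.add e1).add e2) ?_
  fun_prop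

lemma continuousAt_va_eps (hs : 0 < s) : ContinuousAt (fun ε => va s ε) 0 := by
  have a := continuousAt_L1_eps hs
  have b := continuousAt_L2_eps hs
  have c := continuousAt_CC_eps hs
  unfold va Delta
  fun_prop

lemma continuousAt_vc_eps (hs : 0 < s) : ContinuousAt (fun ε => vc s ε) 0 :=
  (continuousAt_CC_eps hs).sub (continuousAt_va_eps hs)

lemma continuousAt_c1_eps (hs : 0 < s) : ContinuousAt (fun ε => c1 s ε (1, 0)) 0 := by
  have a := continuousAt_P1_eps s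
  have b := continuousAt_P2_eps s
  have c := continuousAt_D12_eps s
  have hc := c0_pos hs
  unfold c1
  refine ContinuousAt.div ?_ ?_ ?_
  · simp only
    fun_prop
  · simp only
    fun_prop
  · simp only [P1_zero]
    have : 0 < c0 s / 3 := by positivity
    simpa using this.ne'

lemma continuousAt_disc_eps (hs : 0 < s) : ContinuousAt (fun ε => disc s ε (1, 0)) 0 := by
  have a := continuousAt_P1_eps s
  have b := continuousAt_P2_eps s
  have hc := c0_pos hs
  unfold disc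
  refine ContinuousAt.sub (ContinuousAt.div ?_ ?_ ?_) ((continuousAt_c1_eps hs).pow 2)
  · simp only
    fun_prop
  · simp only
    fun_prop
  · simp only [P1_zero]
    have : 0 < c0 s / 3 := by positivity
    simpa using this.ne'

lemma continuousAt_s1_eps (hs : 0 < s) : ContinuousAt (fun ε => s1 s ε (1, 0)) 0 := by
  unfold s1
  exact (continuousAt_disc_eps hs).sqrt

lemma continuousAt_c2_eps (hs : 0 < s) : ContinuousAt (fun ε => c2 s ε (1, 0)) 0 := by
  have a := continuousAt_c1_eps hs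
  unfold c2
  refine ContinuousAt.div ?_ (by fun_prop) (by norm_num)
  simp only
  fun_prop

lemma continuousAt_s2_eps (hs : 0 < s) : ContinuousAt (fun ε => s2 s ε (1, 0)) 0 := by
  have a := continuousAt_s1_eps hs
  unfold s2
  refine ContinuousAt.div ?_ (by fun_prop) (by norm_num)
  fun_prop

lemma continuousAt_Gap_eps (hs : 0 < s) : ContinuousAt (fun ε => Gap s ε) 0 := by
  have a := (continuousAt_P1_eps s).sqrt
  have b := continuousAt_c1_eps hs
  have c := continuousAt_c2_eps hs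
  have d := continuousAt_s1_eps hs
  have e := continuousAt_s2_eps hs
  unfold Gap
  exact a.mul (((b.sub c).abs).add ((d.add e).abs))

lemma c1_zero (hs : 0 < s) : c1 s 0 (1, 0) = -(1 / 2) := by
  have hc := (c0_pos hs).ne'
  unfold c1
  simp only [P1_zero, P2_zero, D12_zero, mul_zero, add_zero, sub_zero]
  field_simp
  ring

lemma disc_zero (hs : 0 < s) : disc s 0 (1, 0) = 3 / 4 := by
  have hc := (c0_pos hs).ne'
  unfold disc
  rw [c1_zero hs]
  simp only [P1_zero, P2_zero, mul_zero, add_zero, sub_zero]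
  field_simp
  ring

lemma Gap_zero (hs : 0 < s) : Gap s 0 = 0 := by
  have hc := c0_pos hs
  unfold Gap
  have e1 : c2 s 0 (1, 0) = -(1 / 2) := by
    unfold c2; rw [c1_zero hs]; norm_num
  have e2 : s2 s 0 (1, 0) = - s1 s 0 (1, 0) := by
    unfold s2; simp
  rw [e1, e2, c1_zero hs]
  simp

end contEps

/-- Choice of `ε` with all the needed properties. -/
structure GoodEps (s ε η U : ℝ) : Prop where
  eps_pos : 0 < ε
  eps_lt : ε < 1
  dP1_neg : dP1 s ε 1 < 0
  dP2_pos : 0 < dP2 s ε 1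
  dP3_pos : 0 < dP2 s (-ε) 1
  P1_pos : 0 < P1 s ε 1
  P2_pos : 0 < P2 s ε 1
  P3_pos : 0 < P3 s ε 1
  ord1 : P2 s ε 1 < P1 s ε 1
  ord2 : P1 s ε 1 < P3 s ε 1
  delta_pos : 0 < Delta s ε
  disc_pos : 0 < disc s ε (1, 0)
  gap : Gap s ε < η / 2
  eta_pos : 0 < η
  bound : |va s ε| + |vc s ε| + 1 ≤ U
  big : 3 * U ≤ η ^ (-s)

theorem exists_goodEps (hs : 0 < s) : ∃ ε η U, GoodEps s ε η U := by
  have hc := c0_pos hs
  set U : ℝ := |va s 0| + |vc s 0| + 2 with hU
  have hUpos : 0 < U := by positivity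
  set η : ℝ := (3 * U) ^ (-(1 / s)) with hη
  have hηpos : 0 < η := by positivity
  have hbig : 3 * U ≤ η ^ (-s) := by
    rw [hη, ← Real.rpow_mul (by positivity)]
    have : -(1 / s) * -s = 1 := by field_simp
    rw [this, Real.rpow_one]
  have nh : ∀ {P : ℝ → Prop}, (∀ᶠ ε in 𝓝 (0 : ℝ), P ε) → ∀ᶠ ε in 𝓝[>] (0 : ℝ), P ε :=
    fun h => h.filter_mono nhdsWithin_le_nhds
  have e1 : ∀ᶠ ε in 𝓝[>] (0 : ℝ), ε < 1 := nh (eventually_lt_nhds (by norm_num))
  have e2 : ∀ᶠ ε in 𝓝[>] (0 : ℝ), dP1 s ε 1 < 0 :=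
    nh ((continuousAt_dP1_eps s).eventually (gt_mem_nhds (dP1_central hs)))
  have e3 : ∀ᶠ ε in 𝓝[>] (0 : ℝ), 0 < dP2 s ε 1 :=
    nh ((continuousAt_dP2_eps s).eventually (lt_mem_nhds (dP2_central hs)))
  have e4 : ∀ᶠ ε in 𝓝[>] (0 : ℝ), 0 < dP2 s (-ε) 1 := by
    have hcont : ContinuousAt (fun ε => dP2 s (-ε) 1) 0 := by
      have h := continuousAt_dP2_eps s
      have h' : ContinuousAt (fun ε : ℝ => dP2 s ε 1) (-(0:ℝ)) := by simpa using h
      exact ContinuousAt.comp (f := fun ε : ℝ => -ε) h' continuous_neg.continuousAt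
    exact nh (hcont.eventually (lt_mem_nhds (by simpa using dP2_central hs)))
  have e5 : ∀ᶠ ε in 𝓝[>] (0 : ℝ), 0 < P1 s ε 1 :=
    nh ((continuousAt_P1_eps s).eventually (lt_mem_nhds (by show 0 < P1 s 0 1; rw [P1_zero]; positivity)))
  have e6 : ∀ᶠ ε in 𝓝[>] (0 : ℝ), 0 < P2 s ε 1 :=
    nh ((continuousAt_P2_eps s).eventually (lt_mem_nhds (by show 0 < P2 s 0 1; rw [P2_zero]; positivity)))
  have e7 : ∀ᶠ ε in 𝓝[>] (0 : ℝ), 0 < P3 s ε 1 :=
    nh ((continuousAt_P3_eps s).eventually (lt_mem_nhds (by show 0 < P3 s 0 1; rw [P3_zero]; positivity)))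
  have e8 := eventually_P2_lt_P1 hs
  have e9 := eventually_P1_lt_P3 hs
  have e10 := eventually_Delta_pos hs
  have e11 : ∀ᶠ ε in 𝓝[>] (0 : ℝ), 0 < disc s ε (1, 0) :=
    nh ((continuousAt_disc_eps hs).eventually (lt_mem_nhds (by show 0 < disc s 0 (1, 0); rw [disc_zero hs]; norm_num)))
  have e12 : ∀ᶠ ε in 𝓝[>] (0 : ℝ), Gap s ε < η / 2 :=
    nh ((continuousAt_Gap_eps hs).eventually (gt_mem_nhds (by show Gap s 0 < η / 2; rw [Gap_zero hs]; positivity)))
  have e13 : ∀ᶠ ε in 𝓝[>] (0 : ℝ), |va s ε| + |vc s ε| + 1 < U := by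
    have hcont : ContinuousAt (fun ε => |va s ε| + |vc s ε| + 1) 0 :=
      (((continuousAt_va_eps hs).abs).add ((continuousAt_vc_eps hs).abs)).add continuousAt_const
    refine nh (hcont.eventually (gt_mem_nhds ?_))
    rw [hU]; simp only; linarith
  have e14 : ∀ᶠ ε in 𝓝[>] (0 : ℝ), 0 < ε := self_mem_nhdsWithin
  obtain ⟨ε, h1, h2, h3, h4, h5, h6, h7, h8, h9, h10, h11, h12, h13, h14⟩ :=
    (e1.and (e2.and (e3.and (e4.and (e5.and (e6.and (e7.and (e8.and (e9.and (e10.and (e11.and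
      (e12.and (e13.and e14))))))))))))).exists
  exact ⟨ε, η, U, ⟨h14, h1, h2, h3, h4, h5, h6, h7, h8, h9, h10, h11, h12, hηpos, h13.le, hbig⟩⟩

end Crest.Agent.Lib.SCE
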