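import Crest.Agent.Lib.SCE.Maps

/-!
# S0175: the potentials on the shells; the real-valued dual inequality.
-/

set_option autoImplicit false
set_option linter.unusedSectionVars false
set_option linter.unusedVariables false

open MeasureTheory Set Filter Topology
open scoped ENNReal ContDiff NNReal Interval

namespace Crest.Agent.Lib.SCE

variable {s ε U : ℝ}

lemma measurable_indicator_of_continuousOn {f : ℝ → ℝ} {A : Set ℝ} (hA : IsOpen A)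
    (hf : ContinuousOn f A) : Measurable (A.indicator f) := by
  classical
  have h := hf.measurable_piecewise (g := fun _ => (0 : ℝ)) continuousOn_const hA.measurableSet
  have e : A.indicator f = A.piecewise f (fun _ => 0) := by
    funext x
    by_cases hx : x ∈ A <;> simp [hx]
  rwa [e]

namespace Shells

variable (Sh : Shells s ε U)

/-- the radial potential. -/
noncomputable def V (Sh : Shells s ε U) (t : ℝ) : ℝ :=
  (P1 s ε '' Ioo (1 - Sh.r) (1 + Sh.r)).indicator (fun t => Y1 s ε 0 (vc s ε) (Sh.I1 t)) t +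
  (P2 s ε '' Ioo (1 - Sh.r) (1 + Sh.r)).indicator (fun t => Y2 s ε 0 (Sh.I2 t)) t +
  (P3 s ε '' Ioo (1 - Sh.r) (1 + Sh.r)).indicator (fun t => Y3 s ε (vc s ε) (Sh.I3 t)) t

/-- the radial weight of the second potential. -/
noncomputable def Lam (Sh : Shells s ε U) (t : ℝ) : ℝ :=
  (P1 s ε '' Ioo (1 - Sh.r) (1 + Sh.r)).indicator (fun t => Sh.I1 t ^ 2 / 2) t +
  (P2 s ε '' Ioo (1 - Sh.r) (1 + Sh.r)).indicator (fun _ => -(1 + ε)) t +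
  (P3 s ε '' Ioo (1 - Sh.r) (1 + Sh.r)).indicator (fun _ => -(1 - ε)) t

lemma mem_W1_not {τ : ℝ} (hτ : τ ∈ Ioo (1 - Sh.r) (1 + Sh.r)) :
    P1 s ε τ ∉ P2 s ε '' Ioo (1 - Sh.r) (1 + Sh.r) ∧ P1 s ε τ ∉ P3 s ε '' Ioo (1 - Sh.r) (1 + Sh.r) := by
  constructor
  · rintro ⟨τ', hτ', he⟩
    exact Sh.disj12 τ hτ τ' hτ' he.symm
  · rintro ⟨τ', hτ', he⟩
    exact Sh.disj13 τ hτ τ' hτ' he.symm

lemma mem_W2_not {τ : ℝ} (hτ : τ ∈ Ioo (1 - Sh.r) (1 + Sh.r)) :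
    P2 s ε τ ∉ P1 s ε '' Ioo (1 - Sh.r) (1 + Sh.r) ∧ P2 s ε τ ∉ P3 s ε '' Ioo (1 - Sh.r) (1 + Sh.r) := by
  constructor
  · rintro ⟨τ', hτ', he⟩
    exact Sh.disj12 τ' hτ' τ hτ he
  · rintro ⟨τ', hτ', he⟩
    exact Sh.disj23 τ hτ τ' hτ' he.symm

lemma mem_W3_not {τ : ℝ} (hτ : τ ∈ Ioo (1 - Sh.r) (1 + Sh.r)) :
    P3 s ε τ ∉ P1 s ε '' Ioo (1 - Sh.r) (1 + Sh.r) ∧ P3 s ε τ ∉ P2 s ε '' Ioo (1 - Sh.r) (1 + Sh.r) := by
  constructor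
  · rintro ⟨τ', hτ', he⟩
    exact Sh.disj13 τ' hτ' τ hτ he
  · rintro ⟨τ', hτ', he⟩
    exact Sh.disj23 τ' hτ' τ hτ he

lemma V_P1 {τ : ℝ} (hτ : τ ∈ Ioo (1 - Sh.r) (1 + Sh.r)) : Sh.V (P1 s ε τ) = Y1 s ε 0 (vc s ε) τ := by
  obtain ⟨h2, h3⟩ := Sh.mem_W1_not hτ
  unfold V
  rw [indicator_of_notMem h2, indicator_of_notMem h3, indicator_of_mem (mem_image_of_mem _ hτ),
    Sh.I1_left τ hτ]
  ring

lemma V_P2 {τ : ℝ} (hτ : τ ∈ Ioo (1 - Sh.r) (1 + Sh.r)) : Sh.V (P2 s ε τ) = Y2 s ε 0 τ := by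
  obtain ⟨h2, h3⟩ := Sh.mem_W2_not hτ
  unfold V
  rw [indicator_of_notMem h2, indicator_of_notMem h3, indicator_of_mem (mem_image_of_mem _ hτ),
    Sh.I2_left τ hτ]
  ring

lemma V_P3 {τ : ℝ} (hτ : τ ∈ Ioo (1 - Sh.r) (1 + Sh.r)) : Sh.V (P3 s ε τ) = Y3 s ε (vc s ε) τ := by
  obtain ⟨h2, h3⟩ := Sh.mem_W3_not hτ
  unfold V
  rw [indicator_of_notMem h2, indicator_of_notMem h3, indicator_of_mem (mem_image_of_mem _ hτ),
    Sh.I3_left τ hτ]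
  ring

lemma Lam_P1 {τ : ℝ} (hτ : τ ∈ Ioo (1 - Sh.r) (1 + Sh.r)) : Sh.Lam (P1 s ε τ) = τ ^ 2 / 2 := by
  obtain ⟨h2, h3⟩ := Sh.mem_W1_not hτ
  unfold Lam
  rw [indicator_of_notMem h2, indicator_of_notMem h3, indicator_of_mem (mem_image_of_mem _ hτ),
    Sh.I1_left τ hτ]
  ring

lemma Lam_P2 {τ : ℝ} (hτ : τ ∈ Ioo (1 - Sh.r) (1 + Sh.r)) : Sh.Lam (P2 s ε τ) = -(1 + ε) := by
  obtain ⟨h2, h3⟩ := Sh.mem_W2_not hτ
  unfold Lam
  rw [indicator_of_notMem h2, indicator_of_notMem h3, indicator_of_mem (mem_image_of_mem _ hτ)]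
  ring

lemma Lam_P3 {τ : ℝ} (hτ : τ ∈ Ioo (1 - Sh.r) (1 + Sh.r)) : Sh.Lam (P3 s ε τ) = -(1 - ε) := by
  obtain ⟨h2, h3⟩ := Sh.mem_W3_not hτ
  unfold Lam
  rw [indicator_of_notMem h2, indicator_of_notMem h3, indicator_of_mem (mem_image_of_mem _ hτ)]
  ring

lemma measurable_V : Measurable Sh.V := by
  have h1 : Measurable ((P1 s ε '' Ioo (1 - Sh.r) (1 + Sh.r)).indicator
      (fun t => Y1 s ε 0 (vc s ε) (Sh.I1 t))) := by
    apply measurable_indicator_of_continuousOn Sh.W1_open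
    exact Sh.cont_Y1.comp Sh.I1_smooth.continuousOn (fun t ht => (Sh.I1_right t ht).1)
  have h2 : Measurable ((P2 s ε '' Ioo (1 - Sh.r) (1 + Sh.r)).indicator
      (fun t => Y2 s ε 0 (Sh.I2 t))) := by
    apply measurable_indicator_of_continuousOn Sh.W2_open
    exact Sh.cont_Y2.comp Sh.I2_smooth.continuousOn (fun t ht => (Sh.I2_right t ht).1)
  have h3 : Measurable ((P3 s ε '' Ioo (1 - Sh.r) (1 + Sh.r)).indicator
      (fun t => Y3 s ε (vc s ε) (Sh.I3 t))) := by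
    apply measurable_indicator_of_continuousOn Sh.W3_open
    exact Sh.cont_Y3.comp Sh.I3_smooth.continuousOn (fun t ht => (Sh.I3_right t ht).1)
  unfold V
  exact (h1.add h2).add h3

lemma measurable_Lam : Measurable Sh.Lam := by
  have h1 : Measurable ((P1 s ε '' Ioo (1 - Sh.r) (1 + Sh.r)).indicator
      (fun t => Sh.I1 t ^ 2 / 2)) := by
    apply measurable_indicator_of_continuousOn Sh.W1_open
    exact (Sh.I1_smooth.continuousOn.pow 2).div_const 2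
  have h2 : Measurable ((P2 s ε '' Ioo (1 - Sh.r) (1 + Sh.r)).indicator
      (fun _ : ℝ => -(1 + ε))) :=
    measurable_indicator_of_continuousOn Sh.W2_open continuousOn_const
  have h3 : Measurable ((P3 s ε '' Ioo (1 - Sh.r) (1 + Sh.r)).indicator
      (fun _ : ℝ => -(1 - ε))) :=
    measurable_indicator_of_continuousOn Sh.W3_open continuousOn_const
  unfold Lam
  exact (h1.add h2).add h3

end Shells

section Real

variable {F : Type*} [NormedAddCommGroup F] [InnerProductSpace ℝ F] (P : PlaneOps F)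
variable (Sh : Shells s ε U)

lemma cR_swap23 (s : ℝ) (x y z : F) : cR s x y z = cR s x z y := by
  unfold cR
  rw [norm_sub_rev y z]
  ring

lemma cR_swap12 (s : ℝ) (x y z : F) : cR s x y z = cR s y x z := by
  unfold cR
  rw [norm_sub_rev x y]
  ring

/-- real potential on the space. -/
noncomputable def Shells.uR (Sh : Shells s ε U) (x : F) : ℝ := Sh.V (‖x‖ ^ 2)
/-- second potential on the space. -/
noncomputable def Shells.wR (P : PlaneOps F) (Sh : Shells s ε U) (x : F) : ℝ :=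
  Sh.Lam (‖x‖ ^ 2) * ‖P.perp x‖ ^ 2

/-- A triple in equality position: a triangle of the curve, in the order of shells `1,2,3`. -/
def Shells.ProperEq (Sh : Shells s ε U) (x y z : F) : Prop :=
  ∃ τ ∈ Ioo (1 - Sh.r) (1 + Sh.r), ‖x‖ ^ 2 = P1 s ε τ ∧ ‖y‖ ^ 2 = P2 s ε τ ∧ ‖z‖ ^ 2 = P3 s ε τ ∧
    ‖x - y‖ ^ 2 = D12 s ε τ ∧ τ • x + (1 + ε) • y + (1 - ε) • z = 0

variable {Sh}
variable {x y z : F} {τ₁ τ₂ τ₃ : ℝ}

lemma proper_real (hs : 0 < s) (h1 : τ₁ ∈ Ioo (1 - Sh.r) (1 + Sh.r)) (h2 : τ₂ ∈ Ioo (1 - Sh.r) (1 + Sh.r))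
    (h3 : τ₃ ∈ Ioo (1 - Sh.r) (1 + Sh.r))
    (hx : ‖x‖ ^ 2 = P1 s ε τ₁) (hy : ‖y‖ ^ 2 = P2 s ε τ₂) (hz : ‖z‖ ^ 2 = P3 s ε τ₃)
    (hxy : x ≠ y) (hxz : x ≠ z) (hyz : y ≠ z) :
    Sh.uR x + Sh.uR y + Sh.uR z ≤ cR s x y z := by
  unfold Shells.uR
  rw [hx, hy, hz, Sh.V_P1 h1, Sh.V_P2 h2, Sh.V_P3 h3]
  exact proper_le hs Sh.good h1 h2 h3 hx hy hz hxy hxz hyz

lemma proper_real_eq (hs : 0 < s) (h1 : τ₁ ∈ Ioo (1 - Sh.r) (1 + Sh.r)) (h2 : τ₂ ∈ Ioo (1 - Sh.r) (1 + Sh.r))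
    (h3 : τ₃ ∈ Ioo (1 - Sh.r) (1 + Sh.r))
    (hx : ‖x‖ ^ 2 = P1 s ε τ₁) (hy : ‖y‖ ^ 2 = P2 s ε τ₂) (hz : ‖z‖ ^ 2 = P3 s ε τ₃)
    (hxy : x ≠ y) (hxz : x ≠ z) (hyz : y ≠ z)
    (heq : cR s x y z ≤ Sh.uR x + Sh.uR y + Sh.uR z) :
    Sh.ProperEq x y z := by
  unfold Shells.uR at heq
  rw [hx, hy, hz, Sh.V_P1 h1, Sh.V_P2 h2, Sh.V_P3 h3] at heq
  obtain ⟨e2, e3, e4, e5, e6, e7⟩ := proper_eq hs Sh.good h1 h2 h3 hx hy hz hxy hxz hyz heq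
  subst e2 e3
  exact ⟨τ₃, h3, hx, hy, hz, e4, e7⟩

lemma imp1_real (hs : 0 < s) (h1 : τ₁ ∈ Ioo (1 - Sh.r) (1 + Sh.r)) (h2 : τ₂ ∈ Ioo (1 - Sh.r) (1 + Sh.r))
    (h3 : τ₃ ∈ Ioo (1 - Sh.r) (1 + Sh.r))
    (hx : ‖x‖ ^ 2 = P1 s ε τ₁) (hy : ‖y‖ ^ 2 = P2 s ε τ₂) (hz : ‖z‖ ^ 2 = P2 s ε τ₃)
    (hxy : x ≠ y) (hxz : x ≠ z) (hyz : y ≠ z) :
    Sh.uR x + Sh.uR y + Sh.uR z < cR s x y z := by
  obtain ⟨h4, h5⟩ := abs_lt.mp Sh.good.abs_eps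
  have hk : 0 < 1 + ε := by linarith
  have := LB_le_cR hs one_pos hk hk hxy hxz hyz
  rw [hx, hy, hz] at this
  unfold Shells.uR
  rw [hx, hy, hz, Sh.V_P1 h1, Sh.V_P2 h2, Sh.V_P2 h3]
  exact lt_of_lt_of_le (Sh.imp1 τ₁ h1 τ₂ h2 τ₃ h3) this

lemma imp2_real (hs : 0 < s) (h1 : τ₁ ∈ Ioo (1 - Sh.r) (1 + Sh.r)) (h2 : τ₂ ∈ Ioo (1 - Sh.r) (1 + Sh.r))
    (h3 : τ₃ ∈ Ioo (1 - Sh.r) (1 + Sh.r))
    (hx : ‖x‖ ^ 2 = P1 s ε τ₁) (hy : ‖y‖ ^ 2 = P3 s ε τ₂) (hz : ‖z‖ ^ 2 = P3 s ε τ₃)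
    (hxy : x ≠ y) (hxz : x ≠ z) (hyz : y ≠ z) :
    Sh.uR x + Sh.uR y + Sh.uR z < cR s x y z := by
  obtain ⟨h4, h5⟩ := abs_lt.mp Sh.good.abs_eps
  have hk : 0 < 1 - ε := by linarith
  have := LB_le_cR hs one_pos hk hk hxy hxz hyz
  rw [hx, hy, hz] at this
  unfold Shells.uR
  rw [hx, hy, hz, Sh.V_P1 h1, Sh.V_P3 h2, Sh.V_P3 h3]
  exact lt_of_lt_of_le (Sh.imp2 τ₁ h1 τ₂ h2 τ₃ h3) this

/-- the second potential on an equality triple. -/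
lemma wR_proper {x y z : F} (h : Sh.ProperEq x y z) :
    Sh.wR P x + Sh.wR P y + Sh.wR P z = -((1 + ε) * (1 - ε) / 2 * ‖P.perp y - P.perp z‖ ^ 2) := by
  obtain ⟨τ, hτ, hx, hy, hz, -, hbal⟩ := h
  unfold Shells.wR
  rw [hx, hy, hz, Sh.Lam_P1 hτ, Sh.Lam_P2 hτ, Sh.Lam_P3 hτ]
  have hperp := congrArg P.perp hbal
  have h0 : P.perp (0 : F) = 0 := by
    unfold PlaneOps.perp; simp
  rw [PlaneOps.perp_add, PlaneOps.perp_add, PlaneOps.perp_smul, PlaneOps.perp_smul,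
    PlaneOps.perp_smul, h0] at hperp
  have e : τ • P.perp x = -((1 + ε) • P.perp y + (1 - ε) • P.perp z) := by
    rw [add_assoc] at hperp
    exact eq_neg_of_add_eq_zero_left hperp
  have e2 : τ ^ 2 * ‖P.perp x‖ ^ 2 = ‖(1 + ε) • P.perp y + (1 - ε) • P.perp z‖ ^ 2 := by
    have := congrArg (fun v => ‖v‖ ^ 2) e
    simp only [norm_neg, norm_smul, mul_pow, Real.norm_eq_abs, sq_abs] at this
    exact this
  rw [norm_add_sq_real, norm_smul, norm_smul, real_inner_smul_left, real_inner_smul_right,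
    mul_pow, mul_pow] at e2
  simp only [Real.norm_eq_abs, sq_abs] at e2
  rw [norm_sub_sq_real]
  have e3 : τ ^ 2 / 2 * ‖P.perp x‖ ^ 2 = (τ ^ 2 * ‖P.perp x‖ ^ 2) / 2 := by ring
  rw [e3, e2]
  ring

lemma wR_proper_le {x y z : F} (h : Sh.ProperEq x y z) :
    Sh.wR P x + Sh.wR P y + Sh.wR P z ≤ 0 := by
  obtain ⟨h4, h5⟩ := abs_lt.mp Sh.good.abs_eps
  rw [wR_proper P h]
  have : 0 < (1 + ε) * (1 - ε) / 2 := by
    apply div_pos (mul_pos (by linarith) (by linarith)) two_pos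
  have h2 : 0 ≤ (1 + ε) * (1 - ε) / 2 * ‖P.perp y - P.perp z‖ ^ 2 := by positivity
  linarith

lemma perp_eq_of_wR {x y z : F} (h : Sh.ProperEq x y z)
    (h0 : Sh.wR P x + Sh.wR P y + Sh.wR P z = 0) : P.perp y = P.perp z := by
  obtain ⟨h4, h5⟩ := abs_lt.mp Sh.good.abs_eps
  rw [wR_proper P h] at h0
  have hc : (1 + ε) * (1 - ε) / 2 ≠ 0 := by
    have : 0 < (1 + ε) * (1 - ε) / 2 := by
      apply div_pos (mul_pos (by linarith) (by linarith)) two_pos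
    exact this.ne'
  have h2 : ‖P.perp y - P.perp z‖ ^ 2 = 0 := by
    have h3 : (1 + ε) * (1 - ε) / 2 * ‖P.perp y - P.perp z‖ ^ 2 = 0 := by linarith
    exact (mul_eq_zero.mp h3).resolve_left hc
  have h3 : ‖P.perp y - P.perp z‖ = 0 := by simpa using h2
  exact sub_eq_zero.mp (norm_eq_zero.mp h3)

/-- a large term from two close points. -/
lemma close_real (hs : 0 < s) {η : ℝ} (hη : 0 < η) (hbig : 3 * U ≤ η ^ (-s)) {a b c : F}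
    (hab : a ≠ b) (hac : a ≠ c) (hbc : b ≠ c) (hd : ‖a - b‖ < η)
    (ha : |Sh.uR a| ≤ U) (hb : |Sh.uR b| ≤ U) (hc : |Sh.uR c| ≤ U) :
    Sh.uR a + Sh.uR b + Sh.uR c < cR s a b c := by
  have h0 : 0 < ‖a - b‖ := norm_pos_iff.mpr (sub_ne_zero.mpr hab)
  have hp : phi s (‖a - b‖ ^ 2) = ‖a - b‖ ^ (-s) := by
    unfold phi
    rw [← Real.rpow_natCast, ← Real.rpow_mul h0.le]
    congr 1
    push_cast
    ring
  have h1 : η ^ (-s) < ‖a - b‖ ^ (-s) :=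
    Real.rpow_lt_rpow_of_neg h0 hd (by linarith)
  have h2 : 0 < phi s (‖a - c‖ ^ 2) := phi_pos (by
    have := norm_pos_iff.mpr (sub_ne_zero.mpr hac); positivity)
  have h3 : 0 < phi s (‖b - c‖ ^ 2) := phi_pos (by
    have := norm_pos_iff.mpr (sub_ne_zero.mpr hbc); positivity)
  have := le_abs_self (Sh.uR a)
  have := le_abs_self (Sh.uR b)
  have := le_abs_self (Sh.uR c)
  unfold cR
  rw [hp]
  linarith

end Real

end Crest.Agent.Lib.SCE
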