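import Mathlib
import Crest.Prelude.Def_MultiMarginal

/-!
# S0175: interface between the measure-theoretic part and the geometric part.

`Setup d s` packages everything the abstract measure-theoretic argument needs.
-/

set_option autoImplicit false

open MeasureTheory Set
open scoped ENNReal ContDiff NNReal
open Crest.AnalysisR.OT

namespace Crest.Agent.Lib.SCE

/-- The Euclidean space. -/
abbrev E (d : ℕ) := EuclideanSpace ℝ (Fin d)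

variable {d : ℕ}

/-- the measure `f² dx`. -/
noncomputable def sqMeas (f : E d → ℝ) : Measure (E d) :=
  volume.withDensity fun x => ENNReal.ofReal (f x ^ 2)

/-- Splitting property of `ν = g² dx`: two halves `A₀ A₁`, doubling maps `η_b`, halving maps `ζ_b`,
all moving points by less than `ε'`. -/
def Split (g : E d → ℝ) : Prop :=
  ∀ ε' : ℝ, 0 < ε' → ∃ (A₀ A₁ : Set (E d)) (η₀ η₁ ζ₀ ζ₁ : E d → E d),
    MeasurableSet A₀ ∧ MeasurableSet A₁ ∧ Disjoint A₀ A₁ ∧ A₀ ∪ A₁ = Set.univ ∧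
    Measurable η₀ ∧ Measurable η₁ ∧ Measurable ζ₀ ∧ Measurable ζ₁ ∧
    ((sqMeas g).restrict A₀).map η₀ = (2⁻¹ : ℝ≥0∞) • sqMeas g ∧
    ((sqMeas g).restrict A₁).map η₁ = (2⁻¹ : ℝ≥0∞) • sqMeas g ∧
    ((2⁻¹ : ℝ≥0∞) • sqMeas g).map ζ₀ = (sqMeas g).restrict A₀ ∧
    ((2⁻¹ : ℝ≥0∞) • sqMeas g).map ζ₁ = (sqMeas g).restrict A₁ ∧
    (∀ᵐ x ∂(sqMeas g), x ∈ A₀ → ‖η₀ x - x‖ < ε') ∧
    (∀ᵐ x ∂(sqMeas g), x ∈ A₁ → ‖η₁ x - x‖ < ε') ∧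
    (∀ᵐ x ∂(sqMeas g), ‖ζ₀ x - x‖ < ε') ∧
    (∀ᵐ x ∂(sqMeas g), ‖ζ₁ x - x‖ < ε')

/-- Everything the abstract argument needs. The four maps are `Ψ 0, Ψ 1` (first family of triples
`(x, Ψ 0 x, Ψ 1 x)`) and `Ψ 2, Ψ 3` (second family `(x, Ψ 2 x, Ψ 3 x)`). -/
structure Setup (d : ℕ) (s : ℝ) where
  /-- square root of the density of the source measure `ν = g² dx`. -/
  g : E d → ℝ
  g_nonneg : ∀ x, 0 ≤ g x
  g_smooth : ContDiff ℝ ∞ g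
  g_compact : HasCompactSupport g
  g_int : ∫ x, g x ^ 2 = 1
  g_split : Split g
  /-- the four maps. -/
  Ψ : Fin 4 → E d → E d
  /-- their left inverses on the support of `g`. -/
  Φ : Fin 4 → E d → E d
  Ψ_meas : ∀ i, Measurable (Ψ i)
  Φ_meas : ∀ i, Measurable (Φ i)
  Ψ_cont : ∀ i, ContinuousOn (Ψ i) (tsupport g)
  left_inv : ∀ i, ∀ x ∈ tsupport g, Φ i (Ψ i x) = x
  /-- square roots of the densities of the pushed-forward measures. -/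
  r : Fin 4 → E d → ℝ
  r_nonneg : ∀ i x, 0 ≤ r i x
  r_smooth : ∀ i, ContDiff ℝ ∞ (r i)
  r_compact : ∀ i, HasCompactSupport (r i)
  r_support : ∀ i y, r i y ≠ 0 → y ∈ Ψ i '' tsupport g
  r_map : ∀ i, (sqMeas g).map (Ψ i) = sqMeas (r i)
  /-- the five regions are pairwise disjoint. -/
  disj_0 : ∀ i, ∀ x ∈ tsupport g, ∀ y ∈ tsupport g, Ψ i y ≠ x
  disj_ij : ∀ i j, i ≠ j → ∀ x ∈ tsupport g, ∀ y ∈ tsupport g, Ψ i x ≠ Ψ j y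
  /-- the union of the five regions. -/
  S : Set (E d)
  S_eq : S = tsupport g ∪ ⋃ i, Ψ i '' tsupport g
  /-- dual potential (shifted to be nonnegative). -/
  u : E d → ℝ≥0∞
  u_meas : Measurable u
  Ubar : ℝ≥0
  u_bd : ∀ x ∈ S, u x ≤ Ubar
  /-- shift. -/
  B : ℝ≥0
  dual : ∀ x ∈ S, ∀ y ∈ S, ∀ z ∈ S, u x + u y + u z ≤ tripleCost s (x, y, z) + B
  eq_0 : ∀ x ∈ tsupport g, u x + u (Ψ 0 x) + u (Ψ 1 x) = tripleCost s (x, Ψ 0 x, Ψ 1 x) + B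
  eq_1 : ∀ x ∈ tsupport g, u x + u (Ψ 2 x) + u (Ψ 3 x) = tripleCost s (x, Ψ 2 x, Ψ 3 x) + B
  /-- both families of triples have the same cost above each source point. -/
  cost_eq : ∀ x ∈ tsupport g, tripleCost s (x, Ψ 0 x, Ψ 1 x) = tripleCost s (x, Ψ 2 x, Ψ 3 x)
  /-- second-stage potential. -/
  w : E d → ℝ
  w_meas : Measurable w
  Wbar : ℝ
  w_bd : ∀ x ∈ S, |w x| ≤ Wbar
  w_le : ∀ x ∈ S, ∀ y ∈ S, ∀ z ∈ S, u x + u y + u z = tripleCost s (x, y, z) + B →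
    w x + w y + w z ≤ 0
  w_eq_0 : ∀ x ∈ tsupport g, w x + w (Ψ 0 x) + w (Ψ 1 x) = 0
  w_eq_1 : ∀ x ∈ tsupport g, w x + w (Ψ 2 x) + w (Ψ 3 x) = 0
  /-- rigidity of the equality set. -/
  rigid : ∀ x ∈ tsupport g, ∀ y ∈ S, ∀ z ∈ S,
    u x + u y + u z = tripleCost s (x, y, z) + B → w x + w y + w z = 0 →
    (y = Ψ 0 x ∧ z = Ψ 1 x) ∨ (y = Ψ 1 x ∧ z = Ψ 0 x) ∨
      (y = Ψ 2 x ∧ z = Ψ 3 x) ∨ (y = Ψ 3 x ∧ z = Ψ 2 x)

/-- The target statement (same as the statement of S0175 after the quantifiers on `d, s`). -/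
def Target (d : ℕ) (s : ℝ) : Prop :=
  ∃ ρ : EuclideanSpace ℝ (Fin d) → ℝ, (∀ x, 0 ≤ ρ x) ∧ ContDiff ℝ ∞ ρ ∧ HasCompactSupport ρ ∧
      ContDiff ℝ ∞ (fun x => Real.sqrt (ρ x)) ∧ ∫ x, ρ x = 1 ∧
      ∃ π₀ : Measure (EuclideanSpace ℝ (Fin d) × EuclideanSpace ℝ (Fin d) × EuclideanSpace ℝ (Fin d)),
        IsCoupling₃ (measOfDensity ρ) π₀ ∧ ∫⁻ p, tripleCost s p ∂π₀ < ⊤ ∧
        (∀ π : Measure (EuclideanSpace ℝ (Fin d) × EuclideanSpace ℝ (Fin d) × EuclideanSpace ℝ (Fin d)), IsCoupling₃ (measOfDensity ρ) π →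
          ∫⁻ p, tripleCost s p ∂π₀ ≤ ∫⁻ p, tripleCost s p ∂π) ∧
        (∀ T₂ T₃ : EuclideanSpace ℝ (Fin d) → EuclideanSpace ℝ (Fin d), Measurable T₂ → Measurable T₃ →
          (measOfDensity ρ).map T₂ = measOfDensity ρ → (measOfDensity ρ).map T₃ = measOfDensity ρ →
          ∫⁻ p, tripleCost s p ∂π₀ < ∫⁻ x, tripleCost s (x, T₂ x, T₃ x) ∂(measOfDensity ρ)) ∧
        (∀ ε : ℝ≥0∞, 0 < ε → ∃ T₂ T₃ : EuclideanSpace ℝ (Fin d) → EuclideanSpace ℝ (Fin d), Measurable T₂ ∧ Measurable T₃ ∧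
          (measOfDensity ρ).map T₂ = measOfDensity ρ ∧ (measOfDensity ρ).map T₃ = measOfDensity ρ ∧
          ∫⁻ x, tripleCost s (x, T₂ x, T₃ x) ∂(measOfDensity ρ) < ∫⁻ p, tripleCost s p ∂π₀ + ε)

end Crest.Agent.Lib.SCE
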