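import Crest.Agent.Lib.SCE.Split1D
import Crest.Agent.Lib.SCE.Spec

/-!
# S0175, module B: a small smooth bump with the splitting property.
-/

set_option autoImplicit false
set_option linter.unusedSectionVars false
set_option linter.unusedVariables false

open MeasureTheory Set
open scoped ENNReal NNReal ContDiff

namespace Crest.Agent.Lib.SCE.SplitAux

section Pi

variable {ι : Type*} [Fintype ι] [DecidableEq ι]

/-- the coordinate map: `φ` at `i₀` and the identity elsewhere. -/
def fc (i₀ : ι) (φ : ℝ → ℝ) (i : ι) : ℝ → ℝ := if i = i₀ then φ else id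

/-- product map. -/
def hatF (i₀ : ι) (φ : ℝ → ℝ) (x : ι → ℝ) : ι → ℝ := fun i => fc i₀ φ i (x i)

lemma fc_meas {i₀ : ι} {φ : ℝ → ℝ} (hφ : Measurable φ) (i : ι) : Measurable (fc i₀ φ i) := by
  unfold fc
  split_ifs
  · exact hφ
  · exact measurable_id

lemma hatF_meas {i₀ : ι} {φ : ℝ → ℝ} (hφ : Measurable φ) : Measurable (hatF i₀ φ) :=
  measurable_pi_lambda _ fun i => (fc_meas hφ i).comp (measurable_pi_apply i)

lemma pi_scale {a b : ι → Measure ℝ} [∀ i, SigmaFinite (a i)] [∀ i, SigmaFinite (b i)] (i₀ : ι)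
    (c : ℝ≥0∞) (h0 : c • a i₀ = b i₀) (h : ∀ i, i ≠ i₀ → a i = b i) :
    c • Measure.pi a = Measure.pi b := by
  symm
  refine Measure.pi_eq fun s hs => ?_
  rw [Measure.smul_apply, Measure.pi_pi, smul_eq_mul,
    ← Finset.mul_prod_erase _ _ (Finset.mem_univ i₀), ← Finset.mul_prod_erase _ _ (Finset.mem_univ i₀),
    ← mul_assoc, ← h0, Measure.smul_apply, smul_eq_mul]
  congr 1
  refine Finset.prod_congr rfl fun i hi => ?_
  rw [h i (Finset.ne_of_mem_erase hi)]

/-- Lifting one half of a splitting from a coordinate to the product. -/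
lemma hs_pi {M : ι → Measure ℝ} [∀ i, IsProbabilityMeasure (M i)] {i₀ : ι} {A : Set ℝ}
    {η ζ : ℝ → ℝ} {ε : ℝ} (h : HS (M i₀) (fun x y => |x - y|) ε A η ζ)
    {dd : (ι → ℝ) → (ι → ℝ) → ℝ}
    (hdd : ∀ φ x, dd (hatF i₀ φ x) x = |φ (x i₀) - x i₀|) :
    HS (Measure.pi M) dd ε ((fun x => x i₀) ⁻¹' A) (hatF i₀ η) (hatF i₀ ζ) := by
  obtain ⟨s, hs0, hs1⟩ : ∃ s : ι → Set ℝ, s i₀ = A ∧ ∀ i, i ≠ i₀ → s i = univ :=
    ⟨fun i => if i = i₀ then A else univ, by simp, fun i hi => by simp [hi]⟩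
  have hbox : (fun x : ι → ℝ => x i₀) ⁻¹' A = Set.univ.pi s := by
    ext x
    simp only [mem_preimage, mem_pi, mem_univ, true_imp_iff]
    constructor
    · intro hx i
      by_cases hi : i = i₀
      · subst hi; rw [hs0]; exact hx
      · rw [hs1 i hi]; exact mem_univ _
    · intro hx
      have := hx i₀
      rwa [hs0] at this
  have hfc0 : ∀ φ : ℝ → ℝ, fc i₀ φ i₀ = φ := fun φ => by simp [fc]
  have hfc1 : ∀ (φ : ℝ → ℝ) (i : ι), i ≠ i₀ → fc i₀ φ i = id := fun φ i hi => by simp [fc, hi]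
  refine ⟨measurable_pi_apply i₀ h.mA, hatF_meas h.mη, hatF_meas h.mζ, ?_, ?_, ?_, ?_⟩
  · rw [hbox, Measure.restrict_pi_pi]
    have e : (Measure.pi fun i => (M i).restrict (s i)).map (hatF i₀ η) =
        Measure.pi fun i => ((M i).restrict (s i)).map (fc i₀ η i) :=
      Measure.pi_map_pi fun i => (fc_meas h.mη i).aemeasurable
    rw [e]
    symm
    refine pi_scale i₀ _ ?_ ?_
    · rw [hs0, hfc0]; exact h.pη.symm
    · intro i hi
      rw [hs1 i hi, hfc1 η i hi, Measure.restrict_univ, Measure.map_id]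
  · rw [hbox, Measure.restrict_pi_pi, Measure.map_smul]
    have e : (Measure.pi M).map (hatF i₀ ζ) = Measure.pi fun i => (M i).map (fc i₀ ζ i) :=
      Measure.pi_map_pi fun i => (fc_meas h.mζ i).aemeasurable
    rw [e]
    refine pi_scale i₀ _ ?_ ?_
    · rw [hs0, hfc0, ← Measure.map_smul]; exact h.pζ
    · intro i hi
      rw [hs1 i hi, hfc1 ζ i hi, Measure.restrict_univ, Measure.map_id]
  · have := (Measure.tendsto_eval_ae_ae (μ := M) (i := i₀)).eventually h.nη
    filter_upwards [this] with x hx hA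
    rw [hdd]
    exact hx hA
  · have := (Measure.tendsto_eval_ae_ae (μ := M) (i := i₀)).eventually h.nζ
    filter_upwards [this] with x hx
    rw [hdd]
    exact hx

end Pi

/-- Transport of one half of a splitting under a measurable equivalence. -/
lemma hs_transport {X Y : Type*} [MeasurableSpace X] [MeasurableSpace Y] (e : X ≃ᵐ Y)
    {m : Measure X} {dd : X → X → ℝ} {dd' : Y → Y → ℝ} {ε : ℝ} {A : Set X} {η ζ : X → X}
    (h : HS m dd ε A η ζ) (hdd : ∀ x y, dd' (e x) (e y) = dd x y) :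
    HS (m.map e) dd' ε (e.symm ⁻¹' A) (e ∘ η ∘ e.symm) (e ∘ ζ ∘ e.symm) := by
  have hA : MeasurableSet (e.symm ⁻¹' A) := e.symm.measurable h.mA
  have hpre : e ⁻¹' (e.symm ⁻¹' A) = A := by
    ext x; simp
  have hres : (m.map e).restrict (e.symm ⁻¹' A) = (m.restrict A).map e := by
    rw [Measure.restrict_map e.measurable hA, hpre]
  have hc : ∀ φ : X → X, (e ∘ φ ∘ e.symm) ∘ e = e ∘ φ := fun φ => by
    ext x; simp
  have hmeas : ∀ φ : X → X, Measurable φ → Measurable (e ∘ φ ∘ e.symm) := fun φ hφ =>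
    e.measurable.comp (hφ.comp e.symm.measurable)
  refine ⟨hA, hmeas η h.mη, hmeas ζ h.mζ, ?_, ?_, ?_, ?_⟩
  · rw [hres, Measure.map_map (hmeas η h.mη) e.measurable, hc, ← Measure.map_map e.measurable h.mη,
      h.pη, Measure.map_smul]
  · rw [hres, ← h.pζ]
    simp only [Measure.map_smul]
    rw [Measure.map_map (hmeas ζ h.mζ) e.measurable, hc, Measure.map_map e.measurable h.mζ]
  · rw [e.measurableEmbedding.ae_map_iff]
    filter_upwards [h.nη] with x hx hA
    simp only [mem_preimage, MeasurableEquiv.symm_apply_apply] at hA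
    simp only [Function.comp_apply, MeasurableEquiv.symm_apply_apply]
    rw [hdd]
    exact hx hA
  · rw [e.measurableEmbedding.ae_map_iff]
    filter_upwards [h.nζ] with x hx
    simp only [Function.comp_apply, MeasurableEquiv.symm_apply_apply]
    rw [hdd]
    exact hx

section Bump

/-- the basic bump. -/
noncomputable def ψ (r τ : ℝ) : ℝ := expNegInvGlue (τ + r) * expNegInvGlue (r - τ)

lemma ψ_smooth (r : ℝ) : ContDiff ℝ ∞ (ψ r) := by
  unfold ψ
  exact (expNegInvGlue.contDiff.comp (contDiff_id.add contDiff_const)).mul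
    (expNegInvGlue.contDiff.comp (contDiff_const.sub contDiff_id))

lemma ψ_nonneg (r τ : ℝ) : 0 ≤ ψ r τ := mul_nonneg (expNegInvGlue.nonneg _) (expNegInvGlue.nonneg _)

lemma ψ_pos {r τ : ℝ} (h : τ ∈ Ioo (-r) r) : 0 < ψ r τ :=
  mul_pos (expNegInvGlue.pos_of_pos (by linarith [h.1])) (expNegInvGlue.pos_of_pos (by linarith [h.2]))

lemma ψ_zero {r τ : ℝ} (h : τ ∉ Ioo (-r) r) : ψ r τ = 0 := by
  unfold ψ
  rw [mem_Ioo, not_and_or, not_lt, not_lt] at h
  rcases h with h | h
  · rw [expNegInvGlue.zero_of_nonpos (by linarith), zero_mul]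
  · rw [expNegInvGlue.zero_of_nonpos (x := r - τ) (by linarith), mul_zero]

lemma ψsq_compact (r : ℝ) : HasCompactSupport fun τ => ψ r τ ^ 2 :=
  HasCompactSupport.intro (isCompact_Icc (a := -r) (b := r)) fun τ hτ => by
    have : ψ r τ = 0 := ψ_zero fun h => hτ (Ioo_subset_Icc_self h)
    simp [this]

lemma int_ψ_pos {r : ℝ} (hr : 0 < r) : 0 < ∫ τ, ψ r τ ^ 2 := by
  have hc : Continuous fun τ => ψ r τ ^ 2 := ((ψ_smooth r).continuous).pow 2
  refine hc.integral_pos_of_hasCompactSupport_nonneg_nonzero (ψsq_compact r) (fun τ => by positivity)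
    (x := 0) ?_
  have := ψ_pos (r := r) (τ := 0) ⟨by linarith, hr⟩
  positivity

/-- normalisation constant. -/
noncomputable def cc (r : ℝ) : ℝ := (Real.sqrt (∫ τ, ψ r τ ^ 2))⁻¹

/-- the one-dimensional bump. -/
noncomputable def hh (r a t : ℝ) : ℝ := cc r * ψ r (t - a)

lemma cc_pos {r : ℝ} (hr : 0 < r) : 0 < cc r := by
  unfold cc
  have := int_ψ_pos hr
  positivity

lemma hh_smooth (r a : ℝ) : ContDiff ℝ ∞ (hh r a) := by
  unfold hh
  exact contDiff_const.mul ((ψ_smooth r).comp (contDiff_id.sub contDiff_const))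

lemma hh_nonneg {r : ℝ} (hr : 0 < r) (a t : ℝ) : 0 ≤ hh r a t :=
  mul_nonneg (cc_pos hr).le (ψ_nonneg _ _)

lemma dens_hh {r : ℝ} (hr : 0 < r) (a : ℝ) : Dens (fun t => hh r a t ^ 2) (a - r) (a + r) := by
  have hcc := cc_pos hr
  refine ⟨(hh_smooth r a).continuous.pow 2, fun t => by positivity, by linarith, ?_, ?_, ?_⟩
  · intro t ht
    have h1 : 0 < ψ r (t - a) := ψ_pos ⟨by linarith [ht.1], by linarith [ht.2]⟩
    have h2 : 0 < hh r a t := mul_pos hcc h1
    positivity
  · intro t ht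
    have h1 : ψ r (t - a) = 0 := ψ_zero fun h => ht ⟨by linarith [h.1], by linarith [h.2]⟩
    simp [hh, h1]
  · have e : ∀ t, hh r a t ^ 2 = (cc r) ^ 2 * (fun τ => ψ r τ ^ 2) (t - a) := fun t => by
      unfold hh; ring
    simp_rw [e]
    rw [integral_const_mul, integral_sub_right_eq_self (fun τ => ψ r τ ^ 2) a]
    unfold cc
    rw [inv_pow, Real.sq_sqrt (int_ψ_pos hr).le]
    exact inv_mul_cancel₀ (int_ψ_pos hr).ne'

end Bump

section Main

variable {d : ℕ}

/-- the bump in `d` dimensions. -/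
noncomputable def gg (r : ℝ) (a : E d) (x : E d) : ℝ := ∏ i, hh r (a i) (x i)

lemma gg_nonneg {r : ℝ} (hr : 0 < r) (a x : E d) : 0 ≤ gg r a x :=
  Finset.prod_nonneg fun i _ => hh_nonneg hr _ _

lemma gg_smooth (r : ℝ) (a : E d) : ContDiff ℝ ∞ (gg r a) := by
  unfold gg
  refine contDiff_prod fun i _ => ?_
  exact (hh_smooth r (a i)).comp (EuclideanSpace.proj i : E d →L[ℝ] ℝ).contDiff

/-- each coordinate measure. -/
noncomputable def MM (r : ℝ) (hr : 0 < r) (a : E d) (i : Fin d) : Measure ℝ := (dens_hh hr (a i)).m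

instance {r : ℝ} (hr : 0 < r) (a : E d) (i : Fin d) : IsProbabilityMeasure (MM r hr a i) :=
  (dens_hh hr (a i)).isProb

lemma gg_toLp_sq (r : ℝ) (a : E d) (y : Fin d → ℝ) :
    gg r a (WithLp.toLp 2 y) ^ 2 = ∏ i, (hh r (a i) (y i)) ^ 2 := by
  unfold gg
  rw [← Finset.prod_pow]

/-- the source measure in coordinates is a product measure. -/
lemma map_sqMeas {r : ℝ} (hr : 0 < r) (a : E d) :
    Measure.pi (MM r hr a) = (sqMeas (gg r a)).map (MeasurableEquiv.toLp 2 (Fin d → ℝ)).symm := by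
  have hm : Measurable (MeasurableEquiv.toLp 2 (Fin d → ℝ)).symm :=
    (MeasurableEquiv.toLp 2 (Fin d → ℝ)).symm.measurable
  refine Measure.pi_eq fun s hs => ?_
  rw [Measure.map_apply hm (MeasurableSet.univ_pi hs)]
  unfold sqMeas
  rw [withDensity_apply _ (hm (MeasurableSet.univ_pi hs))]
  have hpres := EuclideanSpace.volume_preserving_symm_measurableEquiv_toLp (Fin d)
  have hc : Continuous fun y : Fin d → ℝ => gg r a (WithLp.toLp 2 y) ^ 2 := by
    refine ((gg_smooth r a).continuous.comp ?_).pow 2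
    exact PiLp.continuous_toLp 2 _
  have e1 := hpres.setLIntegral_comp_preimage (s := Set.univ.pi s)
    (f := fun y => ENNReal.ofReal (gg r a (WithLp.toLp 2 y) ^ 2)) (MeasurableSet.univ_pi hs)
    (hc.measurable.ennreal_ofReal)
  have e2 : ∀ x : E d, gg r a (WithLp.toLp 2 ((MeasurableEquiv.toLp 2 (Fin d → ℝ)).symm x)) = gg r a x :=
    fun x => rfl
  simp only [e2] at e1
  rw [e1]
  -- now compute on the product
  set F : (i : Fin d) → ℝ → ℝ := fun i => (s i).indicator fun t => hh r (a i) t ^ 2 with hF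
  have hprod : ∀ y : Fin d → ℝ, (Set.univ.pi s).indicator
      (fun y => ENNReal.ofReal (gg r a (WithLp.toLp 2 y) ^ 2)) y = ENNReal.ofReal (∏ i, F i (y i)) := by
    intro y
    by_cases hy : y ∈ Set.univ.pi s
    · rw [indicator_of_mem hy, gg_toLp_sq]
      congr 1
      refine Finset.prod_congr rfl fun i _ => ?_
      rw [hF]
      simp only
      rw [indicator_of_mem (hy i (mem_univ i))]
    · rw [indicator_of_notMem hy]
      have : ∃ i, y i ∉ s i := by
        by_contra hcon
        push Not at hcon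
        exact hy fun i _ => hcon i
      obtain ⟨i, hi⟩ := this
      have hz : ∏ j, F j (y j) = 0 :=
        Finset.prod_eq_zero (Finset.mem_univ i) (by rw [hF]; simp only; rw [indicator_of_notMem hi])
      rw [hz, ENNReal.ofReal_zero]
  have hFi : ∀ i, Integrable (F i) volume := fun i =>
    (dens_hh hr (a i)).integrable.indicator (hs i)
  have hFn : ∀ i t, 0 ≤ F i t := fun i t => by
    rw [hF]
    exact indicator_nonneg (fun t _ => by positivity) t
  have hFm : ∀ i, ENNReal.ofReal (∫ t, F i t) = MM r hr a i (s i) := by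
    intro i
    unfold MM Dens.m
    rw [withDensity_apply _ (hs i), ← lintegral_indicator (hs i),
      ofReal_integral_eq_lintegral_ofReal (hFi i) (Filter.Eventually.of_forall (hFn i))]
    refine lintegral_congr fun t => ?_
    rw [hF]
    simp only
    by_cases ht : t ∈ s i
    · rw [indicator_of_mem ht, indicator_of_mem ht]
    · rw [indicator_of_notMem ht, indicator_of_notMem ht, ENNReal.ofReal_zero]
  rw [← lintegral_indicator (MeasurableSet.univ_pi hs)]
  simp_rw [hprod]
  have hInt : Integrable (fun y : Fin d → ℝ => ∏ i, F i (y i)) volume := Integrable.fintype_prod hFi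
  rw [← ofReal_integral_eq_lintegral_ofReal hInt
    (Filter.Eventually.of_forall fun y => Finset.prod_nonneg fun i _ => hFn i _)]
  have hI : ∫ y : Fin d → ℝ, ∏ i, F i (y i) = ∏ i, ∫ t, F i t :=
    integral_fintype_prod_volume_eq_prod F
  rw [hI, ENNReal.ofReal_prod_of_nonneg fun i _ => integral_nonneg (hFn i)]
  exact Finset.prod_congr rfl fun i _ => hFm i

lemma sqMeas_eq_map {r : ℝ} (hr : 0 < r) (a : E d) :
    sqMeas (gg r a) = (Measure.pi (MM r hr a)).map (MeasurableEquiv.toLp 2 (Fin d → ℝ)) := by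
  rw [map_sqMeas hr a, Measure.map_map (MeasurableEquiv.toLp 2 (Fin d → ℝ)).measurable
    (MeasurableEquiv.toLp 2 (Fin d → ℝ)).symm.measurable]
  simp

/-- The Euclidean displacement of a map changing one coordinate only. -/
lemma dd_hatF {i₀ : Fin d} (φ : ℝ → ℝ) (x : Fin d → ℝ) :
    ‖(WithLp.toLp 2 (hatF i₀ φ x) : E d) - WithLp.toLp 2 x‖ = |φ (x i₀) - x i₀| := by
  rw [EuclideanSpace.norm_eq]
  rw [Finset.sum_eq_single i₀]
  · simp only [PiLp.sub_apply, hatF, fc, if_true, Real.norm_eq_abs, sq_abs]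
    exact Real.sqrt_sq_eq_abs _
  · intro i _ hi
    simp [hatF, fc, hi]
  · simp

/-- the splitting of the bump. -/
theorem split_gg {r : ℝ} (hr : 0 < r) (hd : 0 < d) (a : E d) : Split (gg r a) := by
  intro ε' hε'
  set i₀ : Fin d := ⟨0, hd⟩
  obtain ⟨A₀, A₁, η₀, η₁, ζ₀, ζ₁, hdj, hun, h0, h1⟩ := (dens_hh hr (a i₀)).split hε'
  set e := MeasurableEquiv.toLp 2 (Fin d → ℝ) with he
  have hP0 : HS (Measure.pi (MM r hr a)) (fun x y => ‖(WithLp.toLp 2 x : E d) - WithLp.toLp 2 y‖) ε'
      ((fun x => x i₀) ⁻¹' A₀) (hatF i₀ η₀) (hatF i₀ ζ₀) :=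
    hs_pi (M := MM r hr a) h0 fun φ x => dd_hatF φ x
  have hP1 : HS (Measure.pi (MM r hr a)) (fun x y => ‖(WithLp.toLp 2 x : E d) - WithLp.toLp 2 y‖) ε'
      ((fun x => x i₀) ⁻¹' A₁) (hatF i₀ η₁) (hatF i₀ ζ₁) :=
    hs_pi (M := MM r hr a) h1 fun φ x => dd_hatF φ x
  have hE0 := hs_transport (dd' := fun x y : E d => ‖x - y‖) e hP0 fun x y => rfl
  have hE1 := hs_transport (dd' := fun x y : E d => ‖x - y‖) e hP1 fun x y => rfl
  rw [← sqMeas_eq_map hr a] at hE0 hE1
  refine ⟨_, _, _, _, _, _, hE0.mA, hE1.mA, ?_, ?_, hE0.mη, hE1.mη, hE0.mζ, hE1.mζ, hE0.pη, hE1.pη,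
    hE0.pζ, hE1.pζ, hE0.nη, hE1.nη, hE0.nζ, hE1.nζ⟩
  · exact (hdj.preimage _).preimage _
  · rw [← preimage_union, ← preimage_union, hun]
    simp

end Main

end Crest.Agent.Lib.SCE.SplitAux

namespace Crest.Agent.Lib.SCE

open SplitAux

variable {d : ℕ}

/-- Module B: a small nonnegative smooth bump of unit `L²` norm with the splitting property. -/
theorem exists_split_bump (hd : 0 < d) (a : E d) {δ : ℝ} (hδ : 0 < δ) :
    ∃ g : E d → ℝ, (∀ x, 0 ≤ g x) ∧ ContDiff ℝ ∞ g ∧ HasCompactSupport g ∧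
      tsupport g ⊆ Metric.closedBall a δ ∧ ∫ x, g x ^ 2 = 1 ∧ Split g := by
  have hdpos : (0 : ℝ) < d := by exact_mod_cast hd
  have hd1 : (1 : ℝ) ≤ d := by exact_mod_cast hd
  set r : ℝ := δ / d with hrd
  have hr : 0 < r := by positivity
  have hsub : ∀ x, gg r a x ≠ 0 → x ∈ Metric.closedBall a δ := by
    intro x hx
    have hi : ∀ i, |x i - a i| < r := by
      intro i
      have hne : hh r (a i) (x i) ≠ 0 := by
        intro h0
        exact hx (Finset.prod_eq_zero (Finset.mem_univ i) h0)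
      have hne2 : ψ r (x i - a i) ≠ 0 := fun h0 => hne (by simp [hh, h0])
      have hmem : x i - a i ∈ Ioo (-r) r := by
        by_contra hcon
        exact hne2 (ψ_zero hcon)
      exact abs_lt.2 hmem
    rw [Metric.mem_closedBall, EuclideanSpace.dist_eq]
    have hs : ∑ i, dist (x i) (a i) ^ 2 ≤ δ ^ 2 := by
      calc ∑ i, dist (x i) (a i) ^ 2 ≤ ∑ _i : Fin d, r ^ 2 := by
            refine Finset.sum_le_sum fun i _ => ?_
            rw [Real.dist_eq]
            exact pow_le_pow_left₀ (abs_nonneg _) (hi i).le 2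
        _ = d * r ^ 2 := by simp
        _ = δ ^ 2 / d := by rw [hrd]; field_simp
        _ ≤ δ ^ 2 := div_le_self (by positivity) hd1
    calc Real.sqrt (∑ i, dist (x i) (a i) ^ 2) ≤ Real.sqrt (δ ^ 2) := Real.sqrt_le_sqrt hs
      _ = δ := Real.sqrt_sq hδ.le
  have hts : tsupport (gg r a) ⊆ Metric.closedBall a δ :=
    closure_minimal (fun x hx => hsub x hx) Metric.isClosed_closedBall
  have hcs : HasCompactSupport (gg r a) :=
    HasCompactSupport.of_support_subset_isCompact (isCompact_closedBall a δ) fun x hx => hsub x hx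
  refine ⟨gg r a, gg_nonneg hr a, gg_smooth r a, hcs, hts, ?_, split_gg hr hd a⟩
  -- total mass
  have hc : Continuous fun x => gg r a x ^ 2 := (gg_smooth r a).continuous.pow 2
  have hint : Integrable (fun x => gg r a x ^ 2) (volume : Measure (E d)) :=
    hc.integrable_of_hasCompactSupport (HasCompactSupport.intro (isCompact_closedBall a δ) fun x hx => by
      have : gg r a x = 0 := by
        by_contra h
        exact hx (hsub x h)
      simp [this])
  have huniv : sqMeas (gg r a) univ = 1 := by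
    rw [sqMeas_eq_map hr a, Measure.map_apply (MeasurableEquiv.toLp 2 (Fin d → ℝ)).measurable
      MeasurableSet.univ, preimage_univ]
    exact measure_univ
  unfold sqMeas at huniv
  rw [withDensity_apply _ MeasurableSet.univ, Measure.restrict_univ] at huniv
  rw [integral_eq_lintegral_of_nonneg_ae (Filter.Eventually.of_forall fun x => by positivity)
    hint.aestronglyMeasurable, huniv]
  simp

end Crest.Agent.Lib.SCE
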