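import Crest.Agent.Lib.SCE.SplitLeb

/-!
# S0175, module B, part 1: doubling and halving for a one-dimensional density, via its CDF.
-/

set_option autoImplicit false
set_option linter.unusedSectionVars false
set_option linter.unusedVariables false

open MeasureTheory Set
open scoped ENNReal NNReal

namespace Crest.Agent.Lib.SCE.SplitAux

/-- One half of a splitting: a set `A`, a doubling map `η` and a halving map `ζ`. -/
structure HS {X : Type*} [MeasurableSpace X] (m : Measure X) (dd : X → X → ℝ) (ε : ℝ) (A : Set X)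
    (η ζ : X → X) : Prop where
  mA : MeasurableSet A
  mη : Measurable η
  mζ : Measurable ζ
  pη : (m.restrict A).map η = (2⁻¹ : ℝ≥0∞) • m
  pζ : ((2⁻¹ : ℝ≥0∞) • m).map ζ = m.restrict A
  nη : ∀ᵐ x ∂m, x ∈ A → dd (η x) x < ε
  nζ : ∀ᵐ x ∂m, dd (ζ x) x < ε

/-- The data of a one-dimensional density. -/
structure Dens (f : ℝ → ℝ) (α β : ℝ) : Prop where
  cont : Continuous f
  nn : ∀ t, 0 ≤ f t
  lt : α < β
  pos : ∀ t ∈ Ioo α β, 0 < f t
  zero : ∀ t, t ∉ Ioo α β → f t = 0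
  total : ∫ t, f t = 1

variable {f : ℝ → ℝ} {α β : ℝ}

namespace Dens

variable (hf : Dens f α β)
include hf

lemma integrable : Integrable f volume :=
  hf.cont.integrable_of_hasCompactSupport (HasCompactSupport.intro (isCompact_Icc (a := α) (b := β))
    fun t ht => hf.zero t fun h => ht (Ioo_subset_Icc_self h))

lemma ii (a b : ℝ) : IntervalIntegrable f volume a b := hf.cont.intervalIntegrable a b

/-- the measure. -/
noncomputable def m (hf : Dens f α β) : Measure ℝ := volume.withDensity fun t => ENNReal.ofReal (f t)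

/-- the CDF. -/
noncomputable def H (hf : Dens f α β) (t : ℝ) : ℝ := ∫ x in α..t, f x

lemma m_univ : hf.m univ = 1 := by
  unfold m
  rw [withDensity_apply _ MeasurableSet.univ, Measure.restrict_univ,
    ← ofReal_integral_eq_lintegral_ofReal hf.integrable (Filter.Eventually.of_forall hf.nn), hf.total,
    ENNReal.ofReal_one]

lemma isProb : IsProbabilityMeasure hf.m := ⟨hf.m_univ⟩

lemma H_cont : Continuous hf.H :=
  intervalIntegral.continuous_primitive (fun a b => hf.ii a b) α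

lemma H_sub (s t : ℝ) : hf.H t - hf.H s = ∫ x in s..t, f x :=
  intervalIntegral.integral_interval_sub_left (hf.ii _ _) (hf.ii _ _)

lemma H_α : hf.H α = 0 := intervalIntegral.integral_same

lemma m_Iic (t : ℝ) : hf.m (Iic t) = ENNReal.ofReal (hf.H t) := by
  unfold m
  rw [withDensity_apply _ measurableSet_Iic,
    ← ofReal_integral_eq_lintegral_ofReal hf.integrable.integrableOn
      (Filter.Eventually.of_forall hf.nn)]
  congr 1
  have h := intervalIntegral.integral_Iic_sub_Iic (f := f) (a := α) (b := t)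
    hf.integrable.integrableOn hf.integrable.integrableOn
  have h0 : ∫ x in Iic α, f x = 0 := by
    refine setIntegral_eq_zero_of_forall_eq_zero fun x hx => hf.zero x fun h => ?_
    exact absurd h.1 (not_lt.2 hx)
  rw [h0, sub_zero] at h
  rw [h]
  rfl

lemma H_mono : Monotone hf.H := by
  intro s t hst
  have := hf.H_sub s t
  have h2 : 0 ≤ ∫ x in s..t, f x := intervalIntegral.integral_nonneg hst fun x _ => hf.nn x
  linarith

lemma H_strict {s t : ℝ} (hs : α ≤ s) (ht : t ≤ β) (hst : s < t) : hf.H s < hf.H t := by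
  have := hf.H_sub s t
  have h2 : 0 < ∫ x in s..t, f x :=
    intervalIntegral.intervalIntegral_pos_of_pos_on (hf.ii _ _)
      (fun x hx => hf.pos x ⟨lt_of_le_of_lt hs hx.1, lt_of_lt_of_le hx.2 ht⟩) hst
  linarith

lemma compl_null : hf.m (Ioo α β)ᶜ = 0 := by
  unfold m
  rw [withDensity_apply _ measurableSet_Ioo.compl,
    setLIntegral_congr_fun (g := fun _ => 0) measurableSet_Ioo.compl]
  · simp
  · intro x hx
    simp [hf.zero x hx]

lemma ae_Ioo : ∀ᵐ t ∂hf.m, t ∈ Ioo α β := by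
  rw [ae_iff]; exact hf.compl_null

lemma H_β : hf.H β = 1 := by
  have := hf.isProb
  have h1 : hf.m (Iic β) = 1 := by
    rw [← prob_compl_eq_zero_iff measurableSet_Iic]
    have hs : (Iic β)ᶜ ⊆ (Ioo α β)ᶜ := fun t ht h => ht h.2.le
    exact measure_mono_null hs hf.compl_null
  rw [hf.m_Iic] at h1
  exact ENNReal.ofReal_eq_one.1 h1

lemma H_of_le {t : ℝ} (ht : t ≤ α) : hf.H t = 0 := by
  have h := hf.H_sub t α
  have h2 : ∫ x in t..α, f x = 0 := by
    rw [intervalIntegral.integral_congr (g := fun _ => 0)]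
    · simp
    · intro x hx
      rw [uIcc_of_le ht] at hx
      exact hf.zero x fun h => absurd h.1 (not_lt.2 hx.2)
  rw [h2, hf.H_α] at h
  linarith

lemma H_of_ge {t : ℝ} (ht : β ≤ t) : hf.H t = 1 := by
  have h := hf.H_sub β t
  have h2 : ∫ x in β..t, f x = 0 := by
    rw [intervalIntegral.integral_congr (g := fun _ => 0)]
    · simp
    · intro x hx
      rw [uIcc_of_le ht] at hx
      exact hf.zero x fun h => absurd h.2 (not_lt.2 hx.1)
  rw [h2, hf.H_β] at h
  linarith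

lemma H_mem (t : ℝ) : hf.H t ∈ Icc (0 : ℝ) 1 := by
  constructor
  · calc (0 : ℝ) = hf.H (min t α) := (hf.H_of_le (min_le_right _ _)).symm
      _ ≤ hf.H t := hf.H_mono (min_le_left _ _)
  · calc hf.H t ≤ hf.H (max t β) := hf.H_mono (le_max_left _ _)
      _ = 1 := hf.H_of_ge (le_max_right _ _)

lemma surj {u : ℝ} (hu : u ∈ Icc (0 : ℝ) 1) : ∃ t ∈ Icc α β, hf.H t = u := by
  have h := intermediate_value_Icc hf.lt.le (hf.H_cont.continuousOn (s := Icc α β))
  rw [hf.H_α, hf.H_β] at h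
  exact h hu

lemma inj {s t : ℝ} (hs : s ∈ Icc α β) (ht : t ∈ Icc α β) (h : hf.H s = hf.H t) : s = t := by
  rcases lt_trichotomy s t with hlt | heq | hgt
  · exact absurd h (hf.H_strict hs.1 ht.2 hlt).ne
  · exact heq
  · exact absurd h.symm (hf.H_strict ht.1 hs.2 hgt).ne

/-- clamp to `[0,1]`. -/
noncomputable def clamp (u : ℝ) : ℝ := max 0 (min u 1)

omit hf in
lemma clamp_mem (u : ℝ) : clamp u ∈ Icc (0 : ℝ) 1 :=
  ⟨le_max_left _ _, max_le zero_le_one (min_le_right _ _)⟩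

omit hf in
lemma clamp_of_mem {u : ℝ} (hu : u ∈ Icc (0 : ℝ) 1) : clamp u = u := by
  unfold clamp
  rw [min_eq_left hu.2, max_eq_right hu.1]

omit hf in
lemma clamp_mono : Monotone clamp := fun _ _ h =>
  max_le_max le_rfl (min_le_min h le_rfl)

/-- the inverse of the CDF. -/
noncomputable def G (hf : Dens f α β) (u : ℝ) : ℝ := Function.invFunOn hf.H (Icc α β) (clamp u)

lemma G_mem (u : ℝ) : hf.G u ∈ Icc α β := by
  obtain ⟨t, ht, he⟩ := hf.surj (clamp_mem u)
  exact Function.invFunOn_mem ⟨t, ht, he⟩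

lemma H_G' (u : ℝ) : hf.H (hf.G u) = clamp u := by
  obtain ⟨t, ht, he⟩ := hf.surj (clamp_mem u)
  exact Function.invFunOn_eq ⟨t, ht, he⟩

lemma H_G {u : ℝ} (hu : u ∈ Icc (0 : ℝ) 1) : hf.H (hf.G u) = u := by
  rw [hf.H_G', clamp_of_mem hu]

lemma G_H {t : ℝ} (ht : t ∈ Icc α β) : hf.G (hf.H t) = t :=
  hf.inj (hf.G_mem _) ht (hf.H_G (hf.H_mem t))

lemma G_mono : Monotone hf.G := by
  intro u v huv
  by_contra hlt
  rw [not_le] at hlt
  have h1 := hf.H_strict (hf.G_mem v).1 (hf.G_mem u).2 hlt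
  rw [hf.H_G', hf.H_G'] at h1
  exact absurd (clamp_mono huv) (not_le.2 h1)

lemma G_meas : Measurable hf.G := hf.G_mono.measurable

lemma H_meas : Measurable hf.H := hf.H_cont.measurable

/-- the CDF pushes the measure to Lebesgue on `[0,1)`. -/
lemma map_H : hf.m.map hf.H = L := by
  have := hf.isProb
  have : IsFiniteMeasure L := by unfold L; infer_instance
  refine Measure.ext_of_Iic _ _ fun x => ?_
  rw [Measure.map_apply hf.H_meas measurableSet_Iic]
  unfold L
  rw [Measure.restrict_apply measurableSet_Iic]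
  rcases lt_or_ge x 0 with hx | hx
  · have h1 : hf.H ⁻¹' Iic x = ∅ := by
      ext t
      simp only [mem_preimage, mem_Iic, mem_empty_iff_false, iff_false, not_le]
      exact lt_of_lt_of_le hx (hf.H_mem t).1
    have h2 : Iic x ∩ Ico (0 : ℝ) 1 = ∅ := by
      ext t
      simp only [mem_inter_iff, mem_Iic, mem_Ico, mem_empty_iff_false, iff_false, not_and, not_lt]
      intro h3 h4
      linarith
    rw [h1, h2]
    simp
  rcases lt_or_ge x 1 with hx1 | hx1
  · have hy := hf.H_G (u := x) ⟨hx, hx1.le⟩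
    set y := hf.G x with hyd
    have hym := hf.G_mem x
    have h1 : hf.H ⁻¹' Iic x = Iic y := by
      ext t
      simp only [mem_preimage, mem_Iic]
      constructor
      · intro ht
        by_contra hlt
        rw [not_le] at hlt
        rcases le_or_gt t β with htβ | htβ
        · have := hf.H_strict hym.1 htβ hlt
          linarith
        · have := hf.H_of_ge htβ.le
          linarith
      · intro ht
        calc hf.H t ≤ hf.H y := hf.H_mono ht
          _ = x := hy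
    have h2 : Iic x ∩ Ico (0 : ℝ) 1 = Icc 0 x := by
      ext t
      simp only [mem_inter_iff, mem_Iic, mem_Ico, mem_Icc]
      constructor
      · rintro ⟨h3, h4, h5⟩
        exact ⟨h4, h3⟩
      · rintro ⟨h3, h4⟩
        exact ⟨h4, h3, lt_of_le_of_lt h4 hx1⟩
    rw [h1, hf.m_Iic, hy, h2, Real.volume_Icc, sub_zero]
  · have h1 : hf.H ⁻¹' Iic x = univ := by
      ext t
      simp only [mem_preimage, mem_Iic, mem_univ, iff_true]
      exact (hf.H_mem t).2.trans hx1
    have h2 : Iic x ∩ Ico (0 : ℝ) 1 = Ico 0 1 := by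
      rw [inter_eq_right]
      intro t ht
      exact ht.2.le.trans hx1
    rw [h1, h2, Real.volume_Ico, hf.m_univ]
    simp

lemma ae_H : ∀ᵐ t ∂hf.m, hf.H t ∈ Ico (0 : ℝ) 1 := by
  have h : ∀ᵐ u ∂(hf.m.map hf.H), u ∈ Ico (0 : ℝ) 1 := by
    rw [hf.map_H]
    unfold L
    exact ae_restrict_mem measurableSet_Ico
  exact ae_of_ae_map hf.H_meas.aemeasurable h

lemma ae_G_H : (hf.G ∘ hf.H) =ᵐ[hf.m] id :=
  hf.ae_Ioo.mono fun t ht => hf.G_H (Ioo_subset_Icc_self ht)

/-- `G` pushes Lebesgue back to the measure. -/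
lemma map_G : L.map hf.G = hf.m := by
  rw [← hf.map_H, Measure.map_map hf.G_meas hf.H_meas, Measure.map_congr hf.ae_G_H, Measure.map_id]

/-- uniform injectivity of the CDF. -/
lemma unif_inj {ε : ℝ} (hε : 0 < ε) : ∃ c : ℝ, 0 < c ∧ ∀ s ∈ Icc α β, ∀ t ∈ Icc α β,
    |hf.H s - hf.H t| < c → |s - t| < ε := by
  set K' : Set (ℝ × ℝ) := (Icc α β ×ˢ Icc α β) ∩ {p | ε ≤ |p.1 - p.2|} with hK'
  have hcl : IsClosed {p : ℝ × ℝ | ε ≤ |p.1 - p.2|} :=
    isClosed_le continuous_const (by fun_prop)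
  have hcomp : IsCompact K' := (isCompact_Icc.prod isCompact_Icc).inter_right hcl
  have hφ : Continuous fun p : ℝ × ℝ => |hf.H p.1 - hf.H p.2| :=
    ((hf.H_cont.comp continuous_fst).sub (hf.H_cont.comp continuous_snd)).abs
  rcases K'.eq_empty_or_nonempty with he | hne
  · refine ⟨1, one_pos, fun s hs t ht _ => ?_⟩
    by_contra hcon
    rw [not_lt] at hcon
    have : (s, t) ∈ K' := ⟨⟨hs, ht⟩, hcon⟩
    rw [he] at this
    exact this
  · obtain ⟨p, hp, hmin⟩ := hcomp.exists_isMinOn hne hφ.continuousOn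
    refine ⟨|hf.H p.1 - hf.H p.2|, ?_, fun s hs t ht hst => ?_⟩
    · rw [abs_pos, sub_ne_zero]
      intro he
      have := hf.inj hp.1.1 hp.1.2 he
      have h2 : ε ≤ |p.1 - p.2| := hp.2
      rw [this, sub_self, abs_zero] at h2
      linarith
    · by_contra hcon
      rw [not_lt] at hcon
      have hm : (s, t) ∈ K' := ⟨⟨hs, ht⟩, hcon⟩
      have := hmin hm
      exact absurd hst (not_lt.2 this)

/-- one half of the splitting on the line. -/
lemma halfSplit {ε c : ℝ} {N : ℕ} (hN : 0 < N) (hNc : 1 / (N : ℝ) ≤ c)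
    (huc : ∀ s ∈ Icc α β, ∀ t ∈ Icc α β, |hf.H s - hf.H t| < c → |s - t| < ε)
    {b : ℝ} (hb0 : 0 ≤ b) (hb1 : b ≤ 1 / 2) :
    HS hf.m (fun x y => |x - y|) ε (hf.H ⁻¹' U N b) (hf.G ∘ Dm N b ∘ hf.H) (hf.G ∘ Zm N b ∘ hf.H) := by
  have mD : Measurable (hf.G ∘ Dm N b) := hf.G_meas.comp (measurable_Dm b)
  have mZ : Measurable (hf.G ∘ Zm N b) := hf.G_meas.comp (measurable_Zm b)
  have hU := measurableSet_U (N := N) b
  have hmap : (hf.m.restrict (hf.H ⁻¹' U N b)).map hf.H = L.restrict (U N b) := by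
    rw [← Measure.restrict_map hf.H_meas hU, hf.map_H]
  refine ⟨hf.H_meas hU, mD.comp hf.H_meas, mZ.comp hf.H_meas, ?_, ?_, ?_, ?_⟩
  · have e : hf.G ∘ Dm N b ∘ hf.H = (hf.G ∘ Dm N b) ∘ hf.H := rfl
    rw [e, ← Measure.map_map mD hf.H_meas, hmap, ← Measure.map_map hf.G_meas (measurable_Dm b),
      map_Dm hN hb0 hb1, Measure.map_smul, hf.map_G]
  · have e : hf.G ∘ Zm N b ∘ hf.H = (hf.G ∘ Zm N b) ∘ hf.H := rfl
    rw [e, ← Measure.map_map mZ hf.H_meas, Measure.map_smul, hf.map_H,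
      ← Measure.map_map hf.G_meas (measurable_Zm b), map_Zm hN hb0 hb1,
      ← hmap, Measure.map_map hf.G_meas hf.H_meas]
    have hae : (hf.G ∘ hf.H) =ᵐ[hf.m.restrict (hf.H ⁻¹' U N b)] id := ae_restrict_of_ae hf.ae_G_H
    rw [Measure.map_congr hae, Measure.map_id]
  · filter_upwards [hf.ae_H, hf.ae_Ioo] with t h1 h2 hA
    obtain ⟨h3, h4⟩ := Dm_spec hN hb0 hb1 h1 hA
    refine huc _ (hf.G_mem _) t (Ioo_subset_Icc_self h2) ?_
    simp only [Function.comp_apply]
    rw [hf.H_G ⟨h3.1, h3.2.le⟩]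
    exact lt_of_lt_of_le h4 hNc
  · filter_upwards [hf.ae_H, hf.ae_Ioo] with t h1 h2
    obtain ⟨h3, h4⟩ := Zm_spec hN hb0 hb1 h1
    refine huc _ (hf.G_mem _) t (Ioo_subset_Icc_self h2) ?_
    simp only [Function.comp_apply]
    rw [hf.H_G ⟨h3.1, h3.2.le⟩]
    exact lt_of_lt_of_le h4 hNc

/-- the full splitting on the line. -/
theorem split {ε : ℝ} (hε : 0 < ε) : ∃ (A₀ A₁ : Set ℝ) (η₀ η₁ ζ₀ ζ₁ : ℝ → ℝ),
    Disjoint A₀ A₁ ∧ A₀ ∪ A₁ = univ ∧
    HS hf.m (fun x y => |x - y|) ε A₀ η₀ ζ₀ ∧ HS hf.m (fun x y => |x - y|) ε A₁ η₁ ζ₁ := by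
  obtain ⟨c, hc, huc⟩ := hf.unif_inj hε
  obtain ⟨N, hN⟩ := exists_nat_gt (1 / c)
  have hNpos : 0 < N := by
    have : (0 : ℝ) < N := lt_trans (by positivity) hN
    exact_mod_cast this
  have hNc : 1 / (N : ℝ) ≤ c := by
    have hp : (0 : ℝ) < N := by exact_mod_cast hNpos
    rw [div_le_iff₀ hp]
    rw [div_lt_iff₀ hc] at hN
    linarith
  refine ⟨hf.H ⁻¹' U N 0, hf.H ⁻¹' U N (1 / 2), _, _, _, _, ?_, ?_,
    hf.halfSplit hNpos hNc huc le_rfl (by norm_num), hf.halfSplit hNpos hNc huc (by norm_num) le_rfl⟩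
  · exact (U_disjoint hNpos).preimage _
  · rw [← preimage_union, U_union hNpos, preimage_univ]

end Dens

end Crest.Agent.Lib.SCE.SplitAux
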