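import Mathlib

/-!
# S0175, module B, part 0: doubling and halving of Lebesgue measure on `[0,1)` on small cells.
-/

set_option autoImplicit false
set_option linter.unusedSectionVars false
set_option linter.unusedVariables false

open MeasureTheory Set
open scoped ENNReal NNReal

namespace Crest.Agent.Lib.SCE.SplitAux

/-- Lebesgue measure on the unit interval. -/
noncomputable abbrev L : Measure ℝ := volume.restrict (Ico (0 : ℝ) 1)

lemma map_affine {k : ℝ} (hk : k ≠ 0) (l : ℝ) :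
    Measure.map (fun u : ℝ => k * u + l) volume = ENNReal.ofReal |k⁻¹| • volume := by
  have h1 : (fun u : ℝ => k * u + l) = (fun v => v + l) ∘ (fun u => k * u) := rfl
  rw [h1, ← Measure.map_map (measurable_add_const l) (measurable_const_mul k),
    Real.map_volume_mul_left hk, Measure.map_smul, map_add_right_eq_self]

/-- substitution for an affine map. -/
lemma lint_affine {k : ℝ} (hk : k ≠ 0) (l : ℝ) {F : ℝ → ℝ≥0∞} (hF : Measurable F) {S : Set ℝ}
    (hS : MeasurableSet S) :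
    ∫⁻ u in (fun u : ℝ => k * u + l) ⁻¹' S, F (k * u + l) =
      ENNReal.ofReal |k⁻¹| * ∫⁻ v in S, F v := by
  have hA : Measurable (fun u : ℝ => k * u + l) := (measurable_const_mul k).add_const l
  have h := setLIntegral_map (μ := (volume : Measure ℝ)) hS hF hA
  rw [map_affine hk l, Measure.restrict_smul, lintegral_smul_measure] at h
  rw [← h]
  rfl

variable (N : ℕ)

/-- index of the cell. -/
noncomputable def idx (u : ℝ) : ℝ := ((⌊(N : ℝ) * u⌋ : ℤ) : ℝ)

/-- half-cell selection. -/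
def U (b : ℝ) : Set ℝ := {u | Int.fract ((N : ℝ) * u) ∈ Ico b (b + 1 / 2)}

/-- doubling map. -/
noncomputable def Dm (b u : ℝ) : ℝ := 2 * u + -((idx N u + 2 * b) / N)

/-- halving map. -/
noncomputable def Zm (b u : ℝ) : ℝ := 2⁻¹ * u + (idx N u + 2 * b) / (2 * N)

/-- the cells. -/
noncomputable def Cell (j : ℕ) : Set ℝ := Ico ((j : ℝ) / N) (((j : ℝ) + 1) / N)

/-- the half cells. -/
noncomputable def CellH (b : ℝ) (j : ℕ) : Set ℝ := Ico (((j : ℝ) + b) / N) (((j : ℝ) + b + 1 / 2) / N)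

variable {N}

lemma measurable_idx : Measurable (idx N) := by
  unfold idx
  exact (measurable_from_top (f := fun z : ℤ => (z : ℝ))).comp
    (Int.measurable_floor.comp (measurable_const_mul _))

lemma measurableSet_U (b : ℝ) : MeasurableSet (U N b) := by
  have : Measurable fun u : ℝ => Int.fract ((N : ℝ) * u) :=
    measurable_fract.comp (measurable_const_mul _)
  exact this measurableSet_Ico

lemma measurable_Dm (b : ℝ) : Measurable (Dm N b) := by
  unfold Dm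
  exact (measurable_const_mul 2).add (((measurable_idx.add_const _).div_const _).neg)

lemma measurable_Zm (b : ℝ) : Measurable (Zm N b) := by
  unfold Zm
  exact (measurable_const_mul _).add ((measurable_idx.add_const _).div_const _)

variable (hN : 0 < N)
include hN

lemma N_pos : (0 : ℝ) < N := by exact_mod_cast hN

lemma mem_Cell_iff {j : ℕ} {u : ℝ} : u ∈ Cell N j ↔ (j : ℝ) ≤ N * u ∧ (N : ℝ) * u < j + 1 := by
  have h := N_pos hN
  unfold Cell
  rw [mem_Ico, div_le_iff₀ h, lt_div_iff₀ h, mul_comm u]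

lemma idx_of_mem_Cell {j : ℕ} {u : ℝ} (hu : u ∈ Cell N j) : idx N u = j := by
  have h := (mem_Cell_iff hN).1 hu
  unfold idx
  have : ⌊(N : ℝ) * u⌋ = (j : ℤ) := by
    rw [Int.floor_eq_iff]
    push_cast
    exact h
  rw [this]
  simp

lemma fract_of_mem_Cell {j : ℕ} {u : ℝ} (hu : u ∈ Cell N j) :
    Int.fract ((N : ℝ) * u) = N * u - j := by
  have h := idx_of_mem_Cell hN hu
  unfold idx at h
  rw [Int.fract, h]

lemma Cell_inter_U (b : ℝ) (j : ℕ) : Cell N j ∩ U N b = Cell N j ∩ CellH N b j := by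
  have hp := N_pos hN
  ext u
  constructor
  · rintro ⟨h1, h2⟩
    refine ⟨h1, ?_⟩
    have h3 : Int.fract ((N : ℝ) * u) ∈ Ico b (b + 1 / 2) := h2
    rw [fract_of_mem_Cell hN h1] at h3
    unfold CellH
    rw [mem_Ico, div_le_iff₀ hp, lt_div_iff₀ hp]
    constructor <;> nlinarith [h3.1, h3.2]
  · rintro ⟨h1, h2⟩
    refine ⟨h1, ?_⟩
    change Int.fract ((N : ℝ) * u) ∈ Ico b (b + 1 / 2)
    rw [fract_of_mem_Cell hN h1]
    unfold CellH at h2
    rw [mem_Ico, div_le_iff₀ hp, lt_div_iff₀ hp] at h2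
    constructor <;> nlinarith [h2.1, h2.2]

lemma CellH_subset {b : ℝ} (hb0 : 0 ≤ b) (hb1 : b ≤ 1 / 2) (j : ℕ) : CellH N b j ⊆ Cell N j := by
  have hp := N_pos hN
  unfold CellH Cell
  apply Ico_subset_Ico
  · apply div_le_div_of_nonneg_right _ hp.le; linarith
  · apply div_le_div_of_nonneg_right _ hp.le; linarith

lemma Cell_inter_U' {b : ℝ} (hb0 : 0 ≤ b) (hb1 : b ≤ 1 / 2) (j : ℕ) :
    Cell N j ∩ U N b = CellH N b j := by
  rw [Cell_inter_U hN, inter_eq_right.2 (CellH_subset hN hb0 hb1 j)]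

lemma biUnion_Cell : ⋃ j ∈ Finset.range N, Cell N j = Ico (0 : ℝ) 1 := by
  have hp := N_pos hN
  ext u
  simp only [mem_iUnion, Finset.mem_range, exists_prop]
  constructor
  · rintro ⟨j, hj, hu⟩
    have h := (mem_Cell_iff hN).1 hu
    have hj' : (j : ℝ) + 1 ≤ N := by exact_mod_cast hj
    have hj0 : (0 : ℝ) ≤ j := Nat.cast_nonneg j
    constructor
    · by_contra hneg
      push Not at hneg
      nlinarith
    · by_contra hneg
      push Not at hneg
      nlinarith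
  · rintro ⟨h0, h1⟩
    have hnn : 0 ≤ (N : ℝ) * u := by positivity
    refine ⟨⌊(N : ℝ) * u⌋₊, ?_, ?_⟩
    · rw [Nat.floor_lt hnn]
      nlinarith
    · rw [mem_Cell_iff hN]
      exact ⟨Nat.floor_le hnn, Nat.lt_floor_add_one _⟩

lemma Cell_disjoint : (↑(Finset.range N) : Set ℕ).PairwiseDisjoint (Cell N) := by
  intro i _ j _ hij
  rw [Function.onFun, Set.disjoint_left]
  intro u hi hj
  have h1 := idx_of_mem_Cell hN hi
  have h2 := idx_of_mem_Cell hN hj
  rw [h1] at h2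
  exact hij (by exact_mod_cast h2)

lemma measurableSet_Cell (j : ℕ) : MeasurableSet (Cell N j) := measurableSet_Ico

/-- `[0,1) ∩ U = ⋃ half cells`. -/
lemma biUnion_CellH {b : ℝ} (hb0 : 0 ≤ b) (hb1 : b ≤ 1 / 2) :
    ⋃ j ∈ Finset.range N, CellH N b j = Ico (0 : ℝ) 1 ∩ U N b := by
  rw [← biUnion_Cell hN, iUnion₂_inter]
  refine iUnion₂_congr fun j _ => ?_
  rw [Cell_inter_U' hN hb0 hb1]

lemma CellH_disjoint {b : ℝ} (hb0 : 0 ≤ b) (hb1 : b ≤ 1 / 2) :
    (↑(Finset.range N) : Set ℕ).PairwiseDisjoint (CellH N b) := by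
  intro i hi j hj hij
  exact ((Cell_disjoint hN) hi hj hij).mono (CellH_subset hN hb0 hb1 i) (CellH_subset hN hb0 hb1 j)

/-- the preimage of a cell under the affine doubling. -/
lemma preimage_D {b : ℝ} (j : ℕ) :
    (fun u : ℝ => 2 * u + -(((j : ℝ) + 2 * b) / N)) ⁻¹' Cell N j = CellH N b j := by
  have hp := N_pos hN
  ext u
  rw [mem_preimage, mem_Cell_iff hN]
  unfold CellH
  rw [mem_Ico, div_le_iff₀ hp, lt_div_iff₀ hp]
  have e : (N : ℝ) * (2 * u + -(((j : ℝ) + 2 * b) / N)) = 2 * (N * u) - (j + 2 * b) := by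
    field_simp
    ring
  rw [e]
  constructor
  · rintro ⟨h1, h2⟩
    constructor <;> nlinarith
  · rintro ⟨h1, h2⟩
    constructor <;> nlinarith

/-- the preimage of a half cell under the affine halving. -/
lemma preimage_Z {b : ℝ} (j : ℕ) :
    (fun u : ℝ => 2⁻¹ * u + ((j : ℝ) + 2 * b) / (2 * N)) ⁻¹' CellH N b j = Cell N j := by
  have hp := N_pos hN
  ext u
  rw [mem_preimage, mem_Cell_iff hN]
  unfold CellH
  rw [mem_Ico, div_le_iff₀ hp, lt_div_iff₀ hp]
  have e : (2⁻¹ * u + ((j : ℝ) + 2 * b) / (2 * N)) * (N : ℝ) = 2⁻¹ * (N * u) + ((j : ℝ) + 2 * b) / 2 := by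
    field_simp
  rw [e]
  constructor
  · rintro ⟨h1, h2⟩
    constructor <;> nlinarith
  · rintro ⟨h1, h2⟩
    constructor <;> nlinarith

lemma lint_L (F : ℝ → ℝ≥0∞) :
    ∫⁻ u, F u ∂L = ∑ j ∈ Finset.range N, ∫⁻ u in Cell N j, F u := by
  unfold L
  rw [← biUnion_Cell hN]
  exact lintegral_biUnion_finset (Cell_disjoint hN) (fun j _ => measurableSet_Cell hN j) F

lemma lint_L_U {b : ℝ} (hb0 : 0 ≤ b) (hb1 : b ≤ 1 / 2) (F : ℝ → ℝ≥0∞) :
    ∫⁻ u, F u ∂(L.restrict (U N b)) = ∑ j ∈ Finset.range N, ∫⁻ u in CellH N b j, F u := by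
  unfold L
  rw [Measure.restrict_restrict (measurableSet_U b), inter_comm, ← biUnion_CellH hN hb0 hb1]
  exact lintegral_biUnion_finset (CellH_disjoint hN hb0 hb1) (fun j _ => measurableSet_Ico) F

lemma ofReal_two_inv_abs : ENNReal.ofReal |(2 : ℝ)⁻¹| = 2⁻¹ := by
  rw [abs_of_pos (by norm_num), ENNReal.ofReal_inv_of_pos (by norm_num)]
  norm_num

lemma ofReal_two_abs : ENNReal.ofReal |((2 : ℝ)⁻¹)⁻¹| = 2 := by
  rw [inv_inv, abs_of_pos (by norm_num)]
  norm_num

/-- doubling pushes `L|U` to `½ L`. -/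
theorem map_Dm {b : ℝ} (hb0 : 0 ≤ b) (hb1 : b ≤ 1 / 2) :
    (L.restrict (U N b)).map (Dm N b) = (2⁻¹ : ℝ≥0∞) • L := by
  refine Measure.ext_of_lintegral _ fun F hF => ?_
  rw [lintegral_map hF (measurable_Dm b), lintegral_smul_measure, lint_L_U hN hb0 hb1, lint_L hN,
    smul_eq_mul, Finset.mul_sum]
  refine Finset.sum_congr rfl fun j _ => ?_
  have hcongr : ∫⁻ u in CellH N b j, F (Dm N b u) =
      ∫⁻ u in CellH N b j, F (2 * u + -(((j : ℝ) + 2 * b) / N)) := by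
    refine setLIntegral_congr_fun measurableSet_Ico fun u hu => ?_
    have hc := CellH_subset hN hb0 hb1 j hu
    simp only [Dm, idx_of_mem_Cell hN hc]
  rw [hcongr, ← preimage_D hN (b := b) j, lint_affine (by norm_num) _ hF (measurableSet_Cell hN j)]
  congr 1
  rw [abs_of_pos (by norm_num), ENNReal.ofReal_inv_of_pos (by norm_num)]
  norm_num

/-- halving pushes `½ L` to `L|U`. -/
theorem map_Zm {b : ℝ} (hb0 : 0 ≤ b) (hb1 : b ≤ 1 / 2) :
    ((2⁻¹ : ℝ≥0∞) • L).map (Zm N b) = L.restrict (U N b) := by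
  refine Measure.ext_of_lintegral _ fun F hF => ?_
  rw [lintegral_map hF (measurable_Zm b), lintegral_smul_measure, lint_L_U hN hb0 hb1, lint_L hN,
    smul_eq_mul, Finset.mul_sum]
  refine Finset.sum_congr rfl fun j _ => ?_
  have hcongr : ∫⁻ u in Cell N j, F (Zm N b u) =
      ∫⁻ u in Cell N j, F (2⁻¹ * u + ((j : ℝ) + 2 * b) / (2 * N)) := by
    refine setLIntegral_congr_fun (measurableSet_Cell hN j) fun u hu => ?_
    simp only [Zm, idx_of_mem_Cell hN hu]
  rw [hcongr]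
  nth_rewrite 1 [← preimage_Z hN (b := b) j]
  rw [lint_affine (S := CellH N b j) (by norm_num) _ hF measurableSet_Ico, ofReal_two_abs hN, ← mul_assoc,
    ENNReal.inv_mul_cancel (by norm_num) (by norm_num), one_mul]

/-- `U 0` and `U (1/2)` partition the line. -/
lemma U_union : U N 0 ∪ U N (1 / 2) = univ := by
  ext u
  simp only [mem_union, mem_univ, iff_true]
  change Int.fract ((N : ℝ) * u) ∈ Ico (0 : ℝ) (0 + 1 / 2) ∨ Int.fract ((N : ℝ) * u) ∈ Ico (1 / 2 : ℝ) (1 / 2 + 1 / 2)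
  simp only [mem_Ico]
  have h0 := Int.fract_nonneg ((N : ℝ) * u)
  have h1 := Int.fract_lt_one ((N : ℝ) * u)
  by_cases h : Int.fract ((N : ℝ) * u) < 1 / 2
  · left; constructor <;> linarith
  · right; constructor <;> linarith

lemma U_disjoint : Disjoint (U N 0) (U N (1 / 2)) := by
  rw [Set.disjoint_left]
  intro u h0 h1
  have h2 : Int.fract ((N : ℝ) * u) ∈ Ico (0 : ℝ) (0 + 1 / 2) := h0
  have h3 : Int.fract ((N : ℝ) * u) ∈ Ico (1 / 2 : ℝ) (1 / 2 + 1 / 2) := h1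
  linarith [h2.2, h3.1]

/-- the cell of a point of `[0,1)`. -/
lemma exists_Cell {u : ℝ} (hu : u ∈ Ico (0 : ℝ) 1) : ∃ j ∈ Finset.range N, u ∈ Cell N j := by
  rw [← biUnion_Cell hN] at hu
  simpa using hu

lemma Cell_subset {j : ℕ} (hj : j ∈ Finset.range N) : Cell N j ⊆ Ico (0 : ℝ) 1 := by
  rw [← biUnion_Cell hN]
  exact subset_biUnion_of_mem (u := Cell N) (by exact_mod_cast hj)

lemma abs_sub_lt_of_Cell {j : ℕ} {u v : ℝ} (hu : u ∈ Cell N j) (hv : v ∈ Cell N j) :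
    |v - u| < 1 / N := by
  have hp := N_pos hN
  have h1 := (mem_Cell_iff hN).1 hu
  have h2 := (mem_Cell_iff hN).1 hv
  rw [abs_lt]
  constructor
  · rw [neg_lt, neg_sub, lt_div_iff₀ hp]
    nlinarith [h1.1, h1.2, h2.1, h2.2]
  · rw [lt_div_iff₀ hp]
    nlinarith [h1.1, h1.2, h2.1, h2.2]

/-- doubling on `[0,1) ∩ U` stays in the cell. -/
lemma Dm_spec {b : ℝ} (hb0 : 0 ≤ b) (hb1 : b ≤ 1 / 2) {u : ℝ} (hu : u ∈ Ico (0 : ℝ) 1)
    (hU : u ∈ U N b) : Dm N b u ∈ Ico (0 : ℝ) 1 ∧ |Dm N b u - u| < 1 / N := by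
  obtain ⟨j, hj, huj⟩ := exists_Cell hN hu
  have hH : u ∈ CellH N b j := by
    rw [← Cell_inter_U' hN hb0 hb1]
    exact ⟨huj, hU⟩
  have e : Dm N b u = 2 * u + -(((j : ℝ) + 2 * b) / N) := by
    simp only [Dm, idx_of_mem_Cell hN huj]
  have hv : Dm N b u ∈ Cell N j := by
    rw [e]
    have : u ∈ (fun u : ℝ => 2 * u + -(((j : ℝ) + 2 * b) / N)) ⁻¹' Cell N j := by
      rw [preimage_D hN]; exact hH
    exact this
  exact ⟨Cell_subset hN hj hv, abs_sub_lt_of_Cell hN huj hv⟩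

/-- halving on `[0,1)` stays in the cell. -/
lemma Zm_spec {b : ℝ} (hb0 : 0 ≤ b) (hb1 : b ≤ 1 / 2) {u : ℝ} (hu : u ∈ Ico (0 : ℝ) 1) :
    Zm N b u ∈ Ico (0 : ℝ) 1 ∧ |Zm N b u - u| < 1 / N := by
  obtain ⟨j, hj, huj⟩ := exists_Cell hN hu
  have e : Zm N b u = 2⁻¹ * u + ((j : ℝ) + 2 * b) / (2 * N) := by
    simp only [Zm, idx_of_mem_Cell hN huj]
  have hv : Zm N b u ∈ Cell N j := by
    rw [e]
    have : u ∈ (fun u : ℝ => 2⁻¹ * u + ((j : ℝ) + 2 * b) / (2 * N)) ⁻¹' CellH N b j := by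
      rw [preimage_Z hN]; exact huj
    exact CellH_subset hN hb0 hb1 j this
  exact ⟨Cell_subset hN hj hv, abs_sub_lt_of_Cell hN huj hv⟩

end Crest.Agent.Lib.SCE.SplitAux
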